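import Vale.Agent.P088.H924.Orth
import Vale.Agent.P088.H158.PushB

/-!
# P088, theorem J: the harmonic frame
-/

open MeasureTheory Set Filter Topology
open scoped ContDiff Matrix

noncomputable section

namespace Vale.Agent.P088.H924

open Vale.Agent.P088.LR Vale.Agent.P088.LR.H158

variable {n N : ℕ}

/-- Matrix fields with complex entries. -/
abbrev MC (n N : ℕ) := V n → Matrix (Fin N) (Fin N) ℂ

/-- `D_j F = ∂_j F + A_j F`. -/
def cdF (A : Cn n N) (j : Fin n) (F : MC n N) (x : V n) : Matrix (Fin N) (Fin N) ℂ :=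
  pdm j F x + A j x * F x

/-- The flux of the frame. -/
def HF (s : MF n) (A : Cn n N) (F : MC n N) (i : Fin n) (x : V n) :
    Matrix (Fin N) (Fin N) ℂ := ∑ j, (s x i j : ℂ) • cdF A j F x

/-- `L F`. -/
def LF (s : MF n) (A : Cn n N) (F : MC n N) (x : V n) : Matrix (Fin N) (Fin N) ℂ :=
  ∑ i, cdF A i (HF s A F i) x

/-- `P = Fᴴ F`. -/
def PF (F : MC n N) (x : V n) : Matrix (Fin N) (Fin N) ℂ := (F x)ᴴ * F x

/-- `K_j = Fᴴ D_j F - (D_j F)ᴴ F`. -/
def KF (A : Cn n N) (F : MC n N) (j : Fin n) (x : V n) : Matrix (Fin N) (Fin N) ℂ :=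
  (F x)ᴴ * cdF A j F x - (cdF A j F x)ᴴ * F x

/-- `T_ij = s_ij P`. -/
def TF (s : MF n) (F : MC n N) (i j : Fin n) (x : V n) : Matrix (Fin N) (Fin N) ℂ :=
  (s x i j : ℂ) • PF F x

/-- `κ_i = ∑ s_ij K_j`. -/
def kF (s : MF n) (A : Cn n N) (F : MC n N) (i : Fin n) (x : V n) :
    Matrix (Fin N) (Fin N) ℂ := ∑ j, (s x i j : ℂ) • KF A F j x

/-- `M u = ∂_j (T_ij ∂_i u) + κ_i ∂_i u`. -/
def MFr (s : MF n) (A : Cn n N) (F : MC n N) (u : V n → Fin N → ℂ) (x : V n) : Fin N → ℂ :=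
  ∑ j, pd j (fun y => ∑ i, TF s F i j y *ᵥ pd i u y) x + ∑ i, kF s A F i x *ᵥ pd i u x

/-- The integrand of the identity. -/
def qs (s : MF n) (A : Cn n N) (F : MC n N) (u v : V n → Fin N → ℂ) (x : V n) : ℂ :=
  (∑ i, ∑ j, (TF s F i j x *ᵥ pd i u x) ⬝ᵥ star (pd j v x)) -
    ∑ i, (kF s A F i x *ᵥ pd i u x) ⬝ᵥ star (v x)

/-! ## Smoothness -/

theorem smC_pdm {F : MC n N} (hF : SmC F) (j : Fin n) : SmC (fun x => pdm j F x) := by
  intro a b
  simp only [pdm, Matrix.of_apply]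
  exact LR.contDiff_pd (hF a b) j

theorem smC_add {F G : MC n N} (hF : SmC F) (hG : SmC G) : SmC (fun x => F x + G x) := by
  intro a b
  simp only [Matrix.add_apply]
  exact (hF a b).add (hG a b)

theorem smC_smul {c : V n → ℂ} (hc : ContDiff ℝ ∞ c) {F : MC n N} (hF : SmC F) :
    SmC (fun x => c x • F x) := by
  intro a b
  simp only [Matrix.smul_apply, smul_eq_mul]
  exact hc.mul (hF a b)

theorem smC_sum {ι : Type*} (t : Finset ι) {F : ι → MC n N} (hF : ∀ i, SmC (F i)) :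
    SmC (fun x => ∑ i ∈ t, F i x) := by
  intro a b
  simp only [Matrix.sum_apply]
  exact ContDiff.sum fun i _ => hF i a b

theorem smC_A {A : Cn n N} (hA : SmU A) (j : Fin n) : SmC (A j) := hA.1 j

theorem smC_cdF {A : Cn n N} (hA : SmU A) {F : MC n N} (hF : SmC F) (j : Fin n) :
    SmC (cdF A j F) :=
  smC_add (smC_pdm hF j) (SmC_mul (smC_A hA j) hF)

theorem smC_HF {s : MF n} (hs : SmM s) {A : Cn n N} (hA : SmU A) {F : MC n N} (hF : SmC F)
    (i : Fin n) : SmC (HF s A F i) :=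
  smC_sum _ fun j => smC_smul (Complex.ofRealCLM.contDiff.comp (hs i j)) (smC_cdF hA hF j)

/-! ## Calculus -/

theorem adj (M : Matrix (Fin N) (Fin N) ℂ) (a b : Fin N → ℂ) :
    (Mᴴ *ᵥ a) ⬝ᵥ star b = a ⬝ᵥ star (M *ᵥ b) := by
  rw [Matrix.star_mulVec, dotProduct_comm a, ← Matrix.dotProduct_mulVec, dotProduct_comm]

theorem pd_dot {a b : V n → Fin N → ℂ} (ha : ContDiff ℝ ∞ a) (hb : ContDiff ℝ ∞ b) (i : Fin n)
    (x : V n) : pd i (fun y => a y ⬝ᵥ star (b y)) x =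
      pd i a x ⬝ᵥ star (b x) + a x ⬝ᵥ star (pd i b x) := by
  unfold dotProduct
  have hac : ∀ c, ContDiff ℝ ∞ fun y => a y c := fun c => (contDiff_pi.1 ha) c
  have hbc : ∀ c, ContDiff ℝ ∞ fun y => star (b y c) := fun c =>
    contDiff_star ((contDiff_pi.1 hb) c)
  have h1 : pd i (fun y => ∑ c, a y c * star (b y c)) x =
      ∑ c, pd i (fun y => a y c * star (b y c)) x :=
    pd_sum (f := fun c y => a y c * star (b y c)) (u := Finset.univ)
      (fun c _ => (dfa (hac c) x).mul (dfa (hbc c) x)) i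
  have h2 : (fun y => ∑ c, a y c * star (b y) c) = fun y => ∑ c, a y c * star (b y c) := rfl
  rw [h2, h1, ← Finset.sum_add_distrib]
  refine Finset.sum_congr rfl fun c _ => ?_
  rw [pd_mul (dfa (hac c) x) (dfa (hbc c) x), pd_star (dfa ((contDiff_pi.1 hb) c) x),
    ← pd_pi (dfa ha x) i c, ← pd_pi (dfa hb x) i c]
  rfl

theorem pd_dot_cd {A : Cn n N} (hA : SmU A) {a b : V n → Fin N → ℂ} (ha : ContDiff ℝ ∞ a)
    (hb : ContDiff ℝ ∞ b) (i : Fin n) (x : V n) : pd i (fun y => a y ⬝ᵥ star (b y)) x =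
      cd A i a x ⬝ᵥ star (b x) + a x ⬝ᵥ star (cd A i b x) := by
  rw [pd_dot ha hb]
  unfold cd
  have h1 : (A i x *ᵥ a x) ⬝ᵥ star (b x) = -(a x ⬝ᵥ star (A i x *ᵥ b x)) := by
    have h2 := adj (A i x) (a x) (b x)
    rw [hA.2 i x, Matrix.neg_mulVec, neg_dotProduct] at h2
    rw [← h2, neg_neg]
  rw [add_dotProduct, star_add, dotProduct_add, h1]
  ring

theorem cd_F {A : Cn n N} {F : MC n N} (hF : SmC F) {u : V n → Fin N → ℂ}
    (hu : ContDiff ℝ ∞ u) (j : Fin n) (x : V n) :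
    cd A j (fun y => F y *ᵥ u y) x = cdF A j F x *ᵥ u x + F x *ᵥ pd j u x := by
  unfold cd cdF
  rw [pd_mulVec hF hu, Matrix.add_mulVec, Matrix.mulVec_mulVec]
  abel

theorem pdm_adj {A : Cn n N} (hA : SmU A) {G H : MC n N} (hG : SmC G) (hH : SmC H) (i : Fin n)
    (x : V n) : pdm i (fun y => (G y)ᴴ * H y) x =
      (cdF A i G x)ᴴ * H x + (G x)ᴴ * cdF A i H x := by
  rw [pdm_mul (SmC_star hG) hH, pdm_star hG]
  unfold cdF
  rw [Matrix.conjTranspose_add, Matrix.conjTranspose_mul, hA.2 i x]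
  noncomm_ring

theorem sum_swap (S : Matrix (Fin n) (Fin n) ℝ) (hS : S.IsSymm) {E : Type*} [AddCommMonoid E]
    [Module ℂ E] (f : Fin n → Fin n → E) :
    ∑ i, ∑ j, (S i j : ℂ) • f i j = ∑ i, ∑ j, (S i j : ℂ) • f j i := by
  rw [Finset.sum_comm]
  refine Finset.sum_congr rfl fun i _ => Finset.sum_congr rfl fun j _ => ?_
  rw [hS.apply i j]

/-- (C1) the divergence of `κ`. -/
theorem div_kF {s : MF n} (hs : SmM s) (hsym : ∀ x, (s x).IsSymm) {A : Cn n N} (hA : SmU A)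
    {F : MC n N} (hF : SmC F) (x : V n) :
    ∑ i, pdm i (kF s A F i) x = (F x)ᴴ * LF s A F x - (LF s A F x)ᴴ * F x := by
  have h1 : ∀ i, kF s A F i = fun y => (F y)ᴴ * HF s A F i y - (HF s A F i y)ᴴ * F y := by
    intro i
    funext y
    unfold kF KF HF
    rw [Finset.mul_sum, Matrix.conjTranspose_sum, Finset.sum_mul, ← Finset.sum_sub_distrib]
    refine Finset.sum_congr rfl fun j _ => ?_
    rw [Matrix.conjTranspose_smul, Matrix.mul_smul, Matrix.smul_mul, smul_sub]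
    simp
  have h2 : ∀ i, pdm i (kF s A F i) x =
      ((cdF A i F x)ᴴ * HF s A F i x + (F x)ᴴ * cdF A i (HF s A F i) x) -
        ((cdF A i (HF s A F i) x)ᴴ * F x + (HF s A F i x)ᴴ * cdF A i F x) := by
    intro i
    rw [h1 i]
    have hH := smC_HF hs hA hF i
    rw [← pdm_adj hA hF hH, ← pdm_adj hA hH hF]
    ext a b
    simp only [pdm, Matrix.of_apply, Matrix.sub_apply]
    exact pd_sub (dfa (SmC_mul (SmC_star hF) hH a b) x) (dfa (SmC_mul (SmC_star hH) hF a b) x) i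
  have h3 : ∑ i, (cdF A i F x)ᴴ * HF s A F i x = ∑ i, (HF s A F i x)ᴴ * cdF A i F x := by
    unfold HF
    simp only [Finset.mul_sum, Matrix.conjTranspose_sum, Finset.sum_mul,
      Matrix.conjTranspose_smul, Matrix.mul_smul, Matrix.smul_mul]
    have e : ∀ i j, star (s x i j : ℂ) = (s x i j : ℂ) := fun i j => by simp
    simp only [e]
    exact sum_swap (s x) (hsym x) fun i j => (cdF A i F x)ᴴ * cdF A j F x
  simp only [h2, Finset.sum_sub_distrib, Finset.sum_add_distrib]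
  rw [h3]
  unfold LF
  rw [Finset.mul_sum, Matrix.conjTranspose_sum, Finset.sum_mul]
  abel

/-- (C2) the frame removes the term of order zero. -/
theorem frame_M {s : MF n} (hs : SmM s) (hsym : ∀ x, (s x).IsSymm) {A : Cn n N} (hA : SmU A)
    {F : MC n N} (hF : SmC F) {u : V n → Fin N → ℂ} (hu : ContDiff ℝ ∞ u) {x : V n}
    (h0 : LF s A F x = 0) :
    (F x)ᴴ *ᵥ LA s A (fun y => F y *ᵥ u y) x = MFr s A F u x := by
  set q : Fin n → V n → Fin N → ℂ := fun i y => ∑ j, (s y i j : ℂ) • pd j u y with hq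
  have hpu : ∀ j, ContDiff ℝ ∞ (pd j u) := fun j => H158.contDiff_pd hu j
  have hqs : ∀ i, ContDiff ℝ ∞ (q i) := fun i =>
    ContDiff.sum fun j _ => (Complex.ofRealCLM.contDiff.comp (hs i j)).smul (hpu j)
  have hHs := fun i => smC_HF hs hA hF i
  have e1 : LA s A (fun y => F y *ᵥ u y) x = LF s A F x *ᵥ u x +
      (∑ i, HF s A F i x *ᵥ pd i u x) + (∑ i, cdF A i F x *ᵥ q i x) +
        F x *ᵥ ∑ i, pd i (q i) x := by
    have h1 : ∀ i, cd A i (fun y => ∑ j, (s y i j : ℂ) • cd A j (fun y => F y *ᵥ u y) y) x =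
        cdF A i (HF s A F i) x *ᵥ u x + HF s A F i x *ᵥ pd i u x +
          (cdF A i F x *ᵥ q i x + F x *ᵥ pd i (q i) x) := by
      intro i
      have h2 : (fun y => ∑ j, (s y i j : ℂ) • cd A j (fun y => F y *ᵥ u y) y) =
          fun y => HF s A F i y *ᵥ u y + F y *ᵥ q i y := by
        funext y
        simp only [hq, HF, cd_F hF hu, smul_add, Finset.sum_add_distrib]
        rw [Matrix.sum_mulVec, Matrix.mulVec_sum]
        simp only [Matrix.smul_mulVec, Matrix.mulVec_smul]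
      rw [h2, ← cd_F (hHs i) hu, ← cd_F hF (hqs i)]
      unfold cd
      rw [pd_add (dfa (contDiff_mulVec (hHs i) hu) x) (dfa (contDiff_mulVec hF (hqs i)) x),
        Matrix.mulVec_add]
      abel
    unfold LA
    rw [Finset.sum_congr rfl fun i _ => h1 i]
    simp only [Finset.sum_add_distrib]
    unfold LF
    rw [Matrix.sum_mulVec, Matrix.mulVec_sum]
    abel
  have e2 : ∑ i, HF s A F i x *ᵥ pd i u x = ∑ i, cdF A i F x *ᵥ q i x := by
    simp only [hq, HF, Matrix.sum_mulVec, Matrix.mulVec_sum, Matrix.smul_mulVec,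
      Matrix.mulVec_smul]
    exact sum_swap (s x) (hsym x) fun i j => cdF A j F x *ᵥ pd i u x
  have e3 : ∀ j, (fun y => ∑ i, TF s F i j y *ᵥ pd i u y) = fun y => PF F y *ᵥ q j y := by
    intro j
    funext y
    simp only [hq, TF, Matrix.mulVec_sum, Matrix.smul_mulVec, Matrix.mulVec_smul]
    refine Finset.sum_congr rfl fun i _ => ?_
    rw [(hsym y).apply j i]
  have hP : SmC (PF F) := SmC_mul (SmC_star hF) hF
  have e4 : ∀ j, pd j (fun y => ∑ i, TF s F i j y *ᵥ pd i u y) x =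
      ((cdF A j F x)ᴴ * F x + (F x)ᴴ * cdF A j F x) *ᵥ q j x + PF F x *ᵥ pd j (q j) x := by
    intro j
    rw [e3 j, pd_mulVec hP (hqs j)]
    congr 2
    exact pdm_adj hA hF hF j x
  have e5 : ∑ i, kF s A F i x *ᵥ pd i u x = ∑ j, KF A F j x *ᵥ q j x := by
    simp only [hq, kF, Matrix.sum_mulVec, Matrix.mulVec_sum, Matrix.smul_mulVec,
      Matrix.mulVec_smul]
    exact sum_swap (s x) (hsym x) fun i j => KF A F j x *ᵥ pd i u x
  unfold MFr
  rw [e1, e2, h0, e5]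
  simp only [e4, Finset.sum_add_distrib, Matrix.zero_mulVec, zero_add]
  rw [Matrix.mulVec_add, Matrix.mulVec_add, Matrix.mulVec_mulVec, Matrix.mulVec_sum,
    Matrix.mulVec_sum]
  have e6 : ∀ j, (F x)ᴴ *ᵥ (cdF A j F x *ᵥ q j x) = ((F x)ᴴ * cdF A j F x) *ᵥ q j x := fun j =>
    Matrix.mulVec_mulVec _ _ _
  simp only [e6, KF, Matrix.add_mulVec, Matrix.sub_mulVec, Finset.sum_add_distrib,
    Finset.sum_sub_distrib, PF]
  abel

/-- (C3) the pointwise identity. -/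
theorem frame_id {s : MF n} (hs : SmM s) (hsym : ∀ x, (s x).IsSymm) {A : Cn n N} (hA : SmU A)
    {F : MC n N} (hF : SmC F) {u v : V n → Fin N → ℂ} (hu : ContDiff ℝ ∞ u)
    (hv : ContDiff ℝ ∞ v) {x : V n} (h0 : LF s A F x = 0) :
    qf (s x) (fun i => cd A i (fun y => F y *ᵥ u y) x) (fun i => cd A i (fun y => F y *ᵥ v y) x) =
      qs s A F u v x + ∑ i, pd i (fun y => (HF s A F i y *ᵥ u y) ⬝ᵥ star (F y *ᵥ v y)) x := by
  set q : Fin n → Fin N → ℂ := fun i => ∑ j, (s x i j : ℂ) • pd j u x with hq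
  have hHs := fun i => smC_HF hs hA hF i
  -- the form
  have e1 : qf (s x) (fun i => cd A i (fun y => F y *ᵥ u y) x)
      (fun i => cd A i (fun y => F y *ᵥ v y) x) =
      ∑ j, (HF s A F j x *ᵥ u x + F x *ᵥ q j) ⬝ᵥ
        star (cdF A j F x *ᵥ v x + F x *ᵥ pd j v x) := by
    unfold qf
    rw [Finset.sum_comm]
    refine Finset.sum_congr rfl fun j _ => ?_
    rw [← cd_F hF hv]
    have h1 : HF s A F j x *ᵥ u x + F x *ᵥ q j =
        ∑ i, (s x i j : ℂ) • cd A i (fun y => F y *ᵥ u y) x := by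
      simp only [hq, HF, cd_F hF hu, smul_add, Finset.sum_add_distrib]
      rw [Matrix.sum_mulVec, Matrix.mulVec_sum]
      simp only [Matrix.smul_mulVec, Matrix.mulVec_smul]
      congr 1
      · exact Finset.sum_congr rfl fun i _ => by rw [(hsym x).apply i j]
      · exact Finset.sum_congr rfl fun i _ => by rw [(hsym x).apply i j]
    rw [h1, sum_dotProduct]
    exact Finset.sum_congr rfl fun i _ => by rw [smul_dotProduct, smul_eq_mul]
  -- the divergence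
  have e2 : ∑ i, pd i (fun y => (HF s A F i y *ᵥ u y) ⬝ᵥ star (F y *ᵥ v y)) x =
      (∑ i, (HF s A F i x *ᵥ pd i u x) ⬝ᵥ star (F x *ᵥ v x)) +
        ∑ i, (HF s A F i x *ᵥ u x) ⬝ᵥ star (cdF A i F x *ᵥ v x + F x *ᵥ pd i v x) := by
    have h1 : ∀ i, pd i (fun y => (HF s A F i y *ᵥ u y) ⬝ᵥ star (F y *ᵥ v y)) x =
        (cdF A i (HF s A F i) x *ᵥ u x) ⬝ᵥ star (F x *ᵥ v x) +
          (HF s A F i x *ᵥ pd i u x) ⬝ᵥ star (F x *ᵥ v x) +
          (HF s A F i x *ᵥ u x) ⬝ᵥ star (cdF A i F x *ᵥ v x + F x *ᵥ pd i v x) := by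
      intro i
      rw [pd_dot_cd hA (contDiff_mulVec (hHs i) hu) (contDiff_mulVec hF hv), cd_F (hHs i) hu,
        cd_F hF hv, add_dotProduct]
    have h2 : ∑ i, (cdF A i (HF s A F i) x *ᵥ u x) ⬝ᵥ star (F x *ᵥ v x) = 0 := by
      rw [← sum_dotProduct, ← Matrix.sum_mulVec]
      have : ∑ i, cdF A i (HF s A F i) x = 0 := h0
      rw [this, Matrix.zero_mulVec, zero_dotProduct]
    simp only [h1, Finset.sum_add_distrib, h2, zero_add]
  -- `qs`
  have e3 : ∑ i, ∑ j, (TF s F i j x *ᵥ pd i u x) ⬝ᵥ star (pd j v x) =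
      ∑ j, (F x *ᵥ q j) ⬝ᵥ star (F x *ᵥ pd j v x) := by
    rw [Finset.sum_comm]
    refine Finset.sum_congr rfl fun j _ => ?_
    rw [← adj, ← sum_dotProduct, Matrix.mulVec_mulVec]
    congr 1
    simp only [hq, TF, PF, Matrix.mulVec_sum, Matrix.smul_mulVec, Matrix.mulVec_smul]
    exact Finset.sum_congr rfl fun i _ => by rw [(hsym x).apply j i]
  have e4 : ∑ i, (kF s A F i x *ᵥ pd i u x) ⬝ᵥ star (v x) =
      (∑ i, (HF s A F i x *ᵥ pd i u x) ⬝ᵥ star (F x *ᵥ v x)) -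
        ∑ j, (F x *ᵥ q j) ⬝ᵥ star (cdF A j F x *ᵥ v x) := by
    have h1 : ∑ i, kF s A F i x *ᵥ pd i u x = ∑ j, KF A F j x *ᵥ q j := by
      simp only [hq, kF, Matrix.sum_mulVec, Matrix.mulVec_sum, Matrix.smul_mulVec,
        Matrix.mulVec_smul]
      exact sum_swap (s x) (hsym x) fun i j => KF A F j x *ᵥ pd i u x
    have h2 : ∑ i, HF s A F i x *ᵥ pd i u x = ∑ j, cdF A j F x *ᵥ q j := by
      simp only [hq, HF, Matrix.sum_mulVec, Matrix.mulVec_sum, Matrix.smul_mulVec,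
        Matrix.mulVec_smul]
      exact sum_swap (s x) (hsym x) fun i j => cdF A j F x *ᵥ pd i u x
    rw [← sum_dotProduct, h1, ← sum_dotProduct, h2, sum_dotProduct, sum_dotProduct,
      ← Finset.sum_sub_distrib]
    refine Finset.sum_congr rfl fun j _ => ?_
    rw [← adj (F x), ← adj (cdF A j F x), Matrix.mulVec_mulVec, Matrix.mulVec_mulVec]
    unfold KF
    rw [Matrix.sub_mulVec, sub_dotProduct]
  rw [e1, e2]
  unfold qs
  rw [e3, e4]
  simp only [add_dotProduct, star_add, dotProduct_add, Finset.sum_add_distrib]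
  ring

end Vale.Agent.P088.H924
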