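import Vale.Agent.P088.H158.ConnA
import Vale.Agent.P088.H757.Weak
import Vale.Agent.P088.H198.Defs5

/-!
# P088, stage J: orthogonality from the data of `(g, A)`, any rank
-/

open MeasureTheory Set Filter Topology
open scoped ContDiff Matrix

noncomputable section

namespace Vale.Agent.P088.H924

open Vale.Agent.P088.LR Vale.Agent.P088.LR.H158

variable {n N : ℕ}

/-- Integration by parts with compactly supported test functions. -/
theorem ibp_gen {Ω K : Set (V n)} (hKc : IsCompact K) (hK : K ⊆ Ω) {G : Fin n → V n → ℂ}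
    (hG : ∀ j, ContDiff ℝ ∞ (G j)) {ψ : V n → ℂ} (hψ : ContDiff ℝ ∞ ψ)
    (hz : ∀ x ∉ K, ψ x = 0) :
    ∫ x in Ω, ∑ j, G j x * pd j ψ x = -∫ x in Ω, (∑ j, pd j (G j) x) * ψ x := by
  have hcs : HasCompactSupport ψ := HasCompactSupport.intro hKc hz
  have hpz : ∀ x ∉ K, ∀ j, pd j ψ x = 0 := by
    intro x hx j
    have : ψ =ᶠ[𝓝 x] fun _ => (0 : ℂ) := by
      filter_upwards [hKc.isClosed.isOpen_compl.mem_nhds hx] with y hy
      exact hz y hy
    unfold pd
    rw [this.fderiv_eq]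
    simp
  have hpcs : ∀ j, HasCompactSupport (pd j ψ) := fun j =>
    HasCompactSupport.intro hKc fun x hx => hpz x hx j
  have h1 : ∫ x in Ω, ∑ j, G j x * pd j ψ x = ∫ x, ∑ j, G j x * pd j ψ x := by
    apply setIntegral_eq_integral_of_forall_compl_eq_zero
    intro x hx
    exact Finset.sum_eq_zero fun j _ => by rw [hpz x (fun h => hx (hK h)) j, mul_zero]
  have h1' : ∫ x in Ω, (∑ j, pd j (G j) x) * ψ x = ∫ x, (∑ j, pd j (G j) x) * ψ x := by
    apply setIntegral_eq_integral_of_forall_compl_eq_zero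
    intro x hx
    rw [hz x (fun h => hx (hK h)), mul_zero]
  have i1 : ∀ j, Integrable (fun x => pd j (G j) x * ψ x) := fun j =>
    ((LR.contDiff_pd (hG j) j).continuous.mul hψ.continuous).integrable_of_hasCompactSupport
      hcs.mul_left
  have i2 : ∀ j, Integrable (fun x => G j x * pd j ψ x) := fun j =>
    ((hG j).continuous.mul (LR.contDiff_pd hψ j).continuous).integrable_of_hasCompactSupport
      (hpcs j).mul_left
  have i3 : ∀ j, Integrable (fun x => G j x * ψ x) := fun j =>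
    ((hG j).continuous.mul hψ.continuous).integrable_of_hasCompactSupport hcs.mul_left
  have h2 : ∀ j, ∫ x, G j x * pd j ψ x = -∫ x, pd j (G j) x * ψ x := fun j =>
    integral_mul_fderiv_eq_neg_fderiv_mul_of_integrable (i1 j) (i2 j) (i3 j)
      (fun x _ => (hG j).differentiable (by simp) x) (fun x _ => hψ.differentiable (by simp) x)
  rw [h1, h1', integral_finsetSum _ fun j _ => i2 j]
  simp only [Finset.sum_mul]
  rw [integral_finsetSum _ fun j _ => i1 j, ← Finset.sum_neg_distrib]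
  exact Finset.sum_congr rfl fun j _ => h2 j

theorem trunc_le {T : ℂ → ℂ} (hT : ContDiff ℝ ∞ T) {M : ℝ} (hM : ∀ z, ‖fderiv ℝ T z‖ ≤ M)
    (h0 : T 0 = 0) (z : ℂ) : ‖T z‖ ≤ M * ‖z‖ := by
  have h1 := Convex.norm_image_sub_le_of_norm_fderiv_le (𝕜 := ℝ) (f := T) (s := univ) (C := M)
    (x := 0) (y := z) (fun w _ => hT.differentiable (by simp) w) (fun w _ => hM w) convex_univ
    (mem_univ _) (mem_univ _)
  rwa [h0, sub_zero, sub_zero] at h1

/-- **Integration by parts on an arbitrary bounded open set**, test function zero on the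
frontier. -/
theorem weak_flux {Ω : Set (V n)} (hΩ : IsOpen Ω) (hb : Bornology.IsBounded Ω)
    {G : Fin n → V n → ℂ} (hG : ∀ j, ContDiff ℝ ∞ (G j)) {φ : V n → ℂ} (hφ : ContDiff ℝ ∞ φ)
    (h0 : ∀ x ∈ frontier Ω, φ x = 0) :
    ∫ x in Ω, ∑ j, G j x * pd j φ x = -∫ x in Ω, (∑ j, pd j (G j) x) * φ x := by
  obtain ⟨T, hT, hT1, hT2⟩ := exists_trunc
  obtain ⟨hTid, M, hM0, hM⟩ := trunc_bound hT hT2
  have hTc : Continuous (fderiv ℝ T) := hT.continuous_fderiv (by simp)
  have hT0 : T 0 = 0 := hT1 0 (by simp)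
  have hDc : Continuous fun x => ∑ j, pd j (G j) x :=
    continuous_finsetSum _ fun j _ => (LR.contDiff_pd (hG j) j).continuous
  let F : ℕ → V n → ℂ := fun k x => ∑ j, G j x * fderiv ℝ T (((k : ℝ) + 1) • φ x) (pd j φ x)
  let H : ℕ → V n → ℂ := fun k x =>
    (∑ j, pd j (G j) x) * (((k : ℝ) + 1)⁻¹ • T (((k : ℝ) + 1) • φ x))
  have hFH : ∀ k, ∫ x in Ω, F k x = -∫ x in Ω, H k x := by
    intro k
    have hk : (0 : ℝ) < (k : ℝ) + 1 := by positivity
    obtain ⟨K, hKc, hKΩ, hz, hsm, hpd⟩ := cut_facts hΩ hb hT hT1 hk hφ h0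
    have := ibp_gen hKc hKΩ hG hsm hz
    have e1 : ∫ x in Ω, F k x = ∫ x in Ω, ∑ j, G j x * pd j (cut Ω T ((k : ℝ) + 1) φ) x := by
      apply setIntegral_congr_fun hΩ.measurableSet
      intro x hx
      simp only [F]
      apply Finset.sum_congr rfl
      intro j _
      rw [hpd x hx j]
    have e2 : ∫ x in Ω, H k x =
        ∫ x in Ω, (∑ j, pd j (G j) x) * cut Ω T ((k : ℝ) + 1) φ x := by
      apply setIntegral_congr_fun hΩ.measurableSet
      intro x hx
      simp only [H, cut]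
      rw [if_pos hx]
    rw [e1, e2, this]
  have hint : ∀ {f : V n → ℝ}, Continuous f → Integrable f (volume.restrict Ω) := fun hf =>
    (hf.continuousOn.integrableOn_compact hb.isCompact_closure).mono_set subset_closure
  have hlim : Tendsto (fun k => ∫ x in Ω, F k x) atTop
      (𝓝 (∫ x in Ω, ∑ j, G j x * pd j φ x)) := by
    apply tendsto_integral_of_dominated_convergence
      (fun x => ∑ j, ‖G j x‖ * (M * ‖pd j φ x‖))
    · intro k
      apply Continuous.aestronglyMeasurable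
      refine continuous_finsetSum _ fun j _ => ?_
      refine (hG j).continuous.mul ?_
      exact (hTc.comp (hφ.continuous.const_smul ((k : ℝ) + 1))).clm_apply
        (LR.contDiff_pd hφ j).continuous
    · refine hint (continuous_finsetSum _ fun j _ => ?_)
      exact (hG j).continuous.norm.mul
        (continuous_const.mul (LR.contDiff_pd hφ j).continuous.norm)
    · intro k
      refine Eventually.of_forall fun x => ?_
      refine (norm_sum_le _ _).trans (Finset.sum_le_sum fun j _ => ?_)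
      rw [norm_mul]
      refine mul_le_mul_of_nonneg_left ?_ (norm_nonneg _)
      exact ((fderiv ℝ T _).le_opNorm _).trans
        (mul_le_mul_of_nonneg_right (hM _) (norm_nonneg _))
    · have hae := ae_restrict_of_ae (s := Ω) (ae_fderiv_complex φ (hφ.differentiable (by simp)))
      filter_upwards [hae] with x hx
      by_cases hx0 : φ x = 0
      · have hd := hx hx0
        have : ∀ j, pd j φ x = 0 := by
          intro j
          unfold pd
          rw [hd]
          simp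
        simp [F, this]
      · have hpos : 0 < ‖φ x‖ := norm_pos_iff.2 hx0
        obtain ⟨N, hN⟩ := exists_nat_gt (2 / ‖φ x‖)
        apply tendsto_const_nhds.congr'
        filter_upwards [eventually_ge_atTop N] with k hk
        have hkN : (N : ℝ) ≤ k := by exact_mod_cast hk
        have hbig : 2 < ‖((k : ℝ) + 1) • φ x‖ := by
          rw [norm_smul, Real.norm_of_nonneg (by positivity)]
          rw [div_lt_iff₀ hpos] at hN
          nlinarith
        simp only [F]
        rw [hTid _ hbig]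
        simp
  have hlim2 : Tendsto (fun k => ∫ x in Ω, H k x) atTop
      (𝓝 (∫ x in Ω, (∑ j, pd j (G j) x) * φ x)) := by
    apply tendsto_integral_of_dominated_convergence
      (fun x => ‖∑ j, pd j (G j) x‖ * (M * ‖φ x‖))
    · intro k
      apply Continuous.aestronglyMeasurable
      have hc : Continuous fun x => T (((k : ℝ) + 1) • φ x) :=
        hT.continuous.comp (hφ.continuous.const_smul ((k : ℝ) + 1))
      have hc2 : Continuous fun x => ((k : ℝ) + 1)⁻¹ • T (((k : ℝ) + 1) • φ x) :=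
        hc.const_smul (((k : ℝ) + 1)⁻¹)
      exact hDc.mul hc2
    · exact hint (hDc.norm.mul (continuous_const.mul hφ.continuous.norm))
    · intro k
      refine Eventually.of_forall fun x => ?_
      have hk : (0 : ℝ) < (k : ℝ) + 1 := by positivity
      simp only [H]
      rw [norm_mul]
      refine mul_le_mul_of_nonneg_left ?_ (norm_nonneg _)
      rw [norm_smul, norm_inv, Real.norm_of_nonneg hk.le]
      have h1 := trunc_le hT hM hT0 (((k : ℝ) + 1) • φ x)
      rw [norm_smul, Real.norm_of_nonneg hk.le] at h1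
      calc ((k : ℝ) + 1)⁻¹ * ‖T (((k : ℝ) + 1) • φ x)‖
          ≤ ((k : ℝ) + 1)⁻¹ * (M * (((k : ℝ) + 1) * ‖φ x‖)) := by gcongr
        _ = M * ‖φ x‖ := by field_simp
    · refine Eventually.of_forall fun x => ?_
      by_cases hx0 : φ x = 0
      · have : ∀ k : ℕ, H k x = (∑ j, pd j (G j) x) * φ x := by
          intro k
          simp only [H, hx0, smul_zero, hT0, mul_zero]
        simp only [this]
        exact tendsto_const_nhds
      · have hpos : 0 < ‖φ x‖ := norm_pos_iff.2 hx0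
        obtain ⟨N, hN⟩ := exists_nat_gt (2 / ‖φ x‖)
        apply tendsto_const_nhds.congr'
        filter_upwards [eventually_ge_atTop N] with k hk
        have hkN : (N : ℝ) ≤ k := by exact_mod_cast hk
        have hk1 : (k : ℝ) + 1 ≠ 0 := by positivity
        have hbig : 2 ≤ ‖((k : ℝ) + 1) • φ x‖ := by
          rw [norm_smul, Real.norm_of_nonneg (by positivity)]
          rw [div_lt_iff₀ hpos] at hN
          nlinarith
        simp only [H]
        rw [hT2 _ hbig, smul_smul, inv_mul_cancel₀ hk1, one_smul]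
  simp_rw [hFH] at hlim
  exact tendsto_nhds_unique hlim hlim2.neg

/-- `L u = ∑ (∂_i + A_i) (s_ij (∂_j + A_j) u)`. -/
def LA (s : MF n) (A : Cn n N) (u : V n → Fin N → ℂ) (x : V n) : Fin N → ℂ :=
  ∑ i, cd A i (fun y => ∑ j, (s y i j : ℂ) • cd A j u y) x

/-- The flux of `u`. -/
def Gf (s : MF n) (A : Cn n N) (u : V n → Fin N → ℂ) (i : Fin n) (y : V n) : Fin N → ℂ :=
  ∑ j, (s y i j : ℂ) • cd A j u y

theorem contDiff_Gf {s : MF n} (hs : SmM s) {A : Cn n N} (hA : SmU A) {u : V n → Fin N → ℂ}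
    (hu : ContDiff ℝ ∞ u) (i : Fin n) : ContDiff ℝ ∞ (Gf s A u i) := by
  unfold Gf
  exact ContDiff.sum fun j _ => (Complex.ofRealCLM.contDiff.comp (hs i j)).smul
    (contDiff_cd hA hu j)

theorem qf_flux {s : MF n} (hsym : ∀ x, (s x).IsSymm) {A : Cn n N} (hA : SmU A)
    {u φ : V n → Fin N → ℂ} (hφ : ContDiff ℝ ∞ φ) (x : V n) :
    qf (s x) (fun i => cd A i u x) (fun i => cd A i φ x) =
      (∑ b, ∑ j, Gf s A u j x b * pd j (fun y => star (φ y b)) x) -
        (∑ j, A j x *ᵥ Gf s A u j x) ⬝ᵥ star (φ x) := by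
  have h1 : qf (s x) (fun i => cd A i u x) (fun i => cd A i φ x) =
      ∑ j, Gf s A u j x ⬝ᵥ star (cd A j φ x) := by
    unfold qf Gf
    rw [Finset.sum_comm]
    refine Finset.sum_congr rfl fun j _ => ?_
    rw [sum_dotProduct]
    refine Finset.sum_congr rfl fun i _ => ?_
    rw [smul_dotProduct, smul_eq_mul, (hsym x).apply i j]
  have h2 : ∀ j, Gf s A u j x ⬝ᵥ star (cd A j φ x) =
      (∑ b, Gf s A u j x b * pd j (fun y => star (φ y b)) x) -
        (A j x *ᵥ Gf s A u j x) ⬝ᵥ star (φ x) := by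
    intro j
    unfold cd
    rw [star_add, dotProduct_add, Matrix.star_mulVec]
    have e1 : Gf s A u j x ⬝ᵥ star (φ x) ᵥ* (A j x)ᴴ =
        -((A j x *ᵥ Gf s A u j x) ⬝ᵥ star (φ x)) := by
      rw [hA.2 j x, Matrix.vecMul_neg, dotProduct_neg, dotProduct_comm, ← Matrix.dotProduct_mulVec,
        dotProduct_comm]
    have e2 : Gf s A u j x ⬝ᵥ star (pd j φ x) =
        ∑ b, Gf s A u j x b * pd j (fun y => star (φ y b)) x := by
      unfold dotProduct
      refine Finset.sum_congr rfl fun b _ => ?_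
      rw [pd_star (dfa ((contDiff_pi.1 hφ) b) x), ← pd_pi (dfa hφ x) j b]
      rfl
    rw [e1, e2]
    ring
  rw [h1, Finset.sum_congr rfl fun j _ => h2 j, Finset.sum_sub_distrib, Finset.sum_comm,
    sum_dotProduct]

theorem LA_flux {s : MF n} (hs : SmM s) {A : Cn n N} (hA : SmU A)
    {u φ : V n → Fin N → ℂ} (hu : ContDiff ℝ ∞ u) (x : V n) :
    LA s A u x ⬝ᵥ star (φ x) =
      (∑ b, (∑ j, pd j (fun y => Gf s A u j y b) x) * star (φ x b)) +
        (∑ j, A j x *ᵥ Gf s A u j x) ⬝ᵥ star (φ x) := by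
  have h1 : LA s A u x = (∑ j, pd j (Gf s A u j) x) + ∑ j, A j x *ᵥ Gf s A u j x := by
    unfold LA
    rw [← Finset.sum_add_distrib]
    rfl
  rw [h1, add_dotProduct]
  congr 1
  unfold dotProduct
  refine Finset.sum_congr rfl fun b _ => ?_
  rw [Finset.sum_apply]
  congr 1
  exact Finset.sum_congr rfl fun j _ => pd_pi (dfa (contDiff_Gf hs hA hu j) x) j b

section green

variable {Ω : Set (V n)} (hΩ : IsOpen Ω) (hb : Bornology.IsBounded Ω) {g : MF n} (hg : SmM g)
  (hp : ∀ x, (g x).PosDef) {A : Cn n N} (hA : SmU A)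

include hΩ hb hg hp hA

/-- **Green formula** for `(g, A)`, test section zero on the frontier. -/
theorem en_LA {u φ : V n → Fin N → ℂ} (hu : ContDiff ℝ ∞ u) (hφ : ContDiff ℝ ∞ φ)
    (h0 : ∀ x ∈ frontier Ω, φ x = 0) :
    en Ω g A u φ = -∫ x in Ω, LA (sg g) A u x ⬝ᵥ star (φ x) := by
  have hs : SmM (sg g) := smM_sg hg hp
  have hsym : ∀ x, (sg g x).IsSymm := fun x => by
    have := (posDef_sg hp x).isHermitian
    rwa [Matrix.IsHermitian, Matrix.conjTranspose_eq_transpose_of_trivial] at this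
  have hGb : ∀ j b, ContDiff ℝ ∞ fun y => Gf (sg g) A u j y b := fun j b =>
    (contDiff_pi.1 (contDiff_Gf hs hA hu j)) b
  have hψ : ∀ b, ContDiff ℝ ∞ fun y => star (φ y b) := fun b =>
    contDiff_star ((contDiff_pi.1 hφ) b)
  have hW : ∀ b, ∫ x in Ω, ∑ j, Gf (sg g) A u j x b * pd j (fun y => star (φ y b)) x =
      -∫ x in Ω, (∑ j, pd j (fun y => Gf (sg g) A u j y b) x) * star (φ x b) := fun b =>
    weak_flux hΩ hb (fun j => hGb j b) (hψ b) fun x hx => by
      rw [h0 x hx]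
      simp
  have c1 : ∀ b, Continuous fun x => ∑ j, Gf (sg g) A u j x b * pd j (fun y => star (φ y b)) x :=
    fun b => continuous_finsetSum _ fun j _ => (hGb j b).continuous.mul
      (LR.contDiff_pd (hψ b) j).continuous
  have c2 : ∀ b, Continuous fun x =>
      (∑ j, pd j (fun y => Gf (sg g) A u j y b) x) * star (φ x b) := fun b =>
    (continuous_finsetSum _ fun j _ => (LR.contDiff_pd (hGb j b) j).continuous).mul
      (hψ b).continuous
  have c3 : Continuous fun x => (∑ j, A j x *ᵥ Gf (sg g) A u j x) ⬝ᵥ star (φ x) := by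
    have h3 : ContDiff ℝ ∞ fun x => ∑ j, A j x *ᵥ Gf (sg g) A u j x :=
      ContDiff.sum fun j _ => contDiff_mulVec (hA.1 j) (contDiff_Gf hs hA hu j)
    unfold dotProduct
    exact continuous_finsetSum _ fun b _ => ((continuous_pi_iff.1 h3.continuous) b).mul
      (hψ b).continuous
  have e1 : en Ω g A u φ = (∑ b, ∫ x in Ω, ∑ j, Gf (sg g) A u j x b *
      pd j (fun y => star (φ y b)) x) -
        ∫ x in Ω, (∑ j, A j x *ᵥ Gf (sg g) A u j x) ⬝ᵥ star (φ x) := by
    rw [en_eq]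
    simp only [qf_flux hsym hA hφ]
    rw [integral_sub (intOn hb (continuous_finsetSum _ fun b _ => c1 b)) (intOn hb c3),
      integral_finsetSum _ fun b _ => intOn hb (c1 b)]
  have e2 : ∫ x in Ω, LA (sg g) A u x ⬝ᵥ star (φ x) =
      (∑ b, ∫ x in Ω, (∑ j, pd j (fun y => Gf (sg g) A u j y b) x) * star (φ x b)) +
        ∫ x in Ω, (∑ j, A j x *ᵥ Gf (sg g) A u j x) ⬝ᵥ star (φ x) := by
    simp only [LA_flux hs hA hu]
    rw [integral_add (intOn hb (continuous_finsetSum _ fun b _ => c2 b)) (intOn hb c3),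
      integral_finsetSum _ fun b _ => intOn hb (c2 b)]
  rw [e1, e2, Finset.sum_congr rfl fun b _ => hW b, Finset.sum_neg_distrib]
  ring

omit hΩ hb hg hA in
/-- Hermitian symmetry. -/
theorem en_star (A : Cn n N) (u v : V n → Fin N → ℂ) : en Ω g A u v = star (en Ω g A v u) := by
  have hsym : ∀ x, (sg g x).IsSymm := fun x => by
    have := (posDef_sg hp x).isHermitian
    rwa [Matrix.IsHermitian, Matrix.conjTranspose_eq_transpose_of_trivial] at this
  rw [en_eq, en_eq]
  have h1 := integral_conj (μ := (volume : Measure (V n)).restrict Ω)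
    (f := fun x => qf (sg g x) (fun i => cd A i v x) (fun i => cd A i u x))
  refine Eq.trans ?_ h1
  congr 1
  funext x
  unfold qf
  rw [map_sum, Finset.sum_comm]
  refine Finset.sum_congr rfl fun j _ => ?_
  rw [map_sum]
  refine Finset.sum_congr rfl fun i _ => ?_
  rw [map_mul, Complex.conj_ofReal, (hsym x).apply j i]
  congr 1
  unfold dotProduct
  rw [map_sum]
  refine Finset.sum_congr rfl fun b _ => ?_
  simp [mul_comm]

end green

/-- **Orthogonality** from equal data, any rank. -/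
theorem orthN {Ω : Set (V n)} (hΩ : IsOpen Ω) (hb : Bornology.IsBounded Ω) {g₁ g₂ : MF n}
    (hg₁ : SmM g₁) (hg₂ : SmM g₂) (hp₁ : ∀ x, (g₁ x).PosDef) (hp₂ : ∀ x, (g₂ x).PosDef)
    {A₁ A₂ : Cn n N} (hA₁ : SmU A₁) (hA₂ : SmU A₂) (hD : SDU Ω g₁ A₁ g₂ A₂)
    {u v : V n → Fin N → ℂ} (hu : ContDiff ℝ ∞ u) (hv : ContDiff ℝ ∞ v)
    (hu0 : ∀ x ∈ Ω, LA (sg g₁) A₁ u x = 0) (hv0 : ∀ x ∈ Ω, LA (sg g₂) A₂ v x = 0) :
    en Ω g₁ A₁ u v = en Ω g₂ A₂ u v := by
  obtain ⟨U, W, U', W', hU, hW, hU', hW', e⟩ := hD u v hu hv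
  have w1 : ∀ φ : V n → Fin N → ℂ, ContDiff ℝ ∞ φ → (∀ x ∈ frontier Ω, φ x = 0) →
      en Ω g₁ A₁ u φ = 0 := by
    intro φ hφ h0
    rw [en_LA hΩ hb hg₁ hp₁ hA₁ hu hφ h0, neg_eq_zero]
    refine setIntegral_eq_zero_of_forall_eq_zero fun x hx => ?_
    rw [hu0 x hx, zero_dotProduct]
  have w2 : ∀ φ : V n → Fin N → ℂ, ContDiff ℝ ∞ φ → (∀ x ∈ frontier Ω, φ x = 0) →
      en Ω g₂ A₂ v φ = 0 := by
    intro φ hφ h0
    rw [en_LA hΩ hb hg₂ hp₂ hA₂ hv hφ h0, neg_eq_zero]
    refine setIntegral_eq_zero_of_forall_eq_zero fun x hx => ?_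
    rw [hv0 x hx, zero_dotProduct]
  have a1 : en Ω g₁ A₁ u v = en Ω g₁ A₁ u W := by
    have h1 := w1 (fun x => v x - W x) (hv.sub hW.1) fun x hx => by rw [hW.2.1 x hx, sub_self]
    rwa [en_sub hb hg₁ hp₁ hA₁ hu hv hW.1, sub_eq_zero] at h1
  have a2 : en Ω g₁ A₁ W u = en Ω g₁ A₁ W U := by
    have h1 := hW.2.2 (fun x => u x - U x) (hu.sub hU.1) fun x hx => by
      rw [hU.2.1 x hx, sub_self]
    rwa [en_sub hb hg₁ hp₁ hA₁ hW.1 hu hU.1, sub_eq_zero] at h1
  have a3 : en Ω g₂ A₂ v u = en Ω g₂ A₂ v U' := by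
    have h1 := w2 (fun x => u x - U' x) (hu.sub hU'.1) fun x hx => by
      rw [hU'.2.1 x hx, sub_self]
    rwa [en_sub hb hg₂ hp₂ hA₂ hv hu hU'.1, sub_eq_zero] at h1
  have a4 : en Ω g₂ A₂ U' v = en Ω g₂ A₂ U' W' := by
    have h1 := hU'.2.2 (fun x => v x - W' x) (hv.sub hW'.1) fun x hx => by
      rw [hW'.2.1 x hx, sub_self]
    rwa [en_sub hb hg₂ hp₂ hA₂ hU'.1 hv hW'.1, sub_eq_zero] at h1
  rw [a1, en_star hp₁ A₁ u W, a2, ← en_star hp₁ A₁ U W, e, ← a4,
    en_star hp₂ A₂ U' v, ← a3, ← en_star hp₂ A₂ u v]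

end Vale.Agent.P088.H924
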