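import Vale.Agent.P088.H599.J.Defs
import Vale.Agent.P088.H924.Orth

/-!
# P088: row U_ORT (equal data give the orthogonality, all `N`)
-/

open MeasureTheory Set

noncomputable section

namespace Vale.Agent.P088.H924

open Vale.Agent.P088.LR

/-- (U_ORT) -/
theorem ort : U.RowORT := by
  intro n N Ω hΩ hb g₁ g₂ hg₁ hg₂ hp₁ hp₂ A₁ A₂ hA₁ hA₂ hD u v hu hv hu0 hv0
  exact orthN hΩ hb hg₁ hg₂ hp₁ hp₂ hA₁ hA₂ hD hu hv hu0 hv0

end Vale.Agent.P088.H924
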