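import Vale.Agent.P088.H72.Norm
import Vale.Agent.P088.H198.Defs3

/-!
# P088, phase 2: smallness of the reduced tensor and of the potential (row NQ)
-/

open MeasureTheory Set Filter Topology
open scoped ContDiff Matrix

noncomputable section

namespace Vale.Agent.P088.H924

open Vale.Agent.P088.LR

variable {n : ℕ}

theorem cl_nonneg {k : ℕ} {δ : ℝ} {f : V n → ℝ} (h : Cl k δ f) : 0 ≤ δ :=
  (norm_nonneg _).trans (h 0 (Nat.zero_le _) 0)

theorem cl_add {k : ℕ} {a b : ℝ} {f g : V n → ℝ} (hf : ContDiff ℝ ∞ f) (hg : ContDiff ℝ ∞ g)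
    (h1 : Cl k a f) (h2 : Cl k b g) : Cl k (a + b) (fun x => f x + g x) := by
  intro l hl x
  have : iteratedFDeriv ℝ l (fun x => f x + g x) x =
      iteratedFDeriv ℝ l f x + iteratedFDeriv ℝ l g x :=
    iteratedFDeriv_add_apply (hf.of_le (by exact_mod_cast le_top)).contDiffAt
      (hg.of_le (by exact_mod_cast le_top)).contDiffAt
  rw [this]
  exact (norm_add_le _ _).trans (add_le_add (h1 l hl x) (h2 l hl x))

theorem cl_sum_aux {k : ℕ} {a : ℝ} (f : Fin n → V n → ℝ) (hf : ∀ i, ContDiff ℝ ∞ (f i))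
    (h : ∀ i, Cl k a (f i)) (s : Finset (Fin n)) :
    Cl k (s.card * a) (fun x => ∑ i ∈ s, f i x) := by
  induction s using Finset.induction_on with
  | empty =>
    intro l _ x
    simp only [Finset.sum_empty, Finset.card_empty, Nat.cast_zero, zero_mul]
    rw [iteratedFDeriv_fun_zero]
    simp
  | insert i s hi ih =>
    have h1 := cl_add (hf i) (ContDiff.sum fun j _ => hf j) (h i) ih
    rw [Finset.card_insert_of_notMem hi]
    have h2 : (fun x => ∑ j ∈ insert i s, f j x) = fun x => f i x + ∑ j ∈ s, f j x := by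
      funext x
      rw [Finset.sum_insert hi]
    rw [h2]
    refine Vale.Agent.P088.LR.H72.cl_mono h1 (le_of_eq ?_)
    push_cast
    ring

theorem cl_sum {k : ℕ} {a : ℝ} (f : Fin n → V n → ℝ) (hf : ∀ i, ContDiff ℝ ∞ (f i))
    (h : ∀ i, Cl k a (f i)) : Cl k (n * a) (fun x => ∑ i, f i x) := by
  have := cl_sum_aux f hf h Finset.univ
  rwa [Finset.card_univ, Fintype.card_fin] at this

theorem cl_pdr {k : ℕ} {δ : ℝ} {f : V n → ℝ} (hf : ContDiff ℝ ∞ f) (h : Cl (k + 1) δ f)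
    (i : Fin n) : Cl k δ (pd i f) := by
  intro l hl x
  let L : (V n →L[ℝ] ℝ) →L[ℝ] ℝ := ContinuousLinearMap.apply ℝ ℝ (Pi.single i (1 : ℝ))
  have hL : ‖L‖ ≤ 1 := by
    refine ContinuousLinearMap.opNorm_le_bound _ zero_le_one fun T => ?_
    have h1 : L T = T (Pi.single i 1) := rfl
    rw [h1, one_mul]
    refine (T.le_opNorm _).trans ?_
    rw [Pi.norm_single, norm_one, mul_one]
  have h2 : pd i f = L ∘ fderiv ℝ f := rfl
  rw [h2]
  have hfd : ContDiff ℝ ∞ (fderiv ℝ f) := hf.fderiv_right (by simp)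
  refine (ContinuousLinearMap.norm_iteratedFDeriv_comp_left L hfd.contDiffAt
    (by exact_mod_cast le_top)).trans ?_
  rw [norm_iteratedFDeriv_fderiv]
  calc ‖L‖ * ‖iteratedFDeriv ℝ (l + 1) f x‖ ≤ 1 * ‖iteratedFDeriv ℝ (l + 1) f x‖ :=
        mul_le_mul_of_nonneg_right hL (norm_nonneg _)
    _ ≤ δ := by rw [one_mul]; exact h (l + 1) (by omega) x

theorem core_compact : IsCompact (core n) := by
  have : core n = Set.pi univ fun _ => Icc (1 / 4 : ℝ) (3 / 4) := by
    ext x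
    simp only [core, mem_ofPred_eq, Set.mem_pi, mem_univ, forall_true_left, mem_Icc]
  rw [this]
  exact isCompact_univ_pi fun _ => isCompact_Icc

theorem ev_zero {f : V n → ℝ} (h : ∀ x ∉ core n, f x = 0) {x : V n} (hx : x ∉ core n) :
    f =ᶠ[𝓝 x] fun _ => 0 := by
  filter_upwards [core_compact.isClosed.isOpen_compl.mem_nhds hx] with y hy
  exact h y hy

theorem pd_off {f : V n → ℝ} (h : ∀ x ∉ core n, f x = 0) (i : Fin n) :
    ∀ x ∉ core n, pd i f x = 0 := by
  intro x hx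
  unfold pd
  rw [(ev_zero h hx).fderiv_eq]
  simp

theorem cl_mul (a : V n → ℝ) (ha : ContDiff ℝ ∞ a) (k : ℕ) : ∃ C > 0, ∀ f : V n → ℝ,
    ContDiff ℝ ∞ f → (∀ x ∉ core n, f x = 0) → ∀ δ, Cl k δ f →
    Cl k (C * δ) (fun x => a x * f x) := by
  have h1 : ∀ i : ℕ, ∃ C : ℝ, ∀ p ∈ core n, ‖iteratedFDeriv ℝ i a p‖ ≤ C := fun i =>
    core_compact.exists_bound_of_continuousOn
      (ha.continuous_iteratedFDeriv (m := i) (by exact_mod_cast le_top)).continuousOn
  choose C hC using h1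
  set D : ℝ := ∑ i ∈ Finset.range (k + 1), |C i| with hD
  have hD0 : 0 ≤ D := by positivity
  have hCD : ∀ i ≤ k, ∀ p ∈ core n, ‖iteratedFDeriv ℝ i a p‖ ≤ D := fun i hi p hp =>
    (hC i p hp).trans ((le_abs_self _).trans
      (Finset.single_le_sum (f := fun i => |C i|) (fun _ _ => abs_nonneg _)
        (Finset.mem_range.2 (by omega))))
  refine ⟨2 ^ k * D + 1, by positivity, fun f hf h0 δ hcl l hl x => ?_⟩
  have hδ := cl_nonneg hcl
  by_cases hx : x ∈ core n
  · refine (norm_iteratedFDeriv_mul_le ha hf x (n := l) (by exact_mod_cast le_top)).trans ?_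
    have h2 : ∀ i ∈ Finset.range (l + 1), (l.choose i : ℝ) * ‖iteratedFDeriv ℝ i a x‖ *
        ‖iteratedFDeriv ℝ (l - i) f x‖ ≤ (l.choose i : ℝ) * (D * δ) := by
      intro i hi
      rw [mul_assoc]
      have hi' : i ≤ k := by have := Finset.mem_range.1 hi; omega
      exact mul_le_mul_of_nonneg_left (mul_le_mul (hCD i hi' x hx) (hcl _ (by omega) x)
        (norm_nonneg _) hD0) (Nat.cast_nonneg _)
    refine (Finset.sum_le_sum h2).trans ?_
    rw [← Finset.sum_mul]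
    have h3 : (∑ i ∈ Finset.range (l + 1), (l.choose i : ℝ)) = 2 ^ l := by
      exact_mod_cast Nat.sum_range_choose l
    rw [h3]
    have h4 : (2 : ℝ) ^ l ≤ 2 ^ k := pow_le_pow_right₀ one_le_two hl
    have h5 : 0 ≤ D * δ := mul_nonneg hD0 hδ
    nlinarith [mul_le_mul_of_nonneg_right h4 h5]
  · have h2 : (fun x => a x * f x) =ᶠ[𝓝 x] fun _ => 0 :=
      ev_zero (fun y hy => by rw [h0 y hy, mul_zero]) hx
    rw [(h2.iteratedFDeriv ℝ l).eq_of_nhds, iteratedFDeriv_fun_zero]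
    simp only [Pi.zero_apply, norm_zero]
    positivity

theorem pd_cx {f : V n → ℝ} (hf : ContDiff ℝ ∞ f) (i : Fin n) (x : V n) :
    pd i (fun y => ((f y : ℝ) : ℂ)) x = ((pd i f x : ℝ) : ℂ) := by
  have h1 : HasFDerivAt (fun y => ((f y : ℝ) : ℂ)) (Complex.ofRealCLM.comp (fderiv ℝ f x)) x :=
    Complex.ofRealCLM.hasFDerivAt.comp x (hf.differentiable (by simp) x).hasFDerivAt
  unfold pd
  rw [h1.fderiv]
  rfl

theorem contDiff_pdr {f : V n → ℝ} (hf : ContDiff ℝ ∞ f) (i : Fin n) : ContDiff ℝ ∞ (pd i f) :=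
  (hf.fderiv_right (m := ∞) (by simp)).clm_apply contDiff_const

/-- The conformal factor. -/
theorem cg_sm {φ : V n → ℝ} (hφ : SmP φ) : ContDiff ℝ ∞ (cg φ) :=
  hφ.1.rpow_const_of_ne fun x => (hφ.2 x).ne'

theorem cg_pos {φ : V n → ℝ} (hφ : SmP φ) (x : V n) : 0 < cg φ x := Real.rpow_pos_of_pos (hφ.2 x) _

theorem cg_pow (hn : 3 ≤ n) {φ : V n → ℝ} (hφ : SmP φ) (x : V n) :
    cg φ x ^ n = (φ x ^ 2 * cg φ x) ^ 2 := by
  have h1 : cg φ x ^ (n - 2) = φ x ^ 4 := by
    unfold cg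
    rw [← Real.rpow_natCast, ← Real.rpow_mul (hφ.2 x).le]
    have h2 : ((n - 2 : ℕ) : ℝ) = (n : ℝ) - 2 := by
      rw [Nat.cast_sub (by omega)]; norm_num
    have h3 : (n : ℝ) - 2 ≠ 0 := by
      have : (3 : ℝ) ≤ n := by exact_mod_cast hn
      intro h
      linarith
    rw [h2, div_mul_cancel₀ _ h3]
    norm_cast
  have h4 : n = (n - 2) + 2 := by omega
  calc cg φ x ^ n = cg φ x ^ ((n - 2) + 2) := by rw [← h4]
    _ = (φ x ^ 2 * cg φ x) ^ 2 := by rw [pow_add, h1]; ring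

theorem sg_smul (hn : 3 ≤ n) {φ : V n → ℝ} (hφ : SmP φ) (g : MF n) (hg : ∀ x, (g x).PosDef)
    (x : V n) : sg g x = φ x ^ 2 • sg (fun x => (cg φ x)⁻¹ • g x) x := by
  have hc := cg_pos hφ x
  have hd : 0 < (g x).det := (hg x).det_pos
  have h1 : g x = cg φ x • ((cg φ x)⁻¹ • g x) := by
    rw [smul_smul, mul_inv_cancel₀ hc.ne', one_smul]
  set G : Matrix (Fin n) (Fin n) ℝ := (cg φ x)⁻¹ • g x with hG
  have hdet : (g x).det = (φ x ^ 2 * cg φ x) ^ 2 * G.det := by
    rw [h1, Matrix.det_smul, Fintype.card_fin, cg_pow hn hφ]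
  have hGd : 0 < G.det := by
    rw [hdet] at hd
    exact pos_of_mul_pos_right hd (by positivity)
  have hsq : √(g x).det = φ x ^ 2 * cg φ x * √G.det := by
    rw [hdet, Real.sqrt_mul (by positivity), Real.sqrt_sq]
    have := hφ.2 x
    positivity
  have hinv : (g x)⁻¹ = (cg φ x)⁻¹ • G⁻¹ := by
    refine Matrix.inv_eq_right_inv ?_
    rw [h1, Matrix.smul_mul, Matrix.mul_smul, smul_smul, mul_inv_cancel₀ hc.ne', one_smul]
    exact Matrix.mul_nonsing_inv G (isUnit_iff_ne_zero.2 hGd.ne')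
  show √(g x).det • (g x)⁻¹ = φ x ^ 2 • (√G.det • G⁻¹)
  rw [hsq, hinv, smul_smul, smul_smul]
  congr 1
  field_simp

/-- **Row NQ.** -/
theorem nq : RowNQ := by
  intro n k hn φ hφ ε hε
  have hc := cg_sm hφ
  have hcp := cg_pos hφ
  have hci : ContDiff ℝ ∞ (fun x => (cg φ x)⁻¹) := hc.inv fun x => (hcp x).ne'
  have hφi : ContDiff ℝ ∞ (fun x => (φ x)⁻¹) := hφ.1.inv fun x => (hφ.2 x).ne'
  obtain ⟨C1, hC1, hm1⟩ := cl_mul (fun x => (cg φ x)⁻¹) hci (k + 1)
  obtain ⟨C2, hC2, hm2⟩ := cl_mul (fun x => (φ x)⁻¹) hφi k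
  have hm3' := fun j => cl_mul (pd j φ) (contDiff_pdr hφ.1 j) (k + 1)
  choose C3 hC3 hm3 using hm3'
  set D3 : ℝ := ∑ j, C3 j with hD3
  have hD30 : 0 ≤ D3 := Finset.sum_nonneg fun j _ => (hC3 j).le
  have hCD3 : ∀ j, C3 j ≤ D3 := fun j =>
    Finset.single_le_sum (f := C3) (fun j _ => (hC3 j).le) (Finset.mem_univ j)
  set T : ℝ := C2 * (n * (n * D3)) + 1 with hT
  have hT1 : 1 ≤ T := by
    have : 0 ≤ C2 * (n * (n * D3)) := by positivity
    linarith
  have hη : 0 < ε / T := by positivity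
  obtain ⟨δ₁, hδ₁, hN⟩ := Vale.Agent.P088.LR.H72.norm0 n (k + 1) (ε / T) hη
  refine ⟨δ₁ / C1, by positivity, fun Ω hΩ g hg hpd hoff hcl => ?_⟩
  set G : MF n := fun x => (cg φ x)⁻¹ • g x with hG
  have hGs : SmM G := fun i j => hci.mul (hg i j)
  have hGp : ∀ x, (G x).PosDef := fun x => (hpd x).smul (inv_pos.2 (hcp x))
  have hgd : ∀ x ∉ core n, ∀ i j, g x i j - gph φ x i j = 0 := fun x hx i j => by
    rw [hoff x fun h => hx (hΩ h), sub_self]
  have hgph : ∀ i j, ContDiff ℝ ∞ (fun x => gph φ x i j) := fun i j => by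
    simp only [gph, Matrix.smul_apply, smul_eq_mul]
    exact hc.mul contDiff_const
  have hG1 : ∀ i j, (fun x => G x i j - (1 : Matrix (Fin n) (Fin n) ℝ) i j) =
      fun x => (cg φ x)⁻¹ * (g x i j - gph φ x i j) := by
    intro i j
    funext x
    simp only [hG, gph, Matrix.smul_apply, smul_eq_mul]
    rw [mul_sub, ← mul_assoc, inv_mul_cancel₀ (hcp x).ne', one_mul]
  have hGc : ∀ i j, Cl (k + 1) δ₁ (fun x => G x i j - (1 : Matrix (Fin n) (Fin n) ℝ) i j) := by
    intro i j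
    rw [hG1]
    have h1 := hm1 _ ((hg i j).sub (hgph i j)) (fun x hx => hgd x hx i j) _ (hcl i j)
    rwa [mul_div_cancel₀ _ hC1.ne'] at h1
  have hs1 := hN G hGs hGc
  have hdetG : ContDiff ℝ ∞ (fun x => (G x).det) := Vale.Agent.P088.LR.H72.cd_det hGs
  have hss : SmM (sg G) := by
    intro i j
    have h1 : (fun x => sg G x i j) = fun x => √(G x).det * (((G x).det)⁻¹ * (G x).adjugate i j) := by
      funext x
      simp only [sg, Matrix.smul_apply, smul_eq_mul]
      rw [Matrix.inv_def, Ring.inverse_eq_inv', Matrix.smul_apply, smul_eq_mul]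
    rw [h1]
    exact (hdetG.sqrt fun x => (hGp x).det_pos.ne').mul
      ((hdetG.inv fun x => (hGp x).det_pos.ne').mul (Vale.Agent.P088.LR.H72.cd_adj hGs i j))
  have hso : ∀ x ∉ Ω, sg G x = 1 := by
    intro x hx
    have h1 : G x = 1 := by
      simp only [hG]
      rw [hoff x hx]
      simp only [gph]
      rw [smul_smul, inv_mul_cancel₀ (hcp x).ne', one_smul]
    simp only [sg]
    rw [h1, Matrix.det_one, Real.sqrt_one, inv_one, one_smul]
  have hsy : ∀ x, (sg G x).IsSymm := by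
    intro x
    have h1 : (G x).IsSymm := by
      have := (hGp x).isHermitian
      rwa [Matrix.IsHermitian, Matrix.conjTranspose_eq_transpose_of_trivial] at this
    have h2 : ((G x)⁻¹)ᵀ = (G x)⁻¹ := by rw [Matrix.transpose_nonsing_inv, h1]
    show (√(G x).det • (G x)⁻¹)ᵀ = _
    rw [Matrix.transpose_smul, h2]
    rfl
  -- the potential
  set F : Fin n → V n → ℝ := fun i y => ∑ j, pd j φ y * (sg G y i j - (1 : Matrix (Fin n) (Fin n) ℝ) i j)
    with hF
  have hsub : ∀ i j, ContDiff ℝ ∞ (fun y => sg G y i j - (1 : Matrix (Fin n) (Fin n) ℝ) i j) :=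
    fun i j => (hss i j).sub contDiff_const
  have hFs : ∀ i, ContDiff ℝ ∞ (F i) := fun i =>
    ContDiff.sum fun j _ => (contDiff_pdr hφ.1 j).mul (hsub i j)
  have hoc : ∀ i j, ∀ x ∉ core n, sg G x i j - (1 : Matrix (Fin n) (Fin n) ℝ) i j = 0 :=
    fun i j x hx => by rw [hso x fun h => hx (hΩ h), sub_self]
  have hFo : ∀ i, ∀ x ∉ core n, F i x = 0 := fun i x hx =>
    Finset.sum_eq_zero fun j _ => by rw [hoc i j x hx, mul_zero]
  have hFc : ∀ i, Cl (k + 1) (n * (D3 * (ε / T))) (F i) := by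
    intro i
    refine cl_sum _ (fun j => (contDiff_pdr hφ.1 j).mul (hsub i j)) fun j => ?_
    refine Vale.Agent.P088.LR.H72.cl_mono (hm3 j _ (hsub i j) (hoc i j) _ (hs1 i j)) ?_
    exact mul_le_mul_of_nonneg_right (hCD3 j) hη.le
  set H : V n → ℝ := fun x => ∑ i, pd i (F i) x with hH
  have hHs : ContDiff ℝ ∞ H := ContDiff.sum fun i _ => contDiff_pdr (hFs i) i
  have hHo : ∀ x ∉ core n, H x = 0 := fun x hx =>
    Finset.sum_eq_zero fun i _ => pd_off (hFo i) i x hx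
  have hHc : Cl k (n * (n * (D3 * (ε / T)))) H :=
    cl_sum _ (fun i => contDiff_pdr (hFs i) i) fun i => cl_pdr (hFs i) (hFc i) i
  set q : V n → ℝ := fun x => (φ x)⁻¹ * H x with hq
  have hqs : ContDiff ℝ ∞ q := hφi.mul hHs
  have hqc : Cl k ε q := by
    refine Vale.Agent.P088.LR.H72.cl_mono (hm2 _ hHs hHo _ hHc) ?_
    have h1 : C2 * (n * (n * (D3 * (ε / T)))) = (T - 1) * (ε / T) := by
      rw [hT]; ring
    rw [h1]
    have h2 : T * (ε / T) = ε := mul_div_cancel₀ _ (by linarith)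
    nlinarith
  refine ⟨sg G, q, hss, hsy, hso, fun x => sg_smul hn hφ g hpd x, fun x => ?_, fun i j => ?_, ?_⟩
  · have h1 : dv (fun x => sg G x - 1) (cx φ) x = ((H x : ℝ) : ℂ) := by
      unfold dv
      have h2 : ∀ i, (fun y => ∑ j, (((sg G y - 1 : Matrix (Fin n) (Fin n) ℝ) i j : ℝ) : ℂ) *
          pd j (cx φ) y) = fun y => ((F i y : ℝ) : ℂ) := by
        intro i
        funext y
        simp only [hF]
        push_cast
        refine Finset.sum_congr rfl fun j _ => ?_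
        have h3 : pd j (cx φ) y = ((pd j φ y : ℝ) : ℂ) := pd_cx hφ.1 j y
        rw [h3, Matrix.sub_apply]
        push_cast
        ring
      simp only [h2, hH]
      push_cast
      exact Finset.sum_congr rfl fun i _ => pd_cx (hFs i) i x
    rw [h1, hq]
    have h2 : (φ x : ℂ) ≠ 0 := by exact_mod_cast (hφ.2 x).ne'
    push_cast
    field_simp
  · intro l hl x
    refine (hs1 i j l (by omega) x).trans ?_
    exact div_le_self hε.le hT1
  · intro l hl x
    have h1 : cx q = Complex.ofRealCLM ∘ q := rfl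
    rw [h1]
    refine (ContinuousLinearMap.norm_iteratedFDeriv_comp_left Complex.ofRealCLM hqs.contDiffAt
      (by exact_mod_cast le_top)).trans ?_
    rw [Complex.ofRealCLM_norm, one_mul]
    exact hqc l hl x

end Vale.Agent.P088.H924
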