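import Vale.Agent.P088.H442.C.Defs
import Vale.Agent.P088.H924.NQ

/-!
# P088, Theorem C: row C_M1 (smallness at level `K ^ P`)
-/

open MeasureTheory Set Filter Topology
open scoped ContDiff Matrix

noncomputable section

namespace Vale.Agent.P088.H924.CM1

open Vale.Agent.P088.LR Vale.Agent.P088.LR.CF Vale.Agent.P088.LR.CC Vale.Agent.P088.H924

variable {n : ℕ}

section General

variable {F : Type*} [NormedAddCommGroup F] [NormedSpace ℝ F]

theorem cnn {k : ℕ} {a : ℝ} {f : V n → F} (h : Cl k a f) : 0 ≤ a :=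
  (norm_nonneg _).trans (h 0 (Nat.zero_le _) 0)

theorem cmono {k k' : ℕ} {a b : ℝ} {f : V n → F} (h : Cl k a f) (hk : k' ≤ k) (hab : a ≤ b) :
    Cl k' b f := fun l hl x => (h l (hl.trans hk) x).trans hab

theorem cadd {k : ℕ} {a b : ℝ} {f g : V n → F} (hf : ContDiff ℝ ∞ f) (hg : ContDiff ℝ ∞ g)
    (h1 : Cl k a f) (h2 : Cl k b g) : Cl k (a + b) (fun x => f x + g x) := by
  intro l hl x
  rw [fun_iteratedFDeriv_add_apply (hf.of_le (mod_cast le_top)).contDiffAt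
    (hg.of_le (mod_cast le_top)).contDiffAt]
  exact (norm_add_le _ _).trans (add_le_add (h1 l hl x) (h2 l hl x))

theorem cneg {k : ℕ} {a : ℝ} {f : V n → F} (h1 : Cl k a f) : Cl k a (fun x => -f x) := by
  intro l hl x
  have h : iteratedFDeriv ℝ l (fun x => -f x) x = -iteratedFDeriv ℝ l f x :=
    iteratedFDeriv_neg_apply
  rw [h, norm_neg]
  exact h1 l hl x

theorem csub {k : ℕ} {a b : ℝ} {f g : V n → F} (hf : ContDiff ℝ ∞ f) (hg : ContDiff ℝ ∞ g)
    (h1 : Cl k a f) (h2 : Cl k b g) : Cl k (a + b) (fun x => f x - g x) := by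
  have := cadd hf hg.neg h1 (cneg h2)
  simpa only [sub_eq_add_neg] using this

theorem csup {k : ℕ} {a : ℝ} {f : V n → F} (h : Cl k a f) (x : V n) : ‖f x‖ ≤ a := by
  have := h 0 (Nat.zero_le _) x
  rwa [norm_iteratedFDeriv_zero] at this

theorem czero {k : ℕ} : Cl k 0 (fun _ : V n => (0 : F)) := by
  intro l _ x
  have : iteratedFDeriv ℝ l (fun _ : V n => (0 : F)) x = 0 := by
    simp
  rw [this, norm_zero]

/-- A smooth function supported in the core is bounded with its derivatives. -/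
theorem cex (k : ℕ) {f : V n → F} (hf : ContDiff ℝ ∞ f) (h0 : ∀ x ∉ core n, f x = 0) :
    ∃ B : ℝ, 0 ≤ B ∧ Cl k B f := by
  have h1 : ∀ i : ℕ, ∃ C : ℝ, ∀ p ∈ core n, ‖iteratedFDeriv ℝ i f p‖ ≤ C := fun i =>
    core_compact.exists_bound_of_continuousOn
      (hf.continuous_iteratedFDeriv (m := i) (by exact_mod_cast le_top)).continuousOn
  choose C hC using h1
  refine ⟨∑ i ∈ Finset.range (k + 1), |C i|, Finset.sum_nonneg fun i _ => abs_nonneg _,
    fun l hl x => ?_⟩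
  have h3 : |C l| ≤ ∑ i ∈ Finset.range (k + 1), |C i| :=
    Finset.single_le_sum (f := fun i => |C i|) (fun i _ => abs_nonneg _)
      (Finset.mem_range.2 (by omega))
  by_cases hx : x ∈ core n
  · exact (hC l x hx).trans ((le_abs_self _).trans h3)
  · have h2 : f =ᶠ[𝓝 x] fun _ => 0 := by
      filter_upwards [core_compact.isClosed.isOpen_compl.mem_nhds hx] with y hy
      exact h0 y hy
    rw [(h2.iteratedFDeriv ℝ l).eq_of_nhds, iteratedFDeriv_fun_zero]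
    simp only [Pi.zero_apply, norm_zero]
    exact Finset.sum_nonneg fun i _ => abs_nonneg _

end General

theorem ccx {k : ℕ} {B : ℝ} {f : V n → ℝ} (hf : ContDiff ℝ ∞ f) (h : Cl k B f) :
    Cl k B (cx f) := by
  intro l hl x
  have h1 : ContDiff ℝ l f := hf.of_le (by exact_mod_cast le_top)
  have h2 : cx f = Complex.ofRealLI ∘ f := rfl
  rw [h2, Complex.ofRealLI.norm_iteratedFDeriv_comp_left h1.contDiffAt le_rfl]
  exact h l hl x

theorem cxc {k : ℕ} {B : ℝ} {f : V n → ℝ} (hf : ContDiff ℝ ∞ f) (h : Cl k B (cx f)) :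
    Cl k B f := by
  intro l hl x
  have h1 : ContDiff ℝ l f := hf.of_le (by exact_mod_cast le_top)
  have h2 : cx f = Complex.ofRealLI ∘ f := rfl
  have h3 := h l hl x
  rwa [h2, Complex.ofRealLI.norm_iteratedFDeriv_comp_left h1.contDiffAt le_rfl] at h3

theorem bal_core : bal n ⊆ core n := by
  intro x hx j
  have h1 : (x j - 1 / 2) ^ 2 ≤ ∑ j, (x j - 1 / 2) ^ 2 :=
    Finset.single_le_sum (f := fun j => (x j - 1 / 2) ^ 2) (fun _ _ => sq_nonneg _)
      (Finset.mem_univ j)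
  have h2 : (x j - 1 / 2) ^ 2 ≤ 1 / 16 := h1.trans hx
  constructor
  · nlinarith
  · nlinarith

theorem contDiff_cx {f : V n → ℝ} (hf : ContDiff ℝ ∞ f) : ContDiff ℝ ∞ (cx f) :=
  Complex.ofRealCLM.contDiff.comp hf

theorem contDiff_ent {t : MF n} (ht : SmM t) (i j : Fin n) : ContDiff ℝ ∞ (ent t i j) :=
  Complex.ofRealCLM.contDiff.comp ((ht i j).sub contDiff_const)

theorem int_ft {f : V n → ℂ} (hf : Continuous f) (h0 : ∀ x ∉ core n, f x = 0) (ξ : V n) :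
    Integrable fun x => f x * ex (-ξ) x := by
  have hc : Continuous fun x => f x * ex (-ξ) x := by
    unfold ex
    fun_prop
  refine hc.integrable_of_hasCompactSupport ?_
  refine HasCompactSupport.intro core_compact fun x hx => ?_
  rw [h0 x hx, zero_mul]

theorem ft_sub {f g : V n → ℂ} (hf : Continuous f) (h0 : ∀ x ∉ core n, f x = 0)
    (hg : Continuous g) (h1 : ∀ x ∉ core n, g x = 0) (ξ : V n) :
    ft (fun x => f x - g x) ξ = ft f ξ - ft g ξ := by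
  unfold ft
  rw [← integral_sub (int_ft hf h0 ξ) (int_ft hg h1 ξ)]
  simp only [sub_mul]

/-- The real form of `gf`. -/
def gr (φ f : V n → ℝ) (x : V n) : ℝ :=
  (φ x ^ 2)⁻¹ * ∑ i, pd i (fun y => φ y ^ 2 * pd i f y) x

theorem gf_eq {φ f : V n → ℝ} (hφ : SmP φ) (hf : ContDiff ℝ ∞ f) : gf φ f = cx (gr φ f) := by
  funext x
  unfold gf cx gr dv
  have h1 : ∀ i : Fin n, pd i (fun y => ∑ j, ((sc (fun y => φ y ^ 2) y i j : ℝ) : ℂ) *
      pd j (fun x => ((f x : ℝ) : ℂ)) y) x = ((pd i (fun y => φ y ^ 2 * pd i f y) x : ℝ) : ℂ) := by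
    intro i
    rw [← pd_cx ((hφ.1.pow 2).mul (contDiff_pdr hf i)) i x]
    congr 1
    funext y
    rw [Finset.sum_eq_single i]
    · simp only [sc, Matrix.smul_apply, Matrix.one_apply_eq, smul_eq_mul, mul_one, pd_cx hf]
      push_cast
      rfl
    · intro j _ hj
      simp only [sc, Matrix.smul_apply, Matrix.one_apply_ne (Ne.symm hj), smul_eq_mul, mul_zero,
        Complex.ofReal_zero, zero_mul]
    · intro h
      exact absurd (Finset.mem_univ i) h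
  rw [Finset.sum_congr rfl fun i _ => h1 i]
  push_cast
  rfl

theorem gr_sm {φ f : V n → ℝ} (hφ : SmP φ) (hf : ContDiff ℝ ∞ f) : ContDiff ℝ ∞ (gr φ f) :=
  ((hφ.1.pow 2).inv fun x => (pow_pos (hφ.2 x) 2).ne').mul
    (ContDiff.sum fun i _ => contDiff_pdr ((hφ.1.pow 2).mul (contDiff_pdr hf i)) i)

theorem gr_off {φ f : V n → ℝ} (h0 : ∀ x ∉ core n, f x = 0) : ∀ x ∉ core n, gr φ f x = 0 := by
  intro x hx
  unfold gr
  have h1 : ∀ i : Fin n, pd i (fun y => φ y ^ 2 * pd i f y) x = 0 := fun i =>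
    pd_off (fun y hy => by rw [pd_off h0 i y hy, mul_zero]) i x hx
  rw [Finset.sum_congr rfl fun i _ => h1 i]
  simp

theorem gr_cl {φ : V n → ℝ} (hφ : SmP φ) (k : ℕ) : ∃ C > 0, ∀ f : V n → ℝ, ContDiff ℝ ∞ f →
    (∀ x ∉ core n, f x = 0) → ∀ δ, Cl (k + 2) δ f → Cl k (C * δ) (gr φ f) := by
  obtain ⟨C1, hC1, h1⟩ := cl_mul (fun x => φ x ^ 2) (hφ.1.pow 2) (k + 1)
  obtain ⟨C2, hC2, h2⟩ := cl_mul (fun x => (φ x ^ 2)⁻¹)
    ((hφ.1.pow 2).inv fun x => (pow_pos (hφ.2 x) 2).ne') k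
  refine ⟨C2 * ((n + 1 : ℝ) * C1), by positivity, fun f hf h0 δ hδ => ?_⟩
  have hd := cnn hδ
  have h3 : ∀ i : Fin n, Cl k (C1 * δ) (pd i (fun y => φ y ^ 2 * pd i f y)) := fun i =>
    cl_pdr ((hφ.1.pow 2).mul (contDiff_pdr hf i))
      (h1 (pd i f) (contDiff_pdr hf i) (pd_off h0 i) δ (cl_pdr hf hδ i)) i
  have h4 := cl_sum (fun i => pd i (fun y => φ y ^ 2 * pd i f y))
    (fun i => contDiff_pdr ((hφ.1.pow 2).mul (contDiff_pdr hf i)) i) h3
  have h5 : ∀ x ∉ core n, ∑ i, pd i (fun y => φ y ^ 2 * pd i f y) x = 0 := by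
    intro x hx
    exact Finset.sum_eq_zero fun i _ =>
      pd_off (fun y hy => by rw [pd_off h0 i y hy, mul_zero]) i x hx
  have h6 := h2 _ (ContDiff.sum fun i _ => contDiff_pdr ((hφ.1.pow 2).mul (contDiff_pdr hf i)) i)
    h5 _ h4
  refine cmono h6 le_rfl ?_
  have : (n : ℝ) * (C1 * δ) ≤ (n + 1 : ℝ) * C1 * δ := by nlinarith [mul_nonneg hC1.le hd]
  calc C2 * ((n : ℝ) * (C1 * δ)) ≤ C2 * ((n + 1 : ℝ) * C1 * δ) :=
        mul_le_mul_of_nonneg_left this hC2.le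
    _ = _ := by ring

theorem pw {K x : ℝ} (hK : 0 < K) (N : ℕ) : K ^ N * (x / K ^ (N + 1)) = x / K := by
  have : K ≠ 0 := hK.ne'
  rw [pow_succ]
  field_simp

theorem pq {K x : ℝ} (hK : 0 < K) (N : ℕ) :
    K ^ N * ((K ^ (N + 1)) ^ 3 * x ^ 2) = K ^ (4 * (N + 1)) * x * (x / K) := by
  have : K ≠ 0 := hK.ne'
  field_simp
  ring

/-- The powers. -/
theorem book (m n L : ℕ) {C2 C3 C4 C5 C6 C7 C8 H K x : ℝ} (h2 : 0 ≤ C2) (h3 : 0 ≤ C3)
    (h4 : 0 ≤ C4) (h5 : 0 ≤ C5) (h6 : 0 ≤ C6) (h7 : 0 ≤ C7) (h8 : 0 ≤ C8) (hK : 1 ≤ K)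
    (hx : 0 ≤ x) (M1 p : ℕ) (hM1 : M1 = m + 2 * n)
    (hp : p = (m + n) + (M1 + 2 * (M1 + 1)) + 3) (hxK : K ^ (4 * (p + 1)) * x ≤ 1)
    {d1 b d2 e a' : ℝ}
    (hd1 : d1 = C2 * (1 + K) ^ 3 * (x / K ^ (p + 1) + (K ^ (p + 1)) ^ 3 * x ^ 2))
    (hb : b = C3 * (K ^ (m + n) * d1 + 2 / K ^ (M1 + 2 * (M1 + 1) + L)))
    (hd2 : d2 = C4 * (x / K ^ (M1 + 1) + (K ^ (M1 + 1)) ^ 2 * b + (K ^ (M1 + 1)) ^ 3 * x ^ 2))
    (he : e = C6 * (C5 * (K ^ (0 + n) * d2 + H / K ^ (m + n + L))))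
    (ha' : a' = b + C8 * (K ^ (m + n) * (C7 * e) + 1 / K ^ L)) :
    a' ≤ (16 * C2 * C3 + C8 * C7 * C6 * C5 * C4 * (2 + 16 * C2 * C3)) * (x / K) +
      (2 * C3 + C8 * (C7 * C6 * C5 * (C4 * (2 * C3) + H) + 1)) * (1 / K ^ L) := by
  have hK0 : 0 < K := by linarith
  have hKn : K ≠ 0 := hK0.ne'
  set u := x / K with hu
  set v := 1 / K ^ L with hv
  have hu0 : 0 ≤ u := div_nonneg hx hK0.le
  have hv0 : 0 ≤ v := by positivity
  -- `d1`
  have e1 : K ^ p * (x / K ^ (p + 1)) = u := pw hK0 p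
  have e2 : K ^ p * ((K ^ (p + 1)) ^ 3 * x ^ 2) ≤ u := by
    rw [pq hK0 p]
    calc K ^ (4 * (p + 1)) * x * (x / K) ≤ 1 * (x / K) := mul_le_mul_of_nonneg_right hxK hu0
      _ = u := one_mul _
  have e3 : (1 + K) ^ 3 ≤ 8 * K ^ 3 := by
    nlinarith [mul_nonneg hK0.le (sub_nonneg.2 hK), pow_pos hK0 2, pow_pos hK0 3,
      mul_nonneg (pow_pos hK0 2).le (sub_nonneg.2 hK)]
  have e4 : K ^ (M1 + 2 * (M1 + 1)) * (K ^ (m + n) * d1) ≤ 16 * C2 * u := by
    have hz : 0 ≤ x / K ^ (p + 1) + (K ^ (p + 1)) ^ 3 * x ^ 2 := by positivity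
    calc K ^ (M1 + 2 * (M1 + 1)) * (K ^ (m + n) * d1)
        = K ^ (m + n) * K ^ (M1 + 2 * (M1 + 1)) * (C2 * (1 + K) ^ 3 *
          (x / K ^ (p + 1) + (K ^ (p + 1)) ^ 3 * x ^ 2)) := by rw [hd1]; ring
      _ ≤ K ^ (m + n) * K ^ (M1 + 2 * (M1 + 1)) * (C2 * (8 * K ^ 3) *
          (x / K ^ (p + 1) + (K ^ (p + 1)) ^ 3 * x ^ 2)) := by gcongr
      _ = 8 * C2 * (K ^ p * (x / K ^ (p + 1)) + K ^ p * ((K ^ (p + 1)) ^ 3 * x ^ 2)) := by
          have : K ^ p = K ^ (m + n) * K ^ (M1 + 2 * (M1 + 1)) * K ^ 3 := by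
            rw [← pow_add, ← pow_add, ← hp]
          rw [this]; ring
      _ ≤ 8 * C2 * (u + u) := by rw [e1]; gcongr
      _ = 16 * C2 * u := by ring
  -- `b`
  have e5 : K ^ (M1 + 2 * (M1 + 1)) * b ≤ C3 * (16 * C2 * u + 2 * v) := by
    have h9 : K ^ (M1 + 2 * (M1 + 1)) * (2 / K ^ (M1 + 2 * (M1 + 1) + L)) = 2 * v := by
      rw [hv, pow_add K (M1 + 2 * (M1 + 1)) L]
      field_simp
    calc K ^ (M1 + 2 * (M1 + 1)) * b = C3 * (K ^ (M1 + 2 * (M1 + 1)) * (K ^ (m + n) * d1) +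
          K ^ (M1 + 2 * (M1 + 1)) * (2 / K ^ (M1 + 2 * (M1 + 1) + L))) := by rw [hb]; ring
      _ ≤ _ := by rw [h9]; gcongr
  have hd10 : 0 ≤ d1 := by rw [hd1]; positivity
  have hb0 : 0 ≤ b := by rw [hb]; positivity
  have e6 : b ≤ K ^ (M1 + 2 * (M1 + 1)) * b := le_mul_of_one_le_left hb0 (one_le_pow₀ hK)
  set S := K ^ (M1 + 2 * (M1 + 1)) * b with hS
  -- `d2`
  have e7 : K ^ M1 * d2 ≤ C4 * (2 * u + S) := by
    have h9 : K ^ M1 * (x / K ^ (M1 + 1)) = u := pw hK0 M1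
    have h10 : K ^ M1 * ((K ^ (M1 + 1)) ^ 3 * x ^ 2) ≤ u := by
      rw [pq hK0 M1]
      have h11 : K ^ (4 * (M1 + 1)) * x ≤ 1 :=
        (mul_le_mul_of_nonneg_right (pow_le_pow_right₀ hK (by omega)) hx).trans hxK
      calc K ^ (4 * (M1 + 1)) * x * (x / K) ≤ 1 * (x / K) := mul_le_mul_of_nonneg_right h11 hu0
        _ = u := one_mul _
    have h12 : K ^ M1 * ((K ^ (M1 + 1)) ^ 2 * b) = S := by rw [hS]; ring
    calc K ^ M1 * d2 = C4 * (K ^ M1 * (x / K ^ (M1 + 1)) + K ^ M1 * ((K ^ (M1 + 1)) ^ 2 * b) +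
          K ^ M1 * ((K ^ (M1 + 1)) ^ 3 * x ^ 2)) := by rw [hd2]; ring
      _ ≤ C4 * (u + S + u) := by rw [h9, h12]; gcongr
      _ = _ := by ring
  -- `e`
  have e8 : K ^ (m + n) * e ≤ C6 * (C5 * (C4 * (2 * u + S) + H * v)) := by
    have h9 : K ^ (m + n) * (H / K ^ (m + n + L)) = H * v := by
      rw [hv, pow_add K (m + n) L]
      field_simp
    have h10 : K ^ (m + n) * (K ^ (0 + n) * d2) = K ^ M1 * d2 := by
      rw [hM1, ← mul_assoc, ← pow_add]
      congr 2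
      omega
    calc K ^ (m + n) * e = C6 * (C5 * (K ^ (m + n) * (K ^ (0 + n) * d2) +
          K ^ (m + n) * (H / K ^ (m + n + L)))) := by rw [he]; ring
      _ ≤ _ := by rw [h9, h10]; gcongr
  -- end
  calc a' = b + C8 * (C7 * (K ^ (m + n) * e) + v) := by rw [ha']; ring
    _ ≤ S + C8 * (C7 * (C6 * (C5 * (C4 * (2 * u + S) + H * v))) + v) := by gcongr
    _ ≤ C3 * (16 * C2 * u + 2 * v) +
        C8 * (C7 * (C6 * (C5 * (C4 * (2 * u + C3 * (16 * C2 * u + 2 * v)) + H * v))) + v) := by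
        gcongr
    _ = _ := by ring

theorem bt_empty {φ q₀ : V n → ℝ} (h : Ba φ q₀) : Bt ∅ φ q₀ (fun _ => 1) q₀ where
  ba := h
  op := isOpen_empty
  reg := by rw [closure_empty, interior_empty]
  sub := empty_subset _
  sm := fun _ _ => contDiff_const
  sy := fun _ => Matrix.isSymm_one
  off := fun _ _ => rfl
  sq := h.sq
  eq := h.eq
  st := by
    intro U W _ _ _ _
    unfold bl
    rw [Measure.restrict_empty, integral_zero_measure]

/-- (C_M1) -/
theorem m1 (hIS : RowISC) (hGG : RowGGC) (hEN : RowENC) (hSU : RowSUC) (hLP : RowLPC)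
    (hBA : RowBAC) : RowM1C := by
  intro n m hn hm
  obtain ⟨M1, hM1⟩ : ∃ M1, M1 = m + 2 * n := ⟨_, rfl⟩
  obtain ⟨p, hp⟩ : ∃ p, p = (m + n) + (M1 + 2 * (M1 + 1)) + 3 := ⟨_, rfl⟩
  refine ⟨(p + 1) * 2, 4 * (p + 1) + 1, by omega, fun L => ?_⟩
  obtain ⟨L1, hL1⟩ : ∃ L1, L1 = M1 + 2 * (M1 + 1) + L := ⟨_, rfl⟩
  obtain ⟨L2, hL2⟩ : ∃ L2, L2 = m + n + L := ⟨_, rfl⟩
  refine ⟨m + L1 + L2 + L + n + 3, fun φ q₀ hφ => ?_⟩
  -- the bounds of `φ`, `q₀`
  have hq0 : ∀ x ∉ core n, q₀ x = 0 := fun x hx =>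
    (hBA.2.2.1 ∅ φ q₀ _ q₀ (bt_empty hφ)).1 x fun h => hx (bal_core h)
  obtain ⟨B1, hB1, hB1'⟩ := cex (n + 1) hφ.sq hq0
  obtain ⟨B2, hB2, hB2'⟩ := cex (f := fun x => φ x - 1) 1 (hφ.p.1.sub contDiff_const)
    fun x hx => by rw [hφ.one x fun h => hx (bal_core h), sub_self]
  obtain ⟨B3, hB3, hB3'⟩ := cex (f := fun x => (φ x)⁻¹ - 1) 0
    ((hφ.p.1.inv fun x => (hφ.p.2 x).ne').sub contDiff_const)
    fun x hx => by rw [hφ.one x fun h => hx (bal_core h), inv_one, sub_self]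
  obtain ⟨B, hB⟩ : ∃ B, B = B1 + (B2 + 1) + (B3 + 1) := ⟨_, rfl⟩
  have hBq : Cl (n + 1) B (cx q₀) := cmono (ccx hφ.sq hB1') le_rfl (by linarith)
  have hBφ : Cl 1 B (cx φ) := by
    have h1 : Cl 1 (1 : ℝ) (fun _ : V n => (1 : ℝ)) := by
      intro l _ x
      rcases l with _ | l
      · rw [norm_iteratedFDeriv_zero, norm_one]
      · have : iteratedFDeriv ℝ (l + 1) (fun _ : V n => (1 : ℝ)) x = 0 := by
          rw [iteratedFDeriv_const_of_ne (Nat.succ_ne_zero l)]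
          rfl
        rw [this, norm_zero]
        exact zero_le_one
    have h2 := cadd (hφ.p.1.sub contDiff_const) contDiff_const hB2' h1
    have h3 : (fun x => φ x - 1 + 1) = φ := by
      funext x
      ring
    rw [h3] at h2
    exact cmono (ccx hφ.p.1 h2) le_rfl (by linarith)
  have hBi : ∀ x, (φ x)⁻¹ ≤ B := by
    intro x
    have h1 := csup hB3' x
    rw [Real.norm_eq_abs] at h1
    have h2 := (le_abs_self _).trans h1
    linarith
  -- the constants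
  obtain ⟨C1, hC1, k1⟩ := hBA.2.2.2 n (n + 1) φ q₀ hφ
  obtain ⟨C2, hC2, k2⟩ := hIS n hn B
  obtain ⟨C3, hC3, k3⟩ := hSU n m L1
  obtain ⟨C4, hC4, k4⟩ := hGG n hn B
  obtain ⟨C5, hC5, k5⟩ := hSU n 0 L2
  obtain ⟨C6, hC6, k6⟩ := hEN n (by omega) φ q₀ hφ
  obtain ⟨C7, hC7, k7⟩ := hLP n
  obtain ⟨C8, hC8, k8⟩ := hSU n m L
  obtain ⟨H, hH, kg⟩ := gr_cl hφ.p (0 + L2 + n + 1)
  obtain ⟨G1, hG1⟩ : ∃ G1, G1 = 16 * C2 * C3 + C8 * C7 * C6 * C5 * C4 * (2 + 16 * C2 * C3) :=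
    ⟨_, rfl⟩
  obtain ⟨G2, hG2⟩ : ∃ G2, G2 = 2 * C3 + C8 * (C7 * C6 * C5 * (C4 * (2 * C3) + H) + 1) :=
    ⟨_, rfl⟩
  have hG10 : 0 ≤ G1 := by rw [hG1]; positivity
  have hG20 : 0 ≤ G2 := by rw [hG2]; positivity
  refine ⟨C1 + C2 + C4 + 4 + 2 * (G1 * C1) + 2 * G2, by nlinarith [mul_nonneg hG10 (by
    linarith : (0 : ℝ) ≤ C1)], fun jj hjj K hK Ω t q hBt hM' a ha hKa hta hgf => ?_⟩
  have hGC : 0 ≤ G1 * C1 := mul_nonneg hG10 (by linarith)
  have hK1 : 1 ≤ K := by linarith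
  have hK0 : 0 < K := by linarith
  have hK4 : 4 ≤ K := by linarith
  have hKp : ∀ N : ℕ, K ≤ K ^ (N + 1) := fun N => le_self_pow₀ hK1 (Nat.succ_ne_zero N)
  have hKq : ∀ N : ℕ, 1 ≤ N → 4 * K ≤ K ^ (N + 1) := fun N hN =>
    calc 4 * K ≤ K * K := mul_le_mul_of_nonneg_right hK4 hK0.le
      _ = K ^ 2 := by ring
      _ ≤ K ^ (N + 1) := pow_le_pow_right₀ hK1 (by omega)
  -- the function `f`
  obtain ⟨l, -⟩ : ∃ l : Fin n, True := ⟨⟨0, by omega⟩, trivial⟩
  set f : V n → ℝ := fun y => t y l l - (1 : Matrix (Fin n) (Fin n) ℝ) l l with hf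
  have hcf : cx f = ent t l l := rfl
  have hfs : ContDiff ℝ ∞ f := (hBt.sm l l).sub contDiff_const
  have hoff : ∀ i j, ∀ x ∉ core n, ent t i j x = 0 := by
    intro i j x hx
    unfold ent
    rw [hBt.off x fun h => hx (bal_core (hBt.sub h)), sub_self, Complex.ofReal_zero]
  have hf0 : ∀ x ∉ core n, f x = 0 := by
    intro x hx
    have := hoff l l x hx
    rw [← hcf] at this
    exact Complex.ofReal_eq_zero.1 this
  have hfb : ∀ x ∉ bal n, f x = 0 := by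
    intro x hx
    have h1 := hBt.off x fun h => hx (hBt.sub h)
    show t x l l - (1 : Matrix (Fin n) (Fin n) ℝ) l l = 0
    rw [h1, sub_self]
  have hes : ∀ i j, ContDiff ℝ ∞ (ent t i j) := fun i j => contDiff_ent hBt.sm i j
  have step : ∀ A : ℝ, 0 ≤ A → K ^ (4 * (p + 1) + 1) * A ≤ 1 → (∀ i j, Cl m A (ent t i j)) →
      ∀ i j, Cl m (A / 2 + G2 * (1 / K ^ L)) (ent t i j) := by
    intro A hA hKA htA
    obtain ⟨x, hx⟩ : ∃ x, x = C1 * A := ⟨_, rfl⟩
    have hx0 : 0 ≤ x := by rw [hx]; exact mul_nonneg (by linarith) hA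
    have hSz : Sz (n + 1) x t q₀ q := by
      rw [hx]
      exact k1 Ω t q hBt A hA fun i j => cmono (htA i j) (by omega) le_rfl
    have hxK : K ^ (4 * (p + 1)) * x ≤ 1 := by
      calc K ^ (4 * (p + 1)) * x = C1 * (K ^ (4 * (p + 1)) * A) := by rw [hx]; ring
        _ ≤ K * (K ^ (4 * (p + 1)) * A) := by
            apply mul_le_mul_of_nonneg_right (by linarith) (by positivity)
        _ = K ^ (4 * (p + 1) + 1) * A := by ring
        _ ≤ 1 := hKA
    have hfree : ∀ (D : ℝ) (N : ℕ), D ≤ K → N + 1 ≤ 4 * (p + 1) → D * K ^ N * x ≤ 1 := by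
      intro D N hD hN
      calc D * K ^ N * x ≤ K * K ^ N * x := by gcongr
        _ = K ^ (N + 1) * x := by ring
        _ ≤ K ^ (4 * (p + 1)) * x := by
            apply mul_le_mul_of_nonneg_right (pow_le_pow_right₀ hK1 hN) hx0
        _ ≤ 1 := hxK
    obtain ⟨d1, hd1⟩ : ∃ d1, d1 = C2 * (1 + K) ^ 3 *
        (x / K ^ (p + 1) + (K ^ (p + 1)) ^ 3 * x ^ 2) := ⟨_, rfl⟩
    obtain ⟨b, hb⟩ : ∃ b, b = C3 * (K ^ (m + n) * d1 + 2 / K ^ L1) := ⟨_, rfl⟩
    obtain ⟨d2, hd2⟩ : ∃ d2, d2 = C4 * (x / K ^ (M1 + 1) + (K ^ (M1 + 1)) ^ 2 * b +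
        (K ^ (M1 + 1)) ^ 3 * x ^ 2) := ⟨_, rfl⟩
    obtain ⟨e', he'⟩ : ∃ e', e' = C5 * (K ^ (0 + n) * d2 + H / K ^ L2) := ⟨_, rfl⟩
    obtain ⟨e, he⟩ : ∃ e, e = C6 * e' := ⟨_, rfl⟩
    have hd10 : 0 ≤ d1 := by rw [hd1]; positivity
    have hb0 : 0 ≤ b := by rw [hb]; positivity
    have hd20 : 0 ≤ d2 := by rw [hd2]; positivity
    have he'0 : 0 ≤ e' := by rw [he']; positivity
    have he0 : 0 ≤ e := by rw [he]; positivity
    -- isotropy
    have hgf' : Gf jj ((K ^ (p + 1)) ^ 2) q₀ t q := by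
      rw [← pow_mul]
      exact hgf
    have h1 : ∀ ξ : V n, nr ξ ≤ K → ∀ i j,
        ‖ft (ent t i j) ξ - (if i = j then ft (ent t l l) ξ else 0)‖ ≤ d1 := by
      intro ξ hξ i j
      have hn0 : 0 ≤ nr ξ := Real.sqrt_nonneg _
      refine (k2 (K ^ (p + 1)) ((by linarith : C2 ≤ K).trans (hKp p)) jj hjj Ω φ q₀ t q hBt hBq x
        hx0 hSz ?_ hgf' ξ ?_ i j l).trans ?_
      · have := hfree C2 ((p + 1) * 2) (by linarith) (by omega)
        rwa [pow_mul] at this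
      · exact (mul_le_mul_of_nonneg_left hξ (by norm_num)).trans (hKq p (by omega))
      · rw [hd1]
        gcongr
    have hr0 : ∀ i j : Fin n, ContDiff ℝ ∞ (fun y => if i = j then cx f y else 0) := by
      intro i j
      by_cases hij : i = j
      · simp only [if_pos hij]
        exact contDiff_cx hfs
      · simp only [if_neg hij]
        exact contDiff_const
    have hr1 : ∀ i j : Fin n, ∀ x ∉ core n, (if i = j then cx f x else 0) = 0 := by
      intro i j x hx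
      by_cases hij : i = j
      · rw [if_pos hij]
        exact hoff l l x hx
      · rw [if_neg hij]
    have hR : ∀ i j, Cl m b (fun y => ent t i j y - (if i = j then cx f y else 0)) := by
      intro i j
      rw [hb]
      refine k3 K d1 2 hK1 hd10 (by norm_num) _ ((hes i j).sub (hr0 i j)) ?_ ?_ ?_
      · intro y hy
        rw [hoff i j y hy, hr1 i j y hy, sub_zero]
      · intro ξ hξ
        rw [ft_sub (hes i j).continuous (hoff i j) (hr0 i j).continuous (hr1 i j)]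
        have h2 : ft (fun y => if i = j then cx f y else 0) ξ =
            if i = j then ft (ent t l l) ξ else 0 := by
          by_cases hij : i = j
          · simp only [if_pos hij]
            rfl
          · simp only [if_neg hij]
            unfold ft
            simp
        rw [h2]
        exact h1 ξ hξ i j
      · have h2 : Cl (m + L1 + n + 1) 1 (fun y => if i = j then cx f y else 0) := by
          by_cases hij : i = j
          · simp only [if_pos hij]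
            exact cmono (hM' l l) (by omega) le_rfl
          · simp only [if_neg hij]
            exact cmono czero le_rfl zero_le_one
        have h3 := csub (hes i j) (hr0 i j) (cmono (hM' i j) (by omega) le_rfl) h2
        exact cmono h3 le_rfl (by norm_num)
    -- the conformal factor
    have h2 : ∀ ξ : V n, nr ξ ≤ K → ‖ft (gf φ f) ξ‖ ≤ d2 := by
      intro ξ hξ
      rw [hd2]
      refine k4 ξ (K ^ (M1 + 1)) ((by linarith : C4 ≤ K).trans (hKp M1)) ?_ Ω φ q₀ t q hBt hBq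
        hBφ hBi x hx0 hSz (hfree C4 (M1 + 1) (by linarith) (by omega)) f hfs hfb ?_ b hb0 ?_
      · have h3 := hKq M1 (by omega)
        linarith
      · exact cmono (hSz.1 l l) (by omega) le_rfl
      · intro i j y
        exact csup (hR i j) y
    have h3 : Cl 0 e' (gf φ f) := by
      rw [he']
      refine k5 K d2 H hK1 hd20 hH.le _ ?_ ?_ h2 ?_
      · rw [gf_eq hφ.p hfs]
        exact contDiff_cx (gr_sm hφ.p hfs)
      · intro y hy
        rw [gf_eq hφ.p hfs]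
        unfold cx
        rw [gr_off hf0 y hy, Complex.ofReal_zero]
      · rw [gf_eq hφ.p hfs]
        refine ccx (gr_sm hφ.p hfs) ?_
        have h4 := kg f hfs hf0 1 (cxc hfs (cmono (hM' l l) (by omega) le_rfl))
        rwa [mul_one] at h4
    have h4 : ∀ y, |f y| ≤ e := by
      rw [he]
      exact k6 f hfs hf0 e' he'0 fun y => csup h3 y
    have h5 : ∀ ξ, ‖ft (cx f) ξ‖ ≤ C7 * e := by
      refine (k7 (cx f) (contDiff_cx hfs) (fun y hy => hoff l l y hy) e fun y => ?_).1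
      unfold cx
      rw [Complex.norm_real, Real.norm_eq_abs]
      exact h4 y
    have h6 : Cl m (C8 * (K ^ (m + n) * (C7 * e) + 1 / K ^ L)) (cx f) :=
      k8 K (C7 * e) 1 hK1 (by positivity) zero_le_one (cx f) (contDiff_cx hfs)
        (fun y hy => hoff l l y hy) (fun ξ _ => h5 ξ) (cmono (hM' l l) (by omega) le_rfl)
    -- the end
    have h7 : b + C8 * (K ^ (m + n) * (C7 * e) + 1 / K ^ L) ≤ A / 2 + G2 * (1 / K ^ L) := by
      have h8 := book m n L (C2 := C2) (C3 := C3) (C4 := C4) (C5 := C5) (C6 := C6) (C7 := C7)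
        (C8 := C8) (H := H) (d1 := d1) (b := b) (d2 := d2) (e := e) (by linarith) (by linarith) (by linarith) (by linarith)
        (by linarith) (by linarith) (by linarith) hK1 hx0 M1 p hM1 hp hxK hd1
        (by rw [hb, hL1]) hd2 (by rw [he, he', hL2]) rfl
      rw [← hG1, ← hG2] at h8
      refine h8.trans (add_le_add_left ?_ _)
      calc G1 * (x / K) = (2 * (G1 * C1)) * (A / 2) / K := by rw [hx]; ring
        _ ≤ K * (A / 2) / K := by
            apply div_le_div_of_nonneg_right _ hK0.le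
            apply mul_le_mul_of_nonneg_right (by linarith) (by linarith)
        _ = A / 2 := by field_simp
    intro i j
    have h8 := cadd ((hes i j).sub (hr0 i j)) (hr0 i j) (hR i j) (f := fun y => ent t i j y -
      (if i = j then cx f y else 0)) (b := C8 * (K ^ (m + n) * (C7 * e) + 1 / K ^ L)) (by
        by_cases hij : i = j
        · simp only [if_pos hij]
          exact h6
        · simp only [if_neg hij]
          exact cmono czero le_rfl (by positivity))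
    simp only [sub_add_cancel] at h8
    exact cmono h8 le_rfl h7
  -- the infimum
  obtain ⟨S, hS⟩ : ∃ S : Set ℝ, S = {A | 0 ≤ A ∧ ∀ i j, Cl m A (ent t i j)} := ⟨_, rfl⟩
  have haS : a ∈ S := by rw [hS]; exact ⟨ha, hta⟩
  have hbd : BddBelow S := ⟨0, fun y hy => by rw [hS] at hy; exact hy.1⟩
  have h0 : 0 ≤ sInf S := le_csInf ⟨a, haS⟩ fun y hy => by rw [hS] at hy; exact hy.1
  have h1 : ∀ i j, Cl m (sInf S) (ent t i j) := fun i j l hl x =>
    le_csInf ⟨a, haS⟩ fun y hy => by rw [hS] at hy; exact hy.2 i j l hl x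
  have h2 : sInf S ≤ a := csInf_le hbd haS
  have h3 : K ^ (4 * (p + 1) + 1) * sInf S ≤ 1 :=
    (mul_le_mul_of_nonneg_left h2 (by positivity)).trans hKa
  have h4 := step (sInf S) h0 h3 h1
  have hm' : sInf S / 2 + G2 * (1 / K ^ L) ∈ S := by
    have h5 : 0 ≤ sInf S / 2 + G2 * (1 / K ^ L) := by positivity
    generalize sInf S / 2 + G2 * (1 / K ^ L) = z at h4 h5 ⊢
    rw [hS]
    exact ⟨h5, h4⟩
  have h5 : sInf S ≤ sInf S / 2 + G2 * (1 / K ^ L) := csInf_le hbd hm'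
  intro i j
  refine cmono (h1 i j) le_rfl ?_
  have h6 : 2 * G2 ≤ C1 + C2 + C4 + 4 + 2 * (G1 * C1) + 2 * G2 := by linarith
  calc sInf S ≤ 2 * G2 * (1 / K ^ L) := by linarith
    _ ≤ (C1 + C2 + C4 + 4 + 2 * (G1 * C1) + 2 * G2) * (1 / K ^ L) :=
        mul_le_mul_of_nonneg_right h6 (by positivity)
    _ = _ := by ring

end Vale.Agent.P088.H924.CM1
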