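import Vale.Agent.P088.H72.B.Defs

/-!
# P088, stage 2: the weak equation up to the boundary (row DIVX)
-/

open MeasureTheory Set Filter Topology
open scoped ContDiff

noncomputable section

namespace Vale.Agent.P088.H924

open Vale.Agent.P088.LR Vale.Agent.P088.LR.B

variable {n : ℕ}

theorem cpd {f : V n → ℝ} (hf : ContDiff ℝ ∞ f) (i : Fin n) : ContDiff ℝ ∞ (pd i f) :=
  (hf.fderiv_right (m := ∞) (by simp)).clm_apply contDiff_const

theorem sum_pd (f : V n → ℝ) (x w : V n) : ∑ i, w i * pd i f x = fderiv ℝ f x w := by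
  conv_rhs => rw [← Finset.univ_sum_single w, map_sum]
  refine Finset.sum_congr rfl fun i _ => ?_
  have : (Pi.single i (w i) : V n) = w i • Pi.single i (1 : ℝ) := by
    rw [← Pi.single_smul, smul_eq_mul, mul_one]
  rw [this, map_smul, smul_eq_mul]
  rfl

/-- The interior equation. -/
theorem inner (ρ : V n → ℝ) (hρ : Dom ρ) (r : ℝ) (X : Fin n → V n → ℝ)
    (hX : ∀ i, ContDiff ℝ ∞ (X i))
    (h : ∀ φ : V n → ℝ, ContDiff ℝ ∞ φ → (∀ x, r ≤ |ρ x| → φ x = 0) →
      ∫ x in Om ρ, ∑ i, X i x * pd i φ x = 0) :
    ∀ x, 0 < ρ x → ρ x < r → ∑ i, pd i (X i) x = 0 := by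
  set U : Set (V n) := {x | 0 < ρ x ∧ ρ x < r} with hU
  have hc : Continuous ρ := hρ.sm.continuous
  have hUo : IsOpen U := (isOpen_lt continuous_const hc).inter (isOpen_lt hc continuous_const)
  have hcd : Continuous fun x => ∑ i, pd i (X i) x :=
    continuous_finsetSum _ fun i _ => (cpd (hX i) i).continuous
  have hae : ∀ᵐ x : V n, x ∈ U → ∑ i, pd i (X i) x = 0 := by
    refine hUo.ae_eq_zero_of_integral_contDiff_smul_eq_zero
      (hcd.locallyIntegrable.locallyIntegrableOn _) ?_
    intro g hg hgc hgs
    have h0 : ∀ x ∉ U, g x = 0 := fun x hx =>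
      image_eq_zero_of_notMem_tsupport fun hc => hx (hgs hc)
    have h1 := h g hg fun x hx => h0 x fun hxU => by
      have := abs_of_pos hxU.1
      rw [this] at hx
      exact absurd hxU.2 (not_lt.2 hx)
    have h2 : ∀ x ∉ U, ∀ i, pd i g x = 0 := by
      intro x hx i
      have : x ∉ tsupport (fderiv ℝ g) := fun hc => hx (hgs (tsupport_fderiv_subset ℝ hc))
      unfold pd
      rw [image_eq_zero_of_notMem_tsupport this]
      rfl
    rw [setIntegral_eq_integral_of_forall_compl_eq_zero] at h1
    swap
    · intro x hx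
      refine Finset.sum_eq_zero fun i _ => ?_
      rw [h2 x (fun hxU => hx hxU.1) i, mul_zero]
    have hs1 : ∀ i, Integrable (fun x => X i x * pd i g x) := fun i =>
      ((hX i).continuous.mul (cpd hg i).continuous).integrable_of_hasCompactSupport
        ((hgc.fderiv_apply ℝ (Pi.single i 1)).mul_left)
    have hs2 : ∀ i, Integrable (fun x => pd i (X i) x * g x) := fun i =>
      ((cpd (hX i) i).continuous.mul hg.continuous).integrable_of_hasCompactSupport
        hgc.mul_left
    have hs3 : ∀ i, Integrable (fun x => X i x * g x) := fun i =>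
      ((hX i).continuous.mul hg.continuous).integrable_of_hasCompactSupport hgc.mul_left
    have hp : ∀ i, ∫ x, X i x * pd i g x = -∫ x, pd i (X i) x * g x := fun i =>
      integral_mul_fderiv_eq_neg_fderiv_mul_of_integrable (hs2 i) (hs1 i) (hs3 i)
        (fun x _ => (hX i).differentiable (by simp) x) fun x _ => hg.differentiable (by simp) x
    rw [integral_finsetSum _ fun i _ => hs1 i] at h1
    have h3 : ∫ x, g x • ∑ i, pd i (X i) x = ∑ i, ∫ x, pd i (X i) x * g x := by
      rw [← integral_finsetSum _ fun i _ => hs2 i]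
      congr 1
      funext x
      rw [smul_eq_mul, mul_comm, Finset.sum_mul]
    rw [h3]
    have h4 : ∑ i, ∫ x, pd i (X i) x * g x = -∑ i, ∫ x, X i x * pd i g x := by
      rw [← Finset.sum_neg_distrib]
      exact Finset.sum_congr rfl fun i _ => by rw [hp i, neg_neg]
    rw [h4, h1, neg_zero]
  have hae2 : (fun x => ∑ i, pd i (X i) x) =ᵐ[volume.restrict U] fun _ => 0 := by
    rw [Filter.EventuallyEq, ae_restrict_iff' hUo.measurableSet]
    exact hae
  intro x h1 h2
  exact Measure.eqOn_open_of_ae_eq hae2 hUo hcd.continuousOn continuousOn_const ⟨h1, h2⟩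

/-- The boundary equation, blown up. -/
theorem blow (ρ : V n → ℝ) (hρ : Dom ρ) (r : ℝ) (hr : 0 < r) (X : V n → V n)
    (hX : Continuous X) (p : V n) (hp : ρ p = 0)
    (h : ∀ φ : V n → ℝ, ContDiff ℝ ∞ φ → (∀ x, r ≤ |ρ x| → φ x = 0) →
      ∫ x in Om ρ, fderiv ℝ φ x (X x) = 0)
    (φ : V n → ℝ) (hφ : ContDiff ℝ ∞ φ) (hφc : HasCompactSupport φ) :
    ∫ y in {y | 0 < fderiv ℝ ρ p y}, fderiv ℝ φ y (X p) = 0 := by
  have hc : Continuous ρ := hρ.sm.continuous
  have hOm : IsOpen (Om ρ) := isOpen_lt continuous_const hc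
  have hlc : Continuous (fderiv ℝ ρ p) := (fderiv ℝ ρ p).continuous
  have hLo : IsOpen {y : V n | 0 < fderiv ℝ ρ p y} := isOpen_lt continuous_const hlc
  have hdc : Continuous (fderiv ℝ φ) := hφ.continuous_fderiv (by simp)
  obtain ⟨R, hR⟩ := (hφc.isCompact.isBounded).subset_closedBall (0 : V n)
  set R' : ℝ := max R 1 with hR'
  have hR1 : 0 < R' := lt_of_lt_of_le one_pos (le_max_right _ _)
  have hsup : ∀ y, φ y ≠ 0 → ‖y‖ ≤ R' := fun y hy => by
    have := hR (subset_tsupport _ (Function.mem_support.2 hy))
    rw [mem_closedBall_zero_iff] at this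
    exact this.trans (le_max_left _ _)
  have hsup2 : ∀ y, R' < ‖y‖ → fderiv ℝ φ y = 0 := fun y hy => by
    by_contra hne
    have := hR (tsupport_fderiv_subset ℝ (subset_tsupport _ (Function.mem_support.2 hne)))
    rw [mem_closedBall_zero_iff] at this
    exact absurd (this.trans (le_max_left _ _)) (not_le.2 hy)
  obtain ⟨C, hC⟩ := (isCompact_closedBall p R').exists_bound_of_continuousOn hX.continuousOn
  -- the blown up integrals
  set F : ℝ → V n → ℝ := fun e y =>
    {y : V n | 0 < ρ (p + e • y)}.indicator (fun y => fderiv ℝ φ y (X (p + e • y))) y with hF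
  have hz : ∀ᶠ e : ℝ in 𝓝[>] 0, ∫ y, F e y = 0 := by
    obtain ⟨d, hd, hd2⟩ := Metric.continuousAt_iff.1 (hc.continuousAt (x := p)) r hr
    have he : ∀ᶠ e : ℝ in 𝓝[>] 0, e < d / R' :=
      (eventually_lt_nhds (div_pos hd hR1)).filter_mono nhdsWithin_le_nhds
    filter_upwards [he, self_mem_nhdsWithin] with e he he0
    have he0 : 0 < e := he0
    set ψ : V n → ℝ := fun x => φ (e⁻¹ • (x - p)) with hψ
    have hψs : ContDiff ℝ ∞ ψ := hφ.comp ((contDiff_id.sub contDiff_const).const_smul _)
    have hψd : ∀ x, fderiv ℝ ψ x = e⁻¹ • fderiv ℝ φ (e⁻¹ • (x - p)) := by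
      intro x
      have h1 : HasFDerivAt (fun x : V n => e⁻¹ • (x - p))
          (e⁻¹ • ContinuousLinearMap.id ℝ (V n)) x :=
        ((hasFDerivAt_id x).sub_const p).fun_const_smul e⁻¹
      have h2 : HasFDerivAt ψ _ x :=
        ((hφ.differentiable (by simp) (e⁻¹ • (x - p))).hasFDerivAt).comp x h1
      rw [h2.fderiv]
      ext v
      simp
    have h1 := h ψ hψs ?_
    swap
    · intro x hx
      by_contra hne
      have h3 := hsup _ hne
      have h4 : dist x p < d := by
        rw [dist_eq_norm]
        have h5 : ‖x - p‖ = e * ‖e⁻¹ • (x - p)‖ := by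
          rw [norm_smul, norm_inv, Real.norm_of_nonneg he0.le, ← mul_assoc,
            mul_inv_cancel₀ he0.ne', one_mul]
        rw [h5]
        calc e * ‖e⁻¹ • (x - p)‖ ≤ e * R' := by gcongr
          _ < d / R' * R' := by gcongr
          _ = d := div_mul_cancel₀ _ hR1.ne'
      have h6 := hd2 h4
      rw [Real.dist_eq, hp, sub_zero] at h6
      exact absurd h6 (not_lt.2 hx)
    have h7 : ∫ x, (Om ρ).indicator (fun x => fderiv ℝ φ (e⁻¹ • (x - p)) (X x)) x = 0 := by
      rw [integral_indicator hOm.measurableSet]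
      have : ∀ x, fderiv ℝ φ (e⁻¹ • (x - p)) (X x) = e * fderiv ℝ ψ x (X x) := by
        intro x
        rw [hψd, smul_apply, smul_eq_mul, ← mul_assoc,
          mul_inv_cancel₀ he0.ne', one_mul]
      simp only [this]
      rw [integral_const_mul, h1, mul_zero]
    rw [← integral_add_left_eq_self _ p] at h7
    have h8 := Measure.integral_comp_smul (volume : Measure (V n)) (fun z =>
      (Om ρ).indicator (fun x => fderiv ℝ φ (e⁻¹ • (x - p)) (X x)) (p + z)) e
    rw [h7, smul_zero] at h8
    rw [← h8]
    congr 1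
    funext y
    have h9 : e⁻¹ • (p + e • y - p) = y := by
      rw [add_sub_cancel_left, smul_smul, inv_mul_cancel₀ he0.ne', one_smul]
    by_cases hpos : 0 < ρ (p + e • y)
    · rw [indicator_of_mem (show p + e • y ∈ Om ρ from hpos), h9]
      exact indicator_of_mem (s := {y : V n | 0 < ρ (p + e • y)}) hpos _
    · rw [indicator_of_notMem (show p + e • y ∉ Om ρ from hpos)]
      exact indicator_of_notMem (s := {y : V n | 0 < ρ (p + e • y)}) hpos _
  have hlim : Tendsto (fun e => ∫ y, F e y) (𝓝[>] 0)
      (𝓝 (∫ y, {y : V n | 0 < fderiv ℝ ρ p y}.indicator (fun y => fderiv ℝ φ y (X p)) y)) := by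
    refine tendsto_integral_filter_of_dominated_convergence
      (fun y => ‖fderiv ℝ φ y‖ * C) ?_ ?_ ?_ ?_
    · refine Eventually.of_forall fun e => ?_
      have hm : Continuous fun y : V n => p + e • y :=
        continuous_const.add (continuous_id.const_smul e)
      refine (StronglyMeasurable.indicator ?_ ?_).aestronglyMeasurable
      · exact (hdc.clm_apply (hX.comp hm)).stronglyMeasurable
      · exact (isOpen_lt continuous_const (hc.comp hm)).measurableSet
    · filter_upwards [(eventually_lt_nhds (zero_lt_one (α := ℝ))).filter_mono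
        nhdsWithin_le_nhds, self_mem_nhdsWithin] with e he he0
      have he0 : 0 < e := he0
      refine Eventually.of_forall fun y => ?_
      by_cases hy : ‖y‖ ≤ R'
      · have hb : ‖X (p + e • y)‖ ≤ C := by
          apply hC
          rw [Metric.mem_closedBall, dist_eq_norm, add_sub_cancel_left, norm_smul,
            Real.norm_of_nonneg he0.le]
          calc e * ‖y‖ ≤ 1 * R' := by gcongr
            _ = R' := one_mul _
        refine (norm_indicator_le_norm_self _ _).trans ?_
        refine (ContinuousLinearMap.le_opNorm _ _).trans ?_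
        gcongr
      · have h0 := hsup2 y (not_le.1 hy)
        simp only [hF, indicator, h0, zero_apply, norm_zero, zero_mul,
          ite_self, le_refl]
    · exact (hdc.norm.mul continuous_const).integrable_of_hasCompactSupport
        ((hφc.fderiv ℝ).norm.mul_right)
    · have hne : fderiv ℝ ρ p ≠ 0 := hρ.nz p hp
      have hker : volume {y : V n | fderiv ℝ ρ p y = 0} = 0 := by
        have := Measure.addHaar_submodule (volume : Measure (V n))
          (LinearMap.ker (fderiv ℝ ρ p : V n →ₗ[ℝ] ℝ)) ?_
        · exact this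
        · intro htop
          apply hne
          ext v
          have : v ∈ LinearMap.ker (fderiv ℝ ρ p : V n →ₗ[ℝ] ℝ) := by
            rw [htop]; trivial
          exact this
      have hae : ∀ᵐ y : V n, fderiv ℝ ρ p y ≠ 0 := by
        rw [ae_iff]
        simpa using hker
      filter_upwards [hae] with y hy
      have hm : Continuous fun e : ℝ => p + e • y :=
        continuous_const.add (continuous_id.smul continuous_const)
      have hXt : Tendsto (fun e : ℝ => fderiv ℝ φ y (X (p + e • y))) (𝓝[>] 0)
          (𝓝 (fderiv ℝ φ y (X p))) := by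
        have : Continuous fun e : ℝ => fderiv ℝ φ y (X (p + e • y)) :=
          (fderiv ℝ φ y).continuous.comp (hX.comp hm)
        have h2 := this.tendsto 0
        simp only [zero_smul, add_zero] at h2
        exact h2.mono_left nhdsWithin_le_nhds
      have hder : HasDerivAt (fun e : ℝ => ρ (p + e • y)) (fderiv ℝ ρ p y) 0 := by
        have h1 : HasDerivAt (fun e : ℝ => p + e • y) y 0 := by
          have := ((hasDerivAt_id (0 : ℝ)).smul_const y).const_add p
          simpa using this
        have h2 : HasFDerivAt ρ (fderiv ℝ ρ p) (p + (0 : ℝ) • y) := by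
          rw [zero_smul, add_zero]
          exact (hρ.sm.differentiable (by simp) p).hasFDerivAt
        exact h2.comp_hasDerivAt 0 h1
      have hsl := hder.tendsto_slope
      have hsl2 : Tendsto (fun e : ℝ => e⁻¹ * ρ (p + e • y)) (𝓝[>] 0) (𝓝 (fderiv ℝ ρ p y)) := by
        have h3 : Tendsto (slope (fun e : ℝ => ρ (p + e • y)) 0) (𝓝[>] 0)
            (𝓝 (fderiv ℝ ρ p y)) :=
          hsl.mono_left (nhdsWithin_mono _ fun e he => ne_of_gt he)
        refine h3.congr fun e => ?_
        rw [slope_def_field, zero_smul, add_zero, hp, sub_zero, sub_zero]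
        ring
      rcases lt_or_gt_of_ne hy with hl | hl
      · have he : ∀ᶠ e : ℝ in 𝓝[>] 0, F e y = 0 := by
          filter_upwards [hsl2.eventually_lt_const hl, self_mem_nhdsWithin] with e h1 h2
          have h2 : 0 < e := h2
          have : ¬ 0 < ρ (p + e • y) := fun h3 => absurd (mul_pos (inv_pos.2 h2) h3)
            (not_lt.2 h1.le)
          simp only [hF, indicator, mem_ofPred_eq, this, if_false]
        have hn : ¬ 0 < fderiv ℝ ρ p y := not_lt.2 hl.le
        simp only [indicator, mem_ofPred_eq, hn, if_false]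
        exact tendsto_const_nhds.congr' (he.mono fun e h => h.symm)
      · have he : ∀ᶠ e : ℝ in 𝓝[>] 0, F e y = fderiv ℝ φ y (X (p + e • y)) := by
          filter_upwards [hsl2.eventually_const_lt hl, self_mem_nhdsWithin] with e h1 h2
          have h2 : 0 < e := h2
          have : 0 < ρ (p + e • y) := by
            by_contra h3
            exact absurd h1 (not_lt.2 (mul_nonpos_of_nonneg_of_nonpos (inv_pos.2 h2).le
              (not_lt.1 h3)))
          simp only [hF, indicator, mem_ofPred_eq, this, if_true]
        have hn : 0 < fderiv ℝ ρ p y := hl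
        simp only [indicator, mem_ofPred_eq, hn, if_true]
        exact hXt.congr' (he.mono fun e h => h.symm)
  have hlim0 : Tendsto (fun e => ∫ y, F e y) (𝓝[>] 0) (𝓝 0) :=
    tendsto_const_nhds.congr' (hz.mono fun e h => h.symm)
  rw [← integral_indicator hLo.measurableSet]
  exact tendsto_nhds_unique hlim hlim0

/-- A half-space is not invariant in a transversal direction. -/
theorem half (l : V n →L[ℝ] ℝ) (hl : l ≠ 0) (w : V n)
    (h : ∀ φ : V n → ℝ, ContDiff ℝ ∞ φ → HasCompactSupport φ →
      ∫ y in {y | 0 < l y}, fderiv ℝ φ y w = 0) : l w = 0 := by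
  by_contra hw
  have hLo : IsOpen {y : V n | 0 < l y} := isOpen_lt continuous_const l.continuous
  let f : ContDiffBump (0 : V n) := ⟨1, 2, one_pos, one_lt_two⟩
  have hfs : ContDiff ℝ ∞ (f : V n → ℝ) := f.contDiff
  have hfc : HasCompactSupport (f : V n → ℝ) := f.hasCompactSupport
  have hdc : Continuous (fderiv ℝ (f : V n → ℝ)) := hfs.continuous_fderiv (by simp)
  have hsup : ∀ y, f y ≠ 0 → ‖y‖ < 2 := fun y hy => by
    have : y ∈ Function.support f := hy
    rw [f.support_eq] at this
    simpa using this
  set G : ℝ → ℝ := fun t => ∫ y in {y | 0 < l y}, f (y + t • w) with hG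
  have hsh : ∀ t : ℝ, ∫ y in {y | 0 < l y}, fderiv ℝ f (y + t • w) w = 0 := by
    intro t
    have h1 := h (fun y => f (y + t • w)) (hfs.comp (contDiff_id.add contDiff_const))
      (hfc.comp_homeomorph (Homeomorph.addRight (t • w)))
    have h2 : ∀ y, fderiv ℝ (fun y => f (y + t • w)) y = fderiv ℝ f (y + t • w) := fun y =>
      fderiv_comp_add_right (t • w)
    simpa only [h2] using h1
  have hder : ∀ t, HasDerivAt G 0 t := by
    intro t
    rw [← hsh t]
    obtain ⟨C, hC⟩ := hdc.bounded_above_of_compact_support (hfc.fderiv ℝ)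
    set K : ℝ := 2 + (|t| + 1) * ‖w‖ with hK
    refine (hasDerivAt_integral_of_dominated_loc_of_deriv_le (F := fun t y => f (y + t • w))
      (F' := fun t y => fderiv ℝ f (y + t • w) w)
      (bound := (Metric.closedBall (0 : V n) K).indicator fun _ => C * ‖w‖)
      (s := Metric.ball t 1) (Metric.ball_mem_nhds t one_pos) ?_ ?_ ?_ ?_ ?_ ?_).2
    · refine Eventually.of_forall fun s => ?_
      exact (f.continuous.comp (continuous_id.add continuous_const)).aestronglyMeasurable
    · refine Integrable.integrableOn ?_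
      exact (f.continuous.comp (continuous_id.add continuous_const)).integrable_of_hasCompactSupport
        (hfc.comp_homeomorph (Homeomorph.addRight (t • w)))
    · exact ((hdc.comp (continuous_id.add continuous_const)).clm_apply
        continuous_const).aestronglyMeasurable
    · refine Eventually.of_forall fun y s hs => ?_
      by_cases hy : y ∈ Metric.closedBall (0 : V n) K
      · rw [indicator_of_mem hy]
        refine (ContinuousLinearMap.le_opNorm _ _).trans ?_
        gcongr
        exact hC _
      · rw [indicator_of_notMem hy]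
        have hz : fderiv ℝ f (y + s • w) = 0 := by
          by_contra hne
          apply hy
          have h1 := tsupport_fderiv_subset ℝ (subset_tsupport _ (Function.mem_support.2 hne))
          rw [f.tsupport_eq, mem_closedBall_zero_iff] at h1
          have h1 : ‖y + s • w‖ ≤ 2 := h1
          rw [mem_closedBall_zero_iff, hK]
          have h2 : |s| ≤ |t| + 1 := by
            have := hs
            rw [Metric.mem_ball, Real.dist_eq] at this
            have h3 := abs_sub_abs_le_abs_sub s t
            linarith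
          calc ‖y‖ = ‖(y + s • w) - s • w‖ := by rw [add_sub_cancel_right]
            _ ≤ ‖y + s • w‖ + ‖s • w‖ := norm_sub_le _ _
            _ ≤ 2 + (|t| + 1) * ‖w‖ := by
              rw [norm_smul, Real.norm_eq_abs]
              gcongr
        rw [hz]
        simp
    · refine Integrable.integrableOn ?_
      rw [integrable_indicator_iff measurableSet_closedBall]
      exact integrableOn_const (isCompact_closedBall (0 : V n) K).measure_lt_top.ne
    · refine Eventually.of_forall fun y s _ => ?_
      have h1 : HasDerivAt (fun s : ℝ => y + s • w) w s := by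
        have := ((hasDerivAt_id s).smul_const w).const_add y
        simpa using this
      have h2 : HasFDerivAt (f : V n → ℝ) (fderiv ℝ f (y + s • w)) (y + s • w) :=
        (hfs.differentiable (by simp) (y + s • w)).hasFDerivAt
      exact HasFDerivAt.comp_hasDerivAt (l := (f : V n → ℝ)) (f := fun s : ℝ => y + s • w) s h2 h1
  have hconst : ∀ a b, G a = G b := is_const_of_deriv_eq_zero
    (fun t => (hder t).differentiableAt) fun t => (hder t).deriv
  have hl0 : 0 < ‖l‖ := norm_pos_iff.2 hl
  set T : ℝ := 2 * ‖l‖ / l w with hT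
  have hTw : T * l w = 2 * ‖l‖ := div_mul_cancel₀ _ hw
  have hb : ∀ z, f z ≠ 0 → |l z| < 2 * ‖l‖ := fun z hz => by
    calc |l z| ≤ ‖l‖ * ‖z‖ := by
          rw [← Real.norm_eq_abs]; exact l.le_opNorm z
      _ < ‖l‖ * 2 := by gcongr; exact hsup z hz
      _ = 2 * ‖l‖ := mul_comm _ _
  have h1 : G T = 0 := by
    refine setIntegral_eq_zero_of_forall_eq_zero fun y hy => ?_
    by_contra hne
    have h2 := (abs_lt.1 (hb _ hne)).2
    rw [map_add, map_smul, smul_eq_mul, hTw] at h2
    have hy : 0 < l y := hy
    linarith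
  have h2 : G (-T) = ∫ y, f y := by
    rw [hG]
    simp only
    rw [setIntegral_eq_integral_of_forall_compl_eq_zero]
    · exact integral_add_right_eq_self (f : V n → ℝ) ((-T) • w)
    · intro y hy
      by_contra hne
      apply hy
      have h3 := (abs_lt.1 (hb _ hne)).1
      rw [map_add, map_smul, smul_eq_mul] at h3
      have : -T * l w = -(2 * ‖l‖) := by rw [neg_mul, hTw]
      rw [this] at h3
      change 0 < l y
      linarith
  have h3 := hconst (-T) T
  rw [h1, h2] at h3
  exact absurd h3 (f.integral_pos (μ := (volume : Measure (V n)))).ne'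

/-- **Row DIVX.** -/
theorem divx : RowDIVX := by
  intro n ρ hρ r hr X hX h
  refine ⟨inner ρ hρ r X hX h, fun p hp => ?_⟩
  have hXc : Continuous fun x : V n => (fun i => X i x : V n) :=
    continuous_pi fun i => (hX i).continuous
  have h' : ∀ φ : V n → ℝ, ContDiff ℝ ∞ φ → (∀ x, r ≤ |ρ x| → φ x = 0) →
      ∫ x in Om ρ, fderiv ℝ φ x ((fun x : V n => (fun i => X i x : V n)) x) = 0 := by
    intro φ hφ h0
    have := h φ hφ h0
    rw [← this]
    congr 1
    funext x
    exact (sum_pd φ x (fun i => X i x)).symm
  rw [sum_pd ρ p (fun i => X i p)]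
  exact half (fderiv ℝ ρ p) (hρ.nz p hp) _ fun φ hφ hφc =>
    blow ρ hρ r hr (fun x i => X i x) hXc p hp h' φ hφ hφc

end Vale.Agent.P088.H924
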