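import Vale.Agent.P088.H198.E.Defs
import Vale.Agent.P088.H607.YSc
import Vale.Agent.P088.H292.BdM
import Vale.Agent.P088.H188.MetE

/-!
# P088, Theorem E: row E_SC (scaling, cut-off of the base, tensors to metrics)
-/

open MeasureTheory Set
open scoped ContDiff Matrix

noncomputable section

namespace Vale.Agent.P088.H924.ES

open Vale.Agent.P088.LR Vale.Agent.P088.LR.B Vale.Agent.P088.LR.CF Vale.Agent.P088.LR.H925
  Vale.Agent.P088.H639 Vale.Agent.P088.H607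

variable {n : ℕ}

/-- `√(det g) g⁻¹ = ψ t`. -/
theorem nc_met {k : ℕ} {B Cψ Ct : ℕ → ℝ} {Cm ε : ℝ} (hn : 1 ≤ n) (hε : 0 ≤ ε)
    (hψ : ∀ l, ∀ g : MF n, SmM g → (∀ x, 0 < (g x).det) → ∀ x,
      (∀ i j, ∀ q ≤ l, ‖iteratedFDeriv ℝ q (fun y => g y i j) x‖ ≤ B l) → (B l)⁻¹ ≤ (g x).det →
      (∀ q ≤ l, ‖iteratedFDeriv ℝ q (fun y => (g y).det ^ (((n : ℝ) - 2) / (2 * n))) x‖ ≤ Cψ l) ∧
      ((g x).det ^ (((n : ℝ) - 2) / (2 * n)))⁻¹ ≤ Cψ l)
    (ht : ∀ l, ∀ g : MF n, SmM g → (∀ x, 0 < (g x).det) → ∀ x,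
      (∀ i j, ∀ q ≤ l, ‖iteratedFDeriv ℝ q (fun y => g y i j) x‖ ≤ B l) → (B l)⁻¹ ≤ (g x).det →
      ∀ i j, ∀ q ≤ l,
        ‖iteratedFDeriv ℝ q (fun y => (g y).det ^ (1 / (n : ℝ)) * (g y)⁻¹ i j) x‖ ≤ Ct l)
    (hm : ∀ M : Matrix (Fin n) (Fin n) ℝ, (∀ i j, |M i j| ≤ B 0) → (B 0)⁻¹ ≤ M.det → ∀ ε, 0 ≤ ε →
      (∀ i j, |M i j - (M.det ^ (1 / (n : ℝ)) • (1 : Matrix (Fin n) (Fin n) ℝ)) i j| ≤ ε) →
      ∀ i j, |(M.det ^ (1 / (n : ℝ)) • M⁻¹) i j - (1 : Matrix (Fin n) (Fin n) ℝ) i j| ≤ Cm * ε)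
    {g : MF n} (hg : SmM g) (hp : ∀ x, (g x).PosDef)
    (hpt : ∀ l ≤ k, ∀ x, ∀ i j, ∀ q ≤ l, ‖iteratedFDeriv ℝ q (fun y => g y i j) x‖ ≤ B l)
    (hdet : ∀ l ≤ k, ∀ x, (B l)⁻¹ ≤ (g x).det)
    (hnr : ∀ i j x, |g x i j - sc (fun x => (g x).det ^ (1 / (n : ℝ))) x i j| ≤ ε) :
    E.Nc k (fun l => Cψ l + Ct l) (Cm * ε) (sg g)
      (fun x => (g x).det ^ (((n : ℝ) - 2) / (2 * n)))
      (fun x => (g x).det ^ (1 / (n : ℝ)) • (g x)⁻¹) := by
  have hdp : ∀ x, 0 < (g x).det := fun x => (hp x).det_pos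
  have hn0 : (n : ℝ) ≠ 0 := by
    have : (1 : ℝ) ≤ n := by exact_mod_cast hn
    linarith
  have hψ0 : ∀ l ≤ k, 0 ≤ Cψ l := fun l hl => (inv_nonneg.2 (Real.rpow_nonneg (hdp 0).le _)).trans
    (hψ l g hg hdp 0 (hpt l hl 0) (hdet l hl 0)).2
  have ht0 : ∀ l ≤ k, 0 ≤ Ct l := fun l hl => (norm_nonneg _).trans
    (ht l g hg hdp 0 (hpt l hl 0) (hdet l hl 0) ⟨0, hn⟩ ⟨0, hn⟩ 0 (Nat.zero_le _))
  have hk0 : 0 ≤ k := Nat.zero_le k
  refine ⟨⟨H292.BM.sm_pow hg hdp _, fun x => Real.rpow_pos_of_pos (hdp x) _⟩,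
    fun i j => H292.BM.sm_inv hg hdp _ i j, fun x => ?_, fun x => ?_, fun l hl x => ?_,
    fun x => ?_, fun i j l hl x => ?_, fun i j x => ?_⟩
  · have h1 : ((g x)⁻¹).IsSymm := by
      have h2 := (hp x).inv.isHermitian
      rwa [Matrix.IsHermitian, Matrix.conjTranspose_eq_transpose_of_trivial] at h2
    exact h1.smul _
  · show √(g x).det • (g x)⁻¹ = _
    rw [smul_smul, ← Real.rpow_add (hdp x), Real.sqrt_eq_rpow]
    congr 2
    field_simp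
    ring
  · have h1 := (hψ l g hg hdp x (hpt l hl x) (hdet l hl x)).1 l le_rfl
    have h2 := ht0 l hl
    exact h1.trans (by linarith)
  · have h1 := (hψ 0 g hg hdp x (hpt 0 hk0 x) (hdet 0 hk0 x)).2
    have h2 := ht0 0 hk0
    exact h1.trans (by linarith)
  · have h1 := ht l g hg hdp x (hpt l hl x) (hdet l hl x) i j l le_rfl
    have h2 := hψ0 l hl
    exact h1.trans (by linarith)
  · have h1 : ∀ i j, |g x i j| ≤ B 0 := by
      intro i j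
      have h2 := hpt 0 hk0 x i j 0 le_rfl
      rwa [norm_iteratedFDeriv_zero, Real.norm_eq_abs] at h2
    have h2 := hm (g x) h1 (hdet 0 hk0 x) ε hε (fun i j => hnr i j x) i j
    have h3 : dl i j = (1 : Matrix (Fin n) (Fin n) ℝ) i j := by
      simp only [dl, Matrix.one_apply]
    rw [h3]
    exact h2

/-- (E_SC) -/
theorem esc : E.RowSC := by
  intro hF n hn ρ hρ c hcP B
  have hn1 : 1 ≤ n := by omega
  by_cases hB : 0 < B 0
  swap
  · refine ⟨0, 1, one_pos, fun g hg hgp hcl _ _ _ => ?_⟩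
    exfalso
    have h1 := hcl ⟨0, hn1⟩ ⟨0, hn1⟩ 0 (Nat.zero_le _) 0
    rw [norm_iteratedFDeriv_zero] at h1
    have h2 : 0 < g 0 ⟨0, hn1⟩ ⟨0, hn1⟩ := (hgp 0).diag_pos
    rw [Real.norm_eq_abs, abs_of_pos h2] at h1
    linarith
  obtain ⟨hc, hc0⟩ := hcP
  obtain ⟨t, ht1, ρ', hρ', hoff, hpos, hz, hχρ⟩ := exists_dom_bal hρ
  have ht0 : 0 < t := by linarith
  -- the cut-off conformal factor
  obtain ⟨c', hc'e⟩ : ∃ c' : V n → ℝ, c' = fun y => 1 + chi442 y * (c (ps t y) - 1) := ⟨_, rfl⟩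
  have hcps : ContDiff ℝ ∞ (fun y => c (ps t y) - 1) :=
    (hc.comp (contDiff_ps t)).sub contDiff_const
  have hc's : ContDiff ℝ ∞ c' := by
    rw [hc'e]; exact contDiff_const.add (chi_smooth442.mul hcps)
  have hc'0 : ∀ y, 0 < c' y := by
    intro y
    have h1 := chi_nonneg442 y
    have h2 := chi_le_one442 y
    have h3 := hc0 (ps t y)
    have h4 : c' y = (1 - chi442 y) + chi442 y * c (ps t y) := by rw [hc'e]; ring
    rw [h4]
    rcases h2.lt_or_eq with h5 | h5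
    · have := mul_nonneg h1 h3.le
      linarith
    · rw [h5]; linarith
  have hc'1 : ∀ y ∉ bal n, c' y = 1 := by
    intro y hy
    rw [hc'e]
    show 1 + chi442 y * (c (ps t y) - 1) = 1
    rw [chi_zero442 hy]; ring
  have hc'on : ∀ y, 0 ≤ ρ' y → c' y = c (ps t y) := by
    intro y hy
    rw [hc'e]
    show 1 + chi442 y * (c (ps t y) - 1) = _
    rw [hχρ y hy]; ring
  have hσ1 : ∀ x ∉ bal n, sgm442 c' x = 1 := by
    intro x hx
    rw [sgm442, hc'1 x hx, one_pow, Real.sqrt_one, inv_one, one_mul]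
  -- the constants
  obtain ⟨B₁, hB₁e⟩ : ∃ B₁ : ℕ → ℝ, B₁ = fun l =>
    max 1 t ^ l * ∑ i ∈ Finset.range (l + 1), |B i| := ⟨_, rfl⟩
  have hsum : ∀ l, ∀ q ≤ l, |B q| ≤ ∑ i ∈ Finset.range (l + 1), |B i| := fun l q hq =>
    Finset.single_le_sum (f := fun i => |B i|) (fun i _ => abs_nonneg _)
      (Finset.mem_range.2 (by omega))
  have hBB : ∀ l, B 0 ≤ B₁ l := by
    intro l
    have hmt : (1 : ℝ) ≤ max 1 t ^ l := one_le_pow₀ (le_max_left _ _)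
    have h1 := hsum l 0 (Nat.zero_le _)
    rw [hB₁e]
    exact (le_abs_self _).trans (h1.trans (le_mul_of_one_le_left ((abs_nonneg _).trans h1) hmt))
  have hB₁ : ∀ l, 0 < B₁ l := fun l => hB.trans_le (hBB l)
  choose Cψ hCψ kψ using fun l =>
    H292.BM.bdd_met n l (B₁ l) (hB₁ l) (((n : ℝ) - 2) / (2 * n))
  choose Ct hCt kt using fun l => H292.BM.bdd_met n l (B₁ l) (hB₁ l) (1 / (n : ℝ))
  obtain ⟨Cm, hCm0, km⟩ := H188.DM.met_sm n (hB₁ 0)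
  obtain ⟨k, ε₁, hε₁, hrig⟩ := hF n hn ρ' hρ' hoff (sgm442 c')
    ⟨sgm_smooth442 hc's hc'0, sgm_pos442 hc'0⟩ hσ1 (fun l => Cψ l + Ct l)
  refine ⟨k, ε₁ / (Cm + 1), by positivity, fun g hg hgp hcl hdet hnr hSE => ?_⟩
  have hOm : Om ρ' = ps t ⁻¹' Om ρ := by
    ext y
    exact hpos y
  have hO : IsOpen (Om ρ) := isOpen_lt continuous_const hρ.sm.continuous
  have hO' : IsOpen (Om ρ') := isOpen_lt continuous_const hρ'.sm.continuous
  -- the scaled metric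
  obtain ⟨g', hg'e⟩ : ∃ g' : MF n, g' = fun y => g (ps t y) := ⟨_, rfl⟩
  have hg's : SmM g' := by
    rw [hg'e]
    exact fun i j => (hg i j).comp (contDiff_ps t)
  have hg'p : ∀ y, (g' y).PosDef := by
    rw [hg'e]
    exact fun y => hgp _
  have hg'cl : ∀ l ≤ k, ∀ x, ∀ i j, ∀ q ≤ l,
      ‖iteratedFDeriv ℝ q (fun y => g' y i j) x‖ ≤ B₁ l := by
    intro l hl x i j q hq
    rw [hg'e, hB₁e]
    refine (H188.iter_ps (hg i j) hq ht0 x).trans ?_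
    refine mul_le_mul_of_nonneg_left ?_ (by positivity)
    exact (hcl i j q (hq.trans hl) _).trans ((le_abs_self _).trans (hsum l q hq))
  have hNc := nc_met (k := k) (ε := ε₁ / (Cm + 1)) hn1 (by positivity)
    (fun l g hg hd x h1 h2 => ⟨(kψ l g hg hd x h1 h2).1, (kψ l g hg hd x h1 h2).2.1⟩)
    (fun l g hg hd x h1 h2 => (kt l g hg hd x h1 h2).2.2) km hg's hg'p hg'cl
    (fun l _ x => by rw [hg'e]; exact (inv_anti₀ hB (hBB l)).trans (hdet _))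
    (fun i j x => by rw [hg'e]; exact hnr i j _)
  have hNc' : E.Nc k (fun l => Cψ l + Ct l) ε₁ (sg g')
      (fun x => (g' x).det ^ (((n : ℝ) - 2) / (2 * n)))
      (fun x => (g' x).det ^ (1 / (n : ℝ)) • (g' x)⁻¹) := by
    refine ⟨hNc.pψ, hNc.st, hNc.sy, hNc.eq, hNc.bψ, hNc.iψ, hNc.bt, fun i j x => ?_⟩
    refine (hNc.nt i j x).trans ?_
    rw [mul_div_assoc', div_le_iff₀ (by positivity)]
    nlinarith
  have hSE' : SE (Om ρ') (sc (sgm442 c')) (sg g') := by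
    have h1 := SE_ps607 t ht0 (Om ρ) hO _ _ hSE
    rw [← hOm] at h1
    intro f hf
    have h2 := h1 f hf
    have h3 : En (Om ρ') (sc (sgm442 c')) f = En (Om ρ') (rs t (sg (sc c))) f := by
      refine En_congr607 hO'.measurableSet (fun y hy => ?_) f
      have hy' : 0 < ρ' y := hy
      rw [sg_sc442 hc0]
      show sgm442 c' y • (1 : Matrix (Fin n) (Fin n) ℝ) = sgm442 c (ps t y) • 1
      unfold sgm442
      rw [hc'on y hy'.le]
    have h4 : En (Om ρ') (sg g') f = En (Om ρ') (rs t (sg g)) f := by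
      refine En_congr607 hO'.measurableSet (fun y _ => ?_) f
      rw [hg'e]
      rfl
    rw [h3, h2, h4]
  obtain ⟨Φ, Ψ, hΦ, hΨ, h1, h2, h3, h4, h5, h6⟩ := hrig _ _ _ hNc' hSE'
  -- the metric
  have hmet : ∀ y, 0 ≤ ρ' y → g (ps t y) = c (ps t (Φ y)) • ((Jm Φ y)ᵀ * Jm Φ y) := by
    intro y hy
    have hΦy : 0 ≤ ρ' (Φ y) := by
      rcases hy.lt_or_eq with h | h
      · exact ((h4 y).2 h).le
      · rw [h3 y h.symm]; exact hy
    rw [← hc'on _ hΦy]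
    have h7 := h6 y hy
    rw [← sg_sc442 hc'0] at h7
    obtain ⟨m, rfl⟩ : ∃ m, n = m + 3 := ⟨n - 3, by omega⟩
    have h8 := H695.iso_mat2 (Jm Φ y) (g' y) (hc'0 _) (h5 y) (hg'p y).det_pos h7
    rw [hg'e] at h8
    exact h8
  refine ⟨fun x => ps t (Φ (ph t x)), fun x => ps t (Ψ (ph t x)),
    (contDiff_ps t).comp (hΦ.comp (contDiff_ph t)), (contDiff_ps t).comp (hΨ.comp (contDiff_ph t)),
    ?_, ?_, ?_, ?_, ?_, ?_⟩
  · intro x
    show ps t (Ψ (ph t (ps t (Φ (ph t x))))) = x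
    rw [ph_ps ht0.ne', h1, ps_ph ht0.ne']
  · intro x
    show ps t (Φ (ph t (ps t (Ψ (ph t x))))) = x
    rw [ph_ps ht0.ne', h2, ps_ph ht0.ne']
  · intro x hx
    show ps t (Φ (ph t x)) = x
    rw [h3 (ph t x) ((hz _).2 (by rw [ps_ph ht0.ne']; exact hx)), ps_ph ht0.ne']
  · intro x
    show 0 < ρ (ps t (Φ (ph t x))) ↔ _
    rw [← hpos, h4, hpos, ps_ph ht0.ne']
  · intro x
    rw [Jm_scale hΦ ht0.ne']
    exact h5 _
  · intro x hx
    rw [Jm_scale hΦ ht0.ne']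
    have hx' : 0 ≤ ρ' (ph t x) := by
      rcases hx.lt_or_eq with h | h
      · exact ((hpos _).2 (by rw [ps_ph ht0.ne']; exact h)).le
      · exact ((hz _).2 (by rw [ps_ph ht0.ne']; exact h.symm)).ge
    have h7 := hmet (ph t x) hx'
    rwa [ps_ph ht0.ne'] at h7

end Vale.Agent.P088.H924.ES
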