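import Vale.Agent.P088.H833.D.Defs
import Vale.Agent.P088.H639.Push
import Vale.Agent.P088.H639.St2
import Vale.Agent.P088.H442.Top
import Vale.Agent.P088.H158.ConnB
import Vale.Agent.P088.H757.Weak

/-!
# P088, Theorem D with equal energies as data, and with unitary connections
-/

open MeasureTheory Set
open scoped ContDiff Matrix

noncomputable section

namespace Vale.Agent.P088.H924.DSe

open Vale.Agent.P088.LR Vale.Agent.P088.LR.CF Vale.Agent.P088.LR.CD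

variable {n : ℕ}

theorem bdd_box {Ω : Set (V n)} {R : ℝ} (h : ∀ x ∈ Ω, ∀ j, |x j| ≤ R) :
    Bornology.IsBounded Ω := by
  refine (Metric.isBounded_Icc (fun _ : Fin n => -R) (fun _ => R)).subset fun x hx => ?_
  have h1 := fun j => abs_le.1 (h x hx j)
  exact ⟨fun j => (h1 j).1, fun j => (h1 j).2⟩

theorem smM_sc {c : V n → ℝ} (hc : SmP c) : SmM (sc c) := by
  intro i j
  simp only [sc, Matrix.smul_apply, smul_eq_mul]
  exact hc.1.mul contDiff_const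

theorem pos_sc {c : V n → ℝ} (hc : SmP c) (x : V n) :
    (sc c x : Matrix (Fin n) (Fin n) ℝ).PosDef := Matrix.PosDef.one.smul (hc.2 x)

/-- Theorem D for any data which imply the orthogonality identity. -/
theorem locD_mono {D : Set (V n) → MF n → MF n → Prop} {k : ℕ} {c : V n → ℝ} (hc : SmP c)
    {B ε R : ℝ}
    (hP : ∀ (Ω : Set (V n)), IsOpen Ω → Bornology.IsBounded Ω → ∀ s₁ s₂ : MF n, SmM s₁ → SmM s₂ →
      (∀ x, (s₁ x).PosDef) → (∀ x, (s₂ x).PosDef) → D Ω s₁ s₂ → St2 Ω s₁ s₂)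
    (h : LocD n (fun Ω s t => St2 Ω s t) k c B ε R) : LocD n D k c B ε R := by
  intro Ω hΩ hreg hΩb g hg hgp hoff h1 h2 h3 hd
  exact h Ω hΩ hreg hΩb g hg hgp hoff h1 h2 h3
    (hP Ω hΩ (bdd_box hΩb) _ _ (H442.smM_sg442 (smM_sc hc) (pos_sc hc)) (H442.smM_sg442 hg hgp)
      (H158.posDef_sg (pos_sc hc)) (H158.posDef_sg hgp) hd)

theorem sy {s : MF n} (h : ∀ x, (s x).PosDef) (x : V n) : (s x).IsSymm := by
  have h1 := (h x).isHermitian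
  rwa [Matrix.IsHermitian, Matrix.conjTranspose_eq_transpose_of_trivial] at h1

/-- Equal energies. -/
theorem locD_se {k : ℕ} {c : V n → ℝ} (hc : SmP c) {B ε R : ℝ}
    (h : LocD n (fun Ω s t => St2 Ω s t) k c B ε R) :
    LocD n (fun Ω s t => H639.SE Ω s t) k c B ε R :=
  locD_mono hc (fun _ hΩ hb _ _ h1 h2 h3 h4 hS => H639.st2_of_SE weak hΩ hb h1 (sy h3)
    (fun x => (h3 x).posSemidef) h2 (sy h4) (fun x => (h4 x).posSemidef) hS) h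

/-- Metrics and connections: the second metric is bounded in `C^k` and `C^0`-close to its
conformally flat part, the base `c e` is arbitrary. -/
theorem semi_conn (hM : RowMETD) (n : ℕ) (hn : 3 ≤ n) : ∃ k : ℕ, ∀ R : ℝ, 0 < R →
    ∀ c : V n → ℝ, SmP c → ∀ B : ℝ, 0 < B → ∃ ε > 0,
    ∀ Ω : Set (V n), IsOpen Ω → interior (closure Ω) = Ω → (∀ x ∈ Ω, ∀ j, |x j| ≤ R) →
    ∀ g : MF n, SmM g → (∀ x, (g x).PosDef) → (∀ x ∉ Ω, g x = sc c x) →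
    (∀ i j, ∀ l ≤ k, ∀ x ∈ Ω, ‖iteratedFDeriv ℝ l (fun x => g x i j) x‖ ≤ B) →
    (∀ x ∈ Ω, B⁻¹ ≤ (g x).det) →
    (∀ i j, ∀ x ∈ Ω, |g x i j - sc (fun x => (g x).det ^ (1 / (n : ℝ))) x i j| ≤ ε) →
    (H639.SE Ω (sg (sc c)) (sg g) →
      ∃ w K, Dif Ω w K ∧ ∀ x, g x = c (x + w x) • ((jm w x)ᵀ * jm w x)) ∧
    ∀ N : ℕ, 1 ≤ N → ∀ A₁ A₂ : Cn n N, SmU A₁ → SmU A₂ → (∃ U, Gau₀ Ω U 0 A₁) →
      SDU Ω (sc c) A₁ g A₂ → ∃ w K U, Dif Ω w K ∧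
        (∀ x, g x = c (x + w x) • ((jm w x)ᵀ * jm w x)) ∧ Gau Ω U (pb w A₁) A₂ := by
  obtain ⟨k, hk⟩ := hM n hn
  refine ⟨k, fun R hR c hc B hB => ?_⟩
  obtain ⟨ε, hε, h⟩ := hk R hR c hc B hB
  have h' := locD_se hc h
  refine ⟨ε, hε, fun Ω hΩ hreg hΩb g hg hgp hoff h1 h2 h3 => ?_⟩
  have hmain : H639.SE Ω (sg (sc c)) (sg g) →
      ∃ w K, Dif Ω w K ∧ ∀ x, g x = c (x + w x) • ((jm w x)ᵀ * jm w x) := fun hS =>
    h' Ω hΩ hreg hΩb g hg hgp hoff h1 h2 h3 hS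
  refine ⟨hmain, ?_⟩
  intro N hN A₁ A₂ hA₁ hA₂ hT hD'
  have hb := bdd_box hΩb
  obtain ⟨hsd, hconn⟩ := H158.rowCONN (by omega) hN Ω hΩ hb (sc c) g (smM_sc hc) hg
    (pos_sc hc) hgp A₁ A₂ hA₁ hA₂ hT hD'
  obtain ⟨w, K, hK, hg'⟩ := hmain (H639.SE_of_SD hb
    (fun i j => (H442.smM_sg442 hg hgp i j).continuous) (H442.symm_sg442 hgp)
    (H639.psd_sg hgp)
    (fun i j => (H442.smM_sg442 (smM_sc hc) (pos_sc hc) i j).continuous)
    (H442.symm_sg442 (pos_sc hc)) (H639.psd_sg (pos_sc hc)) hsd)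
  obtain ⟨U, hU⟩ := hconn w K hK
  exact ⟨w, K, U, hK, hg', hU⟩

end Vale.Agent.P088.H924.DSe
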