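import Vale.Agent.P088.H198.E.Defs
import Vale.Agent.P088.H158.SdY

/-!
# P088: semi-global uniqueness on every smooth bounded domain, with connections

The hypotheses on `g` are those of `E.FinD`; the conclusion is `RigOn`. Uses `conf_conn`.
-/

open MeasureTheory Set
open scoped ContDiff Matrix

noncomputable section

namespace Vale.Agent.P088.H924

open Vale.Agent.P088.LR Vale.Agent.P088.LR.B Vale.Agent.P088.LR.CF

/-- `FinD` with connections. -/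
theorem fin_conn (hF : E.FinD) (n : ℕ) (hn : 3 ≤ n) (ρ : V n → ℝ) (hρ : SDom ρ)
    (c : V n → ℝ) (hc : ContDiff ℝ ∞ c) (hc0 : ∀ x, 0 < c x) (B : ℕ → ℝ) :
    ∃ (k : ℕ) (ε : ℝ), 0 < ε ∧ ∀ g : MF n, SmM g → (∀ x, (g x).PosDef) →
    (∀ i j, E.Cb k B (fun x => g x i j)) → (∀ x, (B 0)⁻¹ ≤ (g x).det) →
    (∀ i j x, |g x i j - sc (fun x => (g x).det ^ (1 / (n : ℝ))) x i j| ≤ ε) →
    RigOn ρ c g := by
  obtain ⟨k, ε, hε, h⟩ := hF n hn ρ hρ c ⟨hc, hc0⟩ B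
  refine ⟨k, ε, hε, fun g hg hp hB hd ht => ?_⟩
  have hmain : H639.SE (Om ρ) (sg (sc c)) (sg g) → ∃ Φ Ψ, ConfOn ρ c g Φ Ψ :=
    fun hS => h g hg hp hB hd ht hS
  exact ⟨hmain, fun N hN A₁ A₂ hA₁ hA₂ hT hD =>
    conf_conn hn hρ hc hc0 hg hp hmain N hN A₁ A₂ hA₁ hA₂ hT hD⟩

end Vale.Agent.P088.H924
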