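import Vale.Agent.P088.H198.E.Defs
import Vale.Agent.P088.H292.BdM

/-!
# P088, Theorem E: row E_DEC
-/

open MeasureTheory Set Filter Topology
open scoped ContDiff Matrix NNReal

noncomputable section

namespace Vale.Agent.P088.H924.ED

open Vale.Agent.P088.LR Vale.Agent.P088.LR.B Vale.Agent.P088.LR.CF Vale.Agent.P088.LR.E
open Vale.Agent.P088.H292.BM

variable {n : ℕ}

/-- The entries of `1`. -/
def p1 (n : ℕ) : Fin n × Fin n → ℝ := fun b => (1 : Matrix (Fin n) (Fin n) ℝ) b.1 b.2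

theorem mt_p1 : mt n (p1 n) = 1 := rfl

/-- `(det p)^(-1/n) p`. -/
def G (n : ℕ) (p : Fin n × Fin n → ℝ) : Fin n × Fin n → ℝ := fun b =>
  (mt n p).det ^ (-(1 / (n : ℝ))) * p b

theorem G_on (b : Fin n × Fin n) : ContDiffOn ℝ ∞ (fun p => G n p b)
    {p : Fin n × Fin n → ℝ | 0 < (mt n p).det} :=
  (pow_on n _).mul (contDiff_apply ℝ ℝ b).contDiffOn

theorem G_p1 : G n (p1 n) = p1 n := by
  funext b
  unfold G
  rw [mt_p1, Matrix.det_one, Real.one_rpow, one_mul]

/-- Near `1`. -/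
theorem near (n : ℕ) : ∃ δ K : ℝ, 0 < δ ∧ 0 < K ∧ ∀ p : Fin n × Fin n → ℝ, ∀ e, e ≤ δ →
    (∀ b, |p b - p1 n b| ≤ e) → 0 ≤ e →
    1 / 2 ≤ (mt n p).det ∧ ∀ b, |G n p b - p1 n b| ≤ K * e := by
  have h1 : ContDiffAt ℝ 1 (G n) (p1 n) := by
    rw [contDiffAt_pi]
    intro b
    refine ((G_on b).contDiffAt ((tp_open n).mem_nhds ?_)).of_le (by exact_mod_cast le_top)
    show 0 < (mt n (p1 n)).det
    rw [mt_p1, Matrix.det_one]
    exact one_pos
  obtain ⟨K, U, hU, hK⟩ := h1.exists_lipschitzOnWith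
  have h2 : {p : Fin n × Fin n → ℝ | 1 / 2 < (mt n p).det} ∈ 𝓝 (p1 n) := by
    refine (isOpen_lt continuous_const det_sm.continuous).mem_nhds ?_
    show 1 / 2 < (mt n (p1 n)).det
    rw [mt_p1, Matrix.det_one]
    norm_num
  obtain ⟨δ, hδ, hδU⟩ := Metric.mem_nhds_iff.1 (inter_mem hU h2)
  refine ⟨δ / 2, K + 1, by positivity, by positivity, fun p e he hp he0 => ?_⟩
  have h3 : dist p (p1 n) ≤ e := by
    rw [dist_pi_le_iff he0]
    intro b
    rw [Real.dist_eq]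
    exact hp b
  have h4 : p ∈ Metric.ball (p1 n) δ := by
    rw [Metric.mem_ball]
    linarith
  have h5 := hδU h4
  refine ⟨h5.2.le, fun b => ?_⟩
  have h6 := hK.dist_le_mul p h5.1 (p1 n) (mem_of_mem_nhds hU)
  rw [G_p1] at h6
  have h7 : |G n p b - p1 n b| ≤ dist (G n p) (p1 n) := by
    rw [← Real.dist_eq]
    exact dist_le_pi_dist _ _ b
  calc |G n p b - p1 n b| ≤ K * dist p (p1 n) := h7.trans h6
    _ ≤ K * e := mul_le_mul_of_nonneg_left h3 K.2
    _ ≤ (K + 1) * e := by nlinarith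

theorem ccx {k : ℕ} {B : ℝ} {f : V n → ℝ} (hf : ContDiff ℝ ∞ f) (h : Cl k B f) :
    Cl k B (cx f) := by
  intro l hl x
  have h1 : ContDiff ℝ l f := hf.of_le (by exact_mod_cast le_top)
  have h2 : cx f = Complex.ofRealLI ∘ f := rfl
  rw [h2, Complex.ofRealLI.norm_iteratedFDeriv_comp_left h1.contDiffAt le_rfl]
  exact h l hl x

theorem cl_sub1 {k : ℕ} {B : ℝ} {f : V n → ℝ} (hf : ContDiff ℝ ∞ f) (h : Cl k B f) (d : ℝ)
    (hd : |d| ≤ 1) : Cl k (B + 1) (fun x => f x - d) := by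
  have hB : 0 ≤ B := (norm_nonneg _).trans (h 0 (Nat.zero_le _) 0)
  intro l hl x
  rcases l with _ | l
  · have h1 := h 0 (Nat.zero_le _) x
    rw [norm_iteratedFDeriv_zero] at h1 ⊢
    rw [Real.norm_eq_abs] at h1 ⊢
    exact (abs_sub _ _).trans (add_le_add h1 hd)
  · have h2 : iteratedFDeriv ℝ (l + 1) (fun x => f x - d) x = iteratedFDeriv ℝ (l + 1) f x := by
      have h3 : iteratedFDeriv ℝ (l + 1) (fun x => f x - d) x =
          iteratedFDeriv ℝ (l + 1) f x - iteratedFDeriv ℝ (l + 1) (fun _ : V n => d) x :=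
        iteratedFDeriv_sub_apply ((hf.of_le (by exact_mod_cast le_top)).contDiffAt)
          contDiffAt_const
      rw [h3, iteratedFDeriv_const_of_ne (Nat.succ_ne_zero l)]
      simp
    rw [h2]
    exact (h (l + 1) hl x).trans (by linarith)

/-- (E_DEC) -/
theorem dec : RowDEC := by
  intro n k hn B hB
  obtain ⟨δ, K, hδ, hK, hnear⟩ := near n
  have hB0 : 0 < B := by linarith
  have hn0 : (n : ℝ) ≠ 0 := by
    have : 0 < n := hn
    positivity
  obtain ⟨B₂, hB₂⟩ : ∃ B₂ : ℝ, B₂ = 2 * B ^ n + B := ⟨_, rfl⟩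
  have hBn : 1 ≤ B ^ n := one_le_pow₀ hB
  have hB₂1 : 1 ≤ B₂ := by rw [hB₂]; linarith
  obtain ⟨C1, hC1, k1⟩ := bdd_comp {p : Fin n × Fin n → ℝ | 0 < (mt n p).det} (KB n B₂)
    (tp_open n) (KB_compact n B₂) (fun p hp => lt_of_lt_of_le (by positivity) hp.2)
    (fun p => (mt n p).det ^ (1 / (2 * (n : ℝ)))) (pow_on n _) n k B
  have h2 : ∀ b : Fin n × Fin n, ∃ C : ℝ, 0 ≤ C ∧ ∀ f : V n → Fin n × Fin n → ℝ,
      ContDiff ℝ ∞ f → (∀ x, f x ∈ KB n B₂) → (∀ b, Cl k B (fun y => f y b)) →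
      Cl k C (fun y => G n (f y) b) := fun b =>
    bdd_comp {p : Fin n × Fin n → ℝ | 0 < (mt n p).det} (KB n B₂)
      (tp_open n) (KB_compact n B₂) (fun p hp => lt_of_lt_of_le (by positivity) hp.2)
      (fun p => G n p b) (G_on b) n k B
  choose C2 hC2 k2 using h2
  have hC2s : ∀ b, C2 b ≤ ∑ b, C2 b := fun b =>
    Finset.single_le_sum (f := C2) (fun b _ => hC2 b) (Finset.mem_univ b)
  have hS0 : 0 ≤ ∑ b, C2 b := Finset.sum_nonneg fun b _ => hC2 b
  refine ⟨C1 + ∑ b, C2 b + 1 + B₂, K * B, δ / B, by positivity, by positivity, ?_⟩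
  intro s ε hε hε₀ hs hsym hcl hnr
  -- pointwise
  have hpt : ∀ x, B₂⁻¹ ≤ (s x).det ∧ ∀ i j,
      |(s x).det ^ (-(1 / (n : ℝ))) * s x i j - (1 : Matrix (Fin n) (Fin n) ℝ) i j| ≤
        K * B * ε := by
    intro x
    obtain ⟨y, hy, hsy⟩ := hnr x
    have hy0 : 0 < y := lt_of_lt_of_le (by positivity) hy
    have hyi : y⁻¹ ≤ B := by
      rw [inv_le_comm₀ hy0 hB0]
      exact hy
    obtain ⟨p, hp⟩ : ∃ p : Fin n × Fin n → ℝ, p = fun b => y⁻¹ * s x b.1 b.2 := ⟨_, rfl⟩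
    have h3 : mt n p = y⁻¹ • s x := by
      ext i j
      rw [hp]
      rfl
    have h4 : ∀ b, |p b - p1 n b| ≤ B * ε := by
      intro b
      have h5 : p b - p1 n b = y⁻¹ * (s x b.1 b.2 - y * dl b.1 b.2) := by
        rw [hp]
        simp only [p1, dl, Matrix.one_apply]
        field_simp
      rw [h5, abs_mul, abs_of_pos (inv_pos.2 hy0)]
      exact mul_le_mul hyi (hsy b.1 b.2) (abs_nonneg _) hB0.le
    have h5 : B * ε ≤ δ := by
      rw [le_div_iff₀ hB0] at hε₀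
      linarith
    obtain ⟨h6, h7⟩ := hnear p (B * ε) h5 h4 (by positivity)
    have h8 : (s x).det = y ^ n * (mt n p).det := by
      rw [h3, Matrix.det_smul, Fintype.card_fin, ← mul_assoc, ← mul_pow, mul_inv_cancel₀ hy0.ne',
        one_pow, one_mul]
    have h9 : 0 < (mt n p).det := by linarith
    refine ⟨?_, fun i j => ?_⟩
    · rw [h8]
      have h10 : (B⁻¹) ^ n ≤ y ^ n := pow_le_pow_left₀ (by positivity) hy n
      calc B₂⁻¹ ≤ (2 * B ^ n)⁻¹ := by
            apply inv_anti₀ (by positivity)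
            rw [hB₂]
            linarith
        _ = (B⁻¹) ^ n * (1 / 2) := by rw [mul_inv, inv_pow]; ring
        _ ≤ y ^ n * (mt n p).det := mul_le_mul h10 h6 (by norm_num) (by positivity)
    · have h10 : (s x).det ^ (-(1 / (n : ℝ))) * s x i j = G n p (i, j) := by
        unfold G
        rw [h8, Real.mul_rpow (by positivity) h9.le, ← Real.rpow_natCast, ← Real.rpow_mul hy0.le]
        have h11 : (n : ℝ) * -(1 / (n : ℝ)) = -1 := by
          field_simp
        rw [h11, Real.rpow_neg_one, hp]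
        ring
      rw [h10]
      have := h7 (i, j)
      calc |G n p (i, j) - (1 : Matrix (Fin n) (Fin n) ℝ) i j| ≤ K * (B * ε) := this
        _ = K * B * ε := by ring
  have hdp : ∀ x, 0 < (s x).det := fun x => lt_of_lt_of_le (by positivity) (hpt x).1
  have hKB : ∀ x, en s x ∈ KB n B₂ := by
    intro x
    refine ⟨fun b => ?_, (hpt x).1⟩
    have h3 := hcl b.1 b.2 0 (Nat.zero_le _) x
    rw [norm_iteratedFDeriv_zero, Real.norm_eq_abs] at h3
    refine h3.trans ?_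
    rw [hB₂]
    linarith
  have hφs : ContDiff ℝ ∞ fun x => (s x).det ^ (1 / (2 * (n : ℝ))) := sm_pow hs hdp _
  have hts : ∀ i j, ContDiff ℝ ∞ fun x => (s x).det ^ (-(1 / (n : ℝ))) * s x i j := fun i j =>
    (sm_pow hs hdp _).mul (hs i j)
  refine ⟨fun x => (s x).det ^ (1 / (2 * (n : ℝ))),
    fun x => (s x).det ^ (-(1 / (n : ℝ))) • s x, ⟨hφs, fun x => Real.rpow_pos_of_pos (hdp x) _⟩,
    fun i j => hts i j, fun x => (hsym x).smul _, fun x => ?_, ?_, fun x => ?_, fun i j => ?_,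
    fun i j x => ?_, fun x y hy hsx => ?_⟩
  · -- the product
    rw [smul_smul, ← Real.rpow_natCast, ← Real.rpow_mul (hdp x).le, ← Real.rpow_add (hdp x)]
    have h3 : 1 / (2 * (n : ℝ)) * ((2 : ℕ) : ℝ) + -(1 / (n : ℝ)) = 0 := by
      push_cast
      field_simp
      ring
    rw [h3, Real.rpow_zero, one_smul]
  · refine fun l hl x => (ccx hφs (k1 (en s) (en_sm hs) hKB fun b => hcl b.1 b.2) l hl x).trans ?_
    linarith
  · rw [← Real.rpow_neg (hdp x).le]
    have h3 : (s x).det ^ (-(1 / (2 * (n : ℝ)))) = ((s x).det⁻¹) ^ (1 / (2 * (n : ℝ))) := by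
      rw [Real.rpow_neg (hdp x).le, Real.inv_rpow (hdp x).le]
    rw [h3]
    have h4 : (s x).det⁻¹ ≤ B₂ := by
      rw [inv_le_comm₀ (hdp x) (by linarith)]
      exact (hpt x).1
    have h5 : 1 / (2 * (n : ℝ)) ≤ 1 := by
      have h6 : (1 : ℝ) ≤ n := by exact_mod_cast hn
      rw [div_le_one (by positivity)]
      linarith
    calc ((s x).det⁻¹) ^ (1 / (2 * (n : ℝ))) ≤ B₂ ^ (1 / (2 * (n : ℝ))) :=
          Real.rpow_le_rpow (inv_nonneg.2 (hdp x).le) h4 (by positivity)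
      _ ≤ B₂ ^ (1 : ℝ) := Real.rpow_le_rpow_of_exponent_le hB₂1 h5
      _ = B₂ := Real.rpow_one _
      _ ≤ _ := by linarith
  · have h3 := k2 (i, j) (en s) (en_sm hs) hKB fun b => hcl b.1 b.2
    have h4 := cl_sub1 (hts i j) h3 ((1 : Matrix (Fin n) (Fin n) ℝ) i j) (by
      by_cases hij : i = j
      · rw [hij, Matrix.one_apply_eq, abs_one]
      · rw [Matrix.one_apply_ne hij, abs_zero]
        exact zero_le_one)
    refine fun l hl x => (ccx ((hts i j).sub contDiff_const) h4 l hl x).trans ?_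
    have := hC2s (i, j)
    linarith
  · unfold ent
    rw [Complex.norm_real, Real.norm_eq_abs]
    exact (hpt x).2 i j
  · have h3 : (s x).det = y ^ (2 * n) := by
      rw [hsx, Matrix.det_smul, Matrix.det_one, Fintype.card_fin, mul_one, ← pow_mul]
    constructor
    · show (s x).det ^ (1 / (2 * (n : ℝ))) = y
      rw [h3, ← Real.rpow_natCast, ← Real.rpow_mul hy.le]
      have h4 : ((2 * n : ℕ) : ℝ) * (1 / (2 * (n : ℝ))) = 1 := by
        push_cast
        field_simp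
      rw [h4, Real.rpow_one]
    · show (s x).det ^ (-(1 / (n : ℝ))) • s x = 1
      rw [h3, hsx, smul_smul, ← Real.rpow_natCast, ← Real.rpow_mul hy.le, ← Real.rpow_natCast,
        ← Real.rpow_add hy]
      have h4 : ((2 * n : ℕ) : ℝ) * -(1 / (n : ℝ)) + ((2 : ℕ) : ℝ) = 0 := by
        push_cast
        field_simp
        ring
      rw [h4, Real.rpow_zero, one_smul]

end Vale.Agent.P088.H924.ED
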