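import Vale.Agent.P088.H705.SV2

/-!
# P088, phase 2: the conclusion for the base `φ² σ` (row F_FIN2)
-/

open MeasureTheory Set Filter Topology
open scoped ContDiff Matrix

noncomputable section

namespace Vale.Agent.P088.H924

open Vale.Agent.P088.LR Vale.Agent.P088.LR.CF Vale.Agent.P088.LR.H705

variable {n : ℕ}

theorem psh_smul (f : V n → ℝ) (s : MF n) (w K : V n → V n) (y : V n) :
    psh (fun x => f x • s x) w K y = f (K y) • psh s w K y := by
  unfold psh
  rw [Matrix.mul_smul, Matrix.smul_mul, smul_comm]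

theorem pd_cx' {f : V n → ℝ} (hf : ContDiff ℝ ∞ f) (i : Fin n) (x : V n) :
    pd i (cx f) x = ((pd i f x : ℝ) : ℂ) := by
  have h1 : HasFDerivAt (cx f) (Complex.ofRealCLM.comp (fderiv ℝ f x)) x :=
    Complex.ofRealCLM.hasFDerivAt.comp x (hf.differentiable (by simp) x).hasFDerivAt
  unfold pd
  rw [h1.fderiv]
  rfl

theorem fderiv_zero_of_pd {f : V n → ℝ} {x : V n} (h : ∀ i, pd i f x = 0) :
    fderiv ℝ f x = 0 := by
  ext w
  have h1 : fderiv ℝ f x w = ∑ i, w i * pd i f x := by
    conv_lhs => rw [← Finset.univ_sum_single w, map_sum]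
    refine Finset.sum_congr rfl fun i _ => ?_
    have : (Pi.single i (w i) : V n) = w i • Pi.single i (1 : ℝ) := by
      rw [← Pi.single_smul, smul_eq_mul, mul_one]
    rw [this, map_smul, smul_eq_mul]
    rfl
  rw [h1]
  simp [h]

theorem bl_real {Ω : Set (V n)} (σ : V n → ℝ) {d : V n → ℝ} (hd : ContDiff ℝ ∞ d) :
    bl Ω (sc σ) (cx d) (cx d) = ((∫ x in Ω, σ x * ∑ i, pd i d x ^ 2 : ℝ) : ℂ) := by
  rw [← integral_complex_ofReal]
  unfold bl
  congr 1
  funext x
  have h1 : ∀ i j, ((sc σ x i j : ℝ) : ℂ) * pd i (cx d) x * pd j (cx d) x =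
      if i = j then ((σ x * pd i d x ^ 2 : ℝ) : ℂ) else 0 := by
    intro i j
    rw [pd_cx' hd, pd_cx' hd]
    simp only [sc, Matrix.smul_apply, smul_eq_mul]
    by_cases hij : i = j
    · subst hij
      rw [Matrix.one_apply_eq, if_pos rfl]
      push_cast
      ring
    · rw [Matrix.one_apply_ne hij, if_neg hij]
      simp
  simp only [h1, Finset.sum_ite_eq, Finset.mem_univ, if_true]
  rw [Finset.mul_sum]
  push_cast
  rfl

/-- A function of zero energy which vanishes off the bounded set `Ω` is zero. -/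
theorem zero_of_energy {Ω : Set (V n)} (hn : 1 ≤ n) (hΩ : IsOpen Ω) (hb : Bornology.IsBounded Ω)
    {σ : V n → ℝ} (hσ : SmP σ) {d : V n → ℝ}
    (hd : ContDiff ℝ ∞ d) (h0 : ∀ x ∉ Ω, d x = 0) (hE : bl Ω (sc σ) (cx d) (cx d) = 0) :
    ∀ x, d x = 0 := by
  rw [bl_real σ hd, Complex.ofReal_eq_zero] at hE
  have hpc : ∀ i, Continuous (pd i d) := fun i =>
    ((hd.fderiv_right (m := ∞) (by simp)).clm_apply contDiff_const).continuous
  have hFc : Continuous fun x => σ x * ∑ i, pd i d x ^ 2 :=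
    hσ.1.continuous.mul (continuous_finsetSum _ fun i _ => (hpc i).pow 2)
  have hF0 : ∀ x, 0 ≤ σ x * ∑ i, pd i d x ^ 2 := fun x =>
    mul_nonneg (hσ.2 x).le (Finset.sum_nonneg fun i _ => sq_nonneg _)
  have hint : IntegrableOn (fun x => σ x * ∑ i, pd i d x ^ 2) Ω :=
    (hFc.continuousOn.integrableOn_compact hb.isCompact_closure).mono_set subset_closure
  have hae := (setIntegral_eq_zero_iff_of_nonneg_ae
    (Eventually.of_forall fun x => hF0 x) hint).1 hE
  have hz : ∀ x ∈ Ω, σ x * ∑ i, pd i d x ^ 2 = 0 := fun x hx =>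
    Measure.eqOn_open_of_ae_eq hae hΩ hFc.continuousOn continuousOn_const hx
  have hfd : ∀ x ∈ Ω, fderiv ℝ d x = 0 := by
    intro x hx
    have h1 := (mul_eq_zero.1 (hz x hx)).resolve_left (hσ.2 x).ne'
    have h2 := (Finset.sum_eq_zero_iff_of_nonneg fun i _ => sq_nonneg (pd i d x)).1 h1
    exact fderiv_zero_of_pd fun i => pow_eq_zero_iff two_ne_zero |>.1 (h2 i (Finset.mem_univ i))
  have hcl : IsClosed {x : V n | fderiv ℝ d x = 0} :=
    isClosed_eq (hd.continuous_fderiv (by simp)) continuous_const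
  have hall : ∀ x, fderiv ℝ d x = 0 := by
    intro x
    by_cases hx : x ∈ closure Ω
    · exact closure_minimal (s := Ω) (fun y hy => hfd y hy) hcl hx
    · have h1 : d =ᶠ[𝓝 x] fun _ => 0 := by
        filter_upwards [isClosed_closure.isOpen_compl.mem_nhds hx] with y hy
        exact h0 y fun h => hy (subset_closure h)
      rw [h1.fderiv_eq]
      simp
  obtain ⟨R, hR⟩ := hb.subset_closedBall (0 : V n)
  have : Nonempty (Fin n) := ⟨⟨0, by omega⟩⟩
  set z : V n := fun _ => |R| + 1 with hz'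
  have hzn : z ∉ Ω := by
    intro hz1
    have h1 := hR hz1
    rw [mem_closedBall_zero_iff, hz', pi_norm_const, Real.norm_eq_abs] at h1
    have h2 := le_abs_self (|R| + 1)
    have h3 := le_abs_self R
    linarith
  intro x
  rw [is_const_of_fderiv_eq_zero (hd.differentiable (by simp)) hall x z, h0 z hzn]

theorem dv_sub' {s t : MF n} (hs : SmM s) (ht : SmM t) {W : V n → ℂ} (hW : ContDiff ℝ ∞ W)
    (x : V n) : dv (fun x => s x - t x) W x = dv s W x - dv t W x := by
  unfold dv
  rw [← Finset.sum_sub_distrib]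
  refine Finset.sum_congr rfl fun i _ => ?_
  have h1 : (fun y => ∑ j, (((s y - t y) i j : ℝ) : ℂ) * pd j W y) =
      fun y => flx s W i y - flx t W i y := by
    funext y
    unfold flx
    rw [← Finset.sum_sub_distrib]
    refine Finset.sum_congr rfl fun j _ => ?_
    rw [Matrix.sub_apply]
    push_cast
    ring
  have h2 : (fun y => ∑ j, ((s y i j : ℝ) : ℂ) * pd j W y) = flx s W i := rfl
  have h3 : (fun y => ∑ j, ((t y i j : ℝ) : ℂ) * pd j W y) = flx t W i := rfl
  rw [h1, h2, h3]
  unfold pd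
  rw [fderiv_fun_sub ((contDiff_flx hs hW i).differentiable (by simp) x)
    ((contDiff_flx ht hW i).differentiable (by simp) x)]
  rfl

/-- **Row F_FIN2.** -/
theorem fin2 : RowFIN2 := by
  intro n hn Ω hΩ hb hi φ σ hφ hσ hφ0 s hs hsym hso q hq v hv hv1 hvq w K D hps y
  have hcφ : ContDiff ℝ ∞ (cx φ) := Complex.ofRealCLM.contDiff.comp hφ.1
  have hcv : ContDiff ℝ ∞ (cx v) := Complex.ofRealCLM.contDiff.comp hv.1
  have hscs : SmM (sc σ) := fun i j => by
    simp only [sc, Matrix.smul_apply, smul_eq_mul]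
    exact hσ.1.mul contDiff_const
  have hscy : ∀ x, (sc σ x).IsSymm := fun x => by
    unfold sc
    exact Matrix.isSymm_one.smul _
  set u : V n → ℝ := fun x => φ x / v x with hu
  have hus : ContDiff ℝ ∞ u := hφ.1.div hv.1 fun x => (hv.2 x).ne'
  have hcu : ContDiff ℝ ∞ (cx u) := Complex.ofRealCLM.contDiff.comp hus
  have hvu' : ∀ x, cx v x * cx u x = cx φ x := by
    intro x
    have h1 : (v x : ℂ) ≠ 0 := by exact_mod_cast (hv.2 x).ne'
    simp only [cx, hu]
    push_cast
    field_simp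
  have hvu : (fun x => cx v x * cx u x) = cx φ := funext hvu'
  set t : MF n := fun x => (v x) ^ 2 • s x with ht
  have hts : SmM t := fun i j => by
    simp only [ht, Matrix.smul_apply, smul_eq_mul]
    exact (hv.1.pow 2).mul (hs i j)
  have hty : ∀ x, (t x).IsSymm := fun x => (hsym x).smul _
  have h1 : ∀ x ∈ Ω, dv t (cx u) x = 0 := by
    intro x hx
    rw [ht, dv_sq hs hv.1 hcu]
    have e1 := dv_mul hs hsym hcv hcu x
    rw [hvu] at e1
    have e2 : dv s (cx v) x = (q x : ℂ) * cx v x := hvq x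
    have e3 : dv s (cx φ) x = (q x : ℂ) * cx φ x := by
      have h2 := hq x
      rw [dv_sub' hs hscs hcφ x, hφ0 x hx, sub_zero] at h2
      exact h2.symm
    have e4 := hvu' x
    rw [e2, e3] at e1
    linear_combination (-(cx v x)) * e1 - (q x : ℂ) * cx v x * e4
  -- the weak equation of `φ~`
  set f : V n → ℝ := fun y => u (K y) with hf
  have hfs : ContDiff ℝ ∞ f := hus.comp D.sK
  have hcf : ContDiff ℝ ∞ (cx f) := Complex.ofRealCLM.contDiff.comp hfs
  have hfr : ∀ x ∈ frontier Ω, x ∉ Ω := fun x hx h => by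
    rw [hΩ.frontier_eq] at hx
    exact hx.2 h
  have h2 : ∀ η : V n → ℂ, ContDiff ℝ ∞ η → (∀ x ∉ Ω, η x = 0) →
      bl Ω (sc σ) (cx f) η = 0 := by
    intro η hη hη0
    have e1 : psh t w K = sc σ := funext hps
    rw [← e1, Vale.Agent.P088.LR.H158.bl_push D hΩ t (hcf.differentiable (by simp))
      (hη.differentiable (by simp))]
    have e2 : (fun x => cx f (x + w x)) = cx u := by
      funext x
      simp only [cx, hf]
      rw [D.l]
    rw [e2]
    refine weak Ω hΩ hb t hts hty (cx u) _ hcu (hη.comp (contDiff_id.add D.sw)) h1 ?_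
    intro x hx
    have h3 := hfr x hx
    show η (x + w x) = 0
    rw [D.z x h3, add_zero]
    exact hη0 x h3
  have h3 : ∀ η : V n → ℂ, ContDiff ℝ ∞ η → (∀ x ∉ Ω, η x = 0) →
      bl Ω (sc σ) (cx φ) η = 0 := fun η hη hη0 =>
    weak Ω hΩ hb _ hscs hscy (cx φ) η hcφ hη hφ0 fun x hx => hη0 x (hfr x hx)
  -- the difference
  set d : V n → ℝ := fun x => f x - φ x with hd
  have hds : ContDiff ℝ ∞ d := hfs.sub hφ.1
  have hcd : ContDiff ℝ ∞ (cx d) := Complex.ofRealCLM.contDiff.comp hds
  have hd0 : ∀ x ∉ Ω, d x = 0 := by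
    intro x hx
    simp only [hd, hf, hu]
    rw [Vale.Agent.P088.LR.H158.K_off D hx, hv1 x hx, div_one, sub_self]
  have hcd0 : ∀ x ∉ Ω, cx d x = 0 := fun x hx => by
    simp only [cx]
    rw [hd0 x hx, Complex.ofReal_zero]
  have hE : bl Ω (sc σ) (cx d) (cx d) = 0 := by
    have e1 := h2 _ hcd hcd0
    have e2 := h3 _ hcd hcd0
    rw [bl_eq] at e1 e2 ⊢
    have i1 : ∀ a : V n → ℂ, ContDiff ℝ ∞ a → IntegrableOn (B (sc σ) a (cx d)) Ω := fun a ha =>
      ((continuous_B hscs ha hcd).continuousOn.integrableOn_compact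
        hb.isCompact_closure).mono_set subset_closure
    have e3 : ∀ x, B (sc σ) (cx d) (cx d) x = B (sc σ) (cx f) (cx d) x -
        B (sc σ) (cx φ) (cx d) x := by
      intro x
      have e4 : ∀ i, pd i (cx d) x = pd i (cx f) x - pd i (cx φ) x := by
        intro i
        have e5 : cx d = fun x => cx f x - cx φ x := by
          funext x
          simp only [cx, hd]
          push_cast
          ring
        rw [e5]
        unfold pd
        rw [fderiv_fun_sub (hcf.differentiable (by simp) x) (hcφ.differentiable (by simp) x)]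
        rfl
      unfold B
      rw [← Finset.sum_sub_distrib]
      refine Finset.sum_congr rfl fun i _ => ?_
      rw [← Finset.sum_sub_distrib]
      refine Finset.sum_congr rfl fun j _ => ?_
      rw [e4 i]
      ring
    simp only [e3]
    rw [integral_sub (i1 _ hcf) (i1 _ hcφ), e1, e2, sub_zero]
  have hfin := zero_of_energy hn hΩ hb hσ hds hd0 hE
  have hfy : φ (K y) / v (K y) = φ y := by
    have := hfin y
    simp only [hd, hf, hu] at this
    linarith
  have hvK : v (K y) ≠ 0 := (hv.2 (K y)).ne'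
  have hP := hps y
  rw [ht] at hP
  rw [psh_smul (fun x => v x ^ 2) s w K y] at hP
  rw [psh_smul (fun x => φ x ^ 2) s w K y]
  have e1 : φ (K y) ^ 2 = φ y ^ 2 * v (K y) ^ 2 := by
    rw [← hfy]
    field_simp
  rw [e1, mul_smul, hP]
  unfold sc ps2
  rw [smul_smul]

end Vale.Agent.P088.H924
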