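import Vale.Agent.P088.H924.SCF
import Vale.Agent.P088.H924.FIN2
import Vale.Agent.P088.H198.FAsm
import Vale.Agent.P088.H833.FRig
import Vale.Agent.P088.H442.CFTop
import Vale.Agent.P088.H27.GQ2
import Vale.Agent.P088.H129.SQ2
import Vale.Agent.P088.H695.CFIso
import Vale.Agent.P088.H695.CFStar
import Vale.Agent.P088.H639.St2
import Vale.Agent.P088.H639.Scale

/-!
# P088: local rigidity of the conformally flat metrics with small scalar curvature, unconditional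
-/

open MeasureTheory Set
open scoped ContDiff Matrix

noncomputable section

namespace Vale.Agent.P088.H924

open Vale.Agent.P088.LR Vale.Agent.P088.LR.CF Vale.Agent.P088.LR.H925

variable {n : ℕ}

/-- Dilation and cut-off, any form of the data. -/
theorem scaleD (D : Set (V n) → MF n → MF n → Prop)
    (hcong : ∀ Ω : Set (V n), IsOpen Ω → ∀ s s' t t' : MF n, (∀ x ∈ Ω, s x = s' x) →
      (∀ x ∈ Ω, t x = t' x) → D Ω s t → D Ω s' t')
    (hdil : ∀ t : ℝ, 0 < t → ∀ Ω : Set (V n), IsOpen Ω → ∀ s₁ s₂ : MF n, D Ω s₁ s₂ →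
      D (ps t ⁻¹' Ω) (rs t s₁) (rs t s₂)) (k : ℕ) (hn : 3 ≤ n)
    (hL : ∀ φ : V n → ℝ, SmP φ → ∃ ε > 0, LocF n D k φ ε) (R : ℝ) (hR : 0 < R)
    (φ : V n → ℝ) (hφ : SmP φ) : ∃ ε > 0, LocFR n D k R φ ε := by
  obtain ⟨B, hB, hχ⟩ := chi_cl442 n k
  set t : ℝ := 8 * R with ht
  have ht0 : 0 < t := by positivity
  have hM : 0 < max 1 t ^ k := by positivity
  have hφ' : SmP (fun y : V n => φ (ps t y)) := ⟨hφ.1.comp (contDiff_ps t), fun y => hφ.2 _⟩
  obtain ⟨ε, hε, hloc⟩ := hL (fun y => φ (ps t y)) hφ'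
  refine ⟨min (ε / (2 ^ k * (B * max 1 t ^ k))) (ε / max 1 t ^ k), by positivity, ?_⟩
  intro Ω hΩ hreg hΩR σ hσ hσc hφ0 g hg hgp hoff hgc hSD
  set Ω' : Set (V n) := ps t ⁻¹' Ω with hΩ'
  have hO' : IsOpen Ω' := hΩ.preimage (contDiff_ps t).continuous
  have hreg' : interior (closure Ω') = Ω' := by
    have e1 := (hm (n := n) t ht0.ne').preimage_closure Ω
    have e2 := (hm (n := n) t ht0.ne').preimage_interior (closure Ω)
    have e3 : (hm (n := n) t ht0.ne') ⁻¹' Ω = Ω' := rfl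
    rw [e1, e3, hreg, e3] at e2
    exact e2.symm
  have hsm : ∀ y ∈ Ω', ∑ j, (y j - 1 / 2) ^ 2 ≤ 1 / 64 := by
    intro y hy
    have h1 : ∑ j, (ps t y j) ^ 2 ≤ R ^ 2 := hΩR hy
    have h2 : ∑ j, (ps t y j) ^ 2 = 64 * R ^ 2 * ∑ j, (y j - 1 / 2) ^ 2 := by
      rw [Finset.mul_sum]
      refine Finset.sum_congr rfl fun j _ => ?_
      simp only [ps, Pi.smul_apply, Pi.sub_apply, smul_eq_mul, ht]
      ring
    rw [h2] at h1
    have h3 : 0 < R ^ 2 := by positivity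
    have h4 : R ^ 2 * (64 * ∑ j, (y j - 1 / 2) ^ 2) ≤ R ^ 2 * 1 := by
      rw [mul_one]
      calc R ^ 2 * (64 * ∑ j, (y j - 1 / 2) ^ 2) = 64 * R ^ 2 * ∑ j, (y j - 1 / 2) ^ 2 := by ring
        _ ≤ R ^ 2 := h1
    have h5 := le_of_mul_le_mul_left h4 h3
    linarith
  have hb' : Ω' ⊆ bal n := fun y hy => by
    have := hsm y hy
    show ∑ j, (y j - 1 / 2) ^ 2 ≤ 1 / 16
    linarith
  have hχ1 : ∀ y ∈ Ω', chi442 y = 1 := fun y hy => chi_one442 (hsm y hy)
  -- the cut-off data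
  set φ' : V n → ℝ := fun y => φ (ps t y) with hφ'e
  set σ' : V n → ℝ := fun y => 1 + chi442 y * (σ (ps t y) - 1) with hσ'
  have hσps : ContDiff ℝ ∞ (fun y => σ (ps t y) - 1) :=
    (hσ.1.comp (contDiff_ps t)).sub contDiff_const
  have hσ's : ContDiff ℝ ∞ σ' := contDiff_const.add (chi_smooth442.mul hσps)
  have hσ'0 : ∀ y, 0 < σ' y := by
    intro y
    have h1 := chi_nonneg442 y
    have h2 := chi_le_one442 y
    have h3 := hσ.2 (ps t y)
    show 0 < 1 + chi442 y * (σ (ps t y) - 1)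
    have h4 : 1 + chi442 y * (σ (ps t y) - 1) = (1 - chi442 y) + chi442 y * σ (ps t y) := by ring
    rw [h4]
    rcases h2.lt_or_eq with h5 | h5
    · have := mul_nonneg h1 h3.le
      linarith
    · rw [h5]; linarith
  have hσ'P : SmP σ' := ⟨hσ's, hσ'0⟩
  have hσ'1 : ∀ y ∉ bal n, σ' y = 1 := by
    intro y hy
    show 1 + chi442 y * (σ (ps t y) - 1) = 1
    rw [chi_zero442 hy]; ring
  have hσ'on : ∀ y ∈ Ω', σ' y = σ (ps t y) := by
    intro y hy
    show 1 + chi442 y * (σ (ps t y) - 1) = _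
    rw [hχ1 y hy]
    ring
  have hσ'c : Cl k ε (fun y => σ' y - 1) := by
    have h0 : Cl k (ε / (2 ^ k * (B * max 1 t ^ k))) (fun x => σ x - 1) :=
      Vale.Agent.P088.LR.H72.cl_mono hσc (min_le_left _ _)
    have h1 := cl_mul442 chi_smooth442 hσps hχ (cl_ps (hσ.1.sub contDiff_const) ht0 h0)
    have hfin : 2 ^ k * (B * (max 1 t ^ k * (ε / (2 ^ k * (B * max 1 t ^ k))))) = ε := by
      field_simp
    rw [hfin] at h1
    have h2 : (fun y => σ' y - 1) = fun y => chi442 y * (σ (ps t y) - 1) := by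
      funext y
      show 1 + chi442 y * (σ (ps t y) - 1) - 1 = _
      ring
    rw [h2]; exact h1
  -- the conformal factors
  obtain ⟨hcs, -⟩ := sgc hn φ σ hφ hσ
  obtain ⟨hcs', -⟩ := sgc hn φ' σ' hφ' hσ'P
  have hccon : ∀ y ∈ Ω', cc φ' σ' y = cc φ σ (ps t y) := by
    intro y hy
    unfold cc
    rw [hσ'on y hy]
  set g' : MF n := fun y => g (ps t y) +
    (cc φ' σ' y - cc φ σ (ps t y)) • (1 : Matrix (Fin n) (Fin n) ℝ) with hg'
  have hg's : SmM g' := by
    intro i j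
    simp only [hg', Matrix.add_apply, Matrix.smul_apply, smul_eq_mul]
    exact ((hg i j).comp (contDiff_ps t)).add
      ((hcs'.1.sub (hcs.1.comp (contDiff_ps t))).mul contDiff_const)
  have hg'on : ∀ y ∈ Ω', g' y = g (ps t y) := by
    intro y hy
    simp only [hg']
    rw [hccon y hy, sub_self, zero_smul, add_zero]
  have hg'off : ∀ y ∉ Ω', g' y = sc (cc φ' σ') y := by
    intro y hy
    have h1 : g (ps t y) = sc (cc φ σ) (ps t y) := hoff _ hy
    simp only [hg']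
    rw [h1]
    unfold sc
    rw [← add_smul]
    congr 1
    ring
  have hg'p : ∀ y, (g' y).PosDef := by
    intro y
    by_cases hy : y ∈ Ω'
    · rw [hg'on y hy]
      exact hgp _
    · rw [hg'off y hy]
      exact Matrix.PosDef.one.smul (hcs'.2 y)
  have hg'c : ∀ i j, Cl k ε (fun y => g' y i j - sc (cc φ' σ') y i j) := by
    intro i j
    have hscs : ContDiff ℝ ∞ (fun x => sc (cc φ σ) x i j) := by
      simp only [sc, Matrix.smul_apply, smul_eq_mul]
      exact hcs.1.mul contDiff_const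
    have h0 : Cl k (ε / max 1 t ^ k) (fun x => g x i j - sc (cc φ σ) x i j) :=
      Vale.Agent.P088.LR.H72.cl_mono (hgc i j) (min_le_right _ _)
    have h1 := cl_ps ((hg i j).sub hscs) ht0 h0
    rw [mul_div_cancel₀ _ hM.ne'] at h1
    have h2 : (fun y => g' y i j - sc (cc φ' σ') y i j) =
        fun y => g (ps t y) i j - sc (cc φ σ) (ps t y) i j := by
      funext y
      simp only [hg', sc, Matrix.add_apply, Matrix.smul_apply, smul_eq_mul]
      ring
    rw [h2]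
    exact h1
  have hφ'0 : ∀ y ∈ Ω', dv (sc σ') (cx φ') y = 0 := by
    intro y hy
    have hcφ' : ContDiff ℝ ∞ (cx φ') := Complex.ofRealCLM.contDiff.comp hφ'.1
    have h1 := dv_ph442 ht0.ne' (smM_sc442 hσ.1) hcφ' (ps t y)
    have h2 : (fun x => cx φ' (ph t x)) = cx φ := by
      funext x
      simp only [cx, hφ'e, ps_ph ht0.ne']
    rw [h2, hφ0 _ hy, ph_ps ht0.ne'] at h1
    have h3 : ((t⁻¹ : ℝ) : ℂ) ^ 2 ≠ 0 := by
      refine pow_ne_zero 2 ?_
      exact_mod_cast (inv_pos.2 ht0).ne'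
    have h4 := (mul_eq_zero.1 h1.symm).resolve_left h3
    have h5 : rs t (sc σ) =ᶠ[nhds y] sc σ' := by
      filter_upwards [hO'.mem_nhds hy] with z hz
      show σ (ps t z) • (1 : Matrix (Fin n) (Fin n) ℝ) = σ' z • 1
      rw [hσ'on z hz]
    rw [← dv_germ442 h5]
    exact h4
  have hSD' : D Ω' (sg (sc (cc φ' σ'))) (sg g') := by
    refine hcong Ω' hO' _ _ _ _ ?_ ?_ (hdil t ht0 Ω hΩ _ _ hSD)
    · intro y hy
      simp only [rs, sg, sc]
      rw [hccon y hy]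
    · intro y hy
      simp only [rs, sg]
      rw [hg'on y hy]
  obtain ⟨w, K, hD, hgw⟩ := hloc Ω' hO' hreg' hb' σ' hσ'P hσ'1 hσ'c hφ'0 g' hg's hg'p hg'off
    hg'c hSD'
  have ew : ∀ x, x + t • w (ph t x) = ps t (ph t x + w (ph t x)) := by
    intro x
    conv_lhs => rw [← ps_ph ht0.ne' x]
    rw [ph_ps ht0.ne']
    simp only [ps, smul_sub, smul_add]
    abel
  have ejm : ∀ x, jm (fun x => t • w (ph t x)) x = jm w (ph t x) := by
    intro x
    funext i j
    simp only [jm]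
    have hd : Differentiable ℝ (fun y => t • w y) :=
      (hD.sw.differentiable (by simp)).const_smul t
    have e := pd_ph j hd t x
    have e' : pd j (fun y => t • w y) (ph t x) = t • pd j w (ph t x) := by
      unfold pd
      rw [fderiv_fun_const_smul (hD.sw.differentiable (by simp) _)]
      rfl
    rw [e, e', smul_smul, inv_mul_cancel₀ ht0.ne', one_smul]
  refine ⟨fun x => t • w (ph t x), fun x => ps t (K (ph t x)), ⟨?_, ?_, ?_, ?_, ?_, ?_⟩, ?_⟩
  · exact (hD.sw.comp (contDiff_ph t)).const_smul t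
  · exact (contDiff_ps t).comp (hD.sK.comp (contDiff_ph t))
  · intro x
    show ps t (K (ph t (x + t • w (ph t x)))) = x
    rw [ew, ph_ps ht0.ne', hD.l, ps_ph ht0.ne']
  · intro y
    show ps t (K (ph t y)) + t • w (ph t (ps t (K (ph t y)))) = y
    rw [ew, ph_ps ht0.ne', hD.r, ps_ph ht0.ne']
  · intro x hx
    show t • w (ph t x) = 0
    rw [hD.z, smul_zero]
    intro h
    apply hx
    have : ps t (ph t x) ∈ Ω := h
    rwa [ps_ph ht0.ne'] at this
  · intro x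
    rw [ejm]
    exact hD.dp _
  · intro x
    rw [ejm, ew]
    by_cases hy : ph t x ∈ Ω'
    · have h1 := hgw (ph t x)
      rw [hg'on _ hy, ps_ph ht0.ne', hccon _ (Vale.Agent.P088.LR.H158.H_mem hD hy)] at h1
      exact h1
    · have hxo : x ∉ Ω := by
        intro hx
        apply hy
        show ps t (ph t x) ∈ Ω
        rwa [ps_ph ht0.ne']
      rw [hD.z _ hy, add_zero, ps_ph ht0.ne', Vale.Agent.P088.LR.H158.jm_off hD hreg' hy,
        Matrix.transpose_one, Matrix.one_mul]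
      exact hoff x hxo

/-- Rigidity of `σ · 1`, tensor form, no hypothesis. -/
theorem locS_all (n : ℕ) : ∃ (k : ℕ) (ε : ℝ), 0 < ε ∧ LocS n k ε := by
  obtain ⟨k, ε, hε, h⟩ := rig442 n
  exact ⟨k, ε, hε, Vale.Agent.P088.H833.locS_of_rig h⟩

/-- Core form, any data which imply `St2`. -/
theorem locF_all {n : ℕ} (hn : 3 ≤ n) (D : Set (V n) → MF n → MF n → Prop)
    (hST : ∀ (Ω : Set (V n)), IsOpen Ω → Bornology.IsBounded Ω → ∀ s₁ s₂ : MF n, SmM s₁ →
      SmM s₂ → (∀ x, (s₁ x).PosDef) → (∀ x, (s₂ x).PosDef) → D Ω s₁ s₂ → St2 Ω s₁ s₂) :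
    ∃ k : ℕ, ∀ φ : V n → ℝ, SmP φ → ∃ ε > 0, LocF n D k φ ε :=
  locF Vale.Agent.P088.H776.rowA3 Vale.Agent.P088.LR.H129.sq2
    (Vale.Agent.P088.LR.H27.rowGQ2 Vale.Agent.P088.LR.H501.rowA1 Vale.Agent.P088.LR.H501.rowA2
      Vale.Agent.P088.H776.rowA3 Vale.Agent.P088.H102.neu)
    Vale.Agent.P088.LR.H705.sv2 fin2 nq2 sgc Vale.Agent.P088.H695.is2 hn D hST (locS_all n)

theorem symm_of_posDef {A : Matrix (Fin n) (Fin n) ℝ} (h : A.PosDef) : A.IsSymm := by
  have := h.isHermitian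
  rwa [Matrix.IsHermitian, Matrix.conjTranspose_eq_transpose_of_trivial] at this

/-- **Theorem F, equal Dirichlet-to-Neumann forms.** -/
theorem theoremF : ∀ n : ℕ, 3 ≤ n → ∃ k : ℕ, ∀ R : ℝ, 0 < R → ∀ φ : V n → ℝ, SmP φ →
    ∃ ε > 0, LocFR n (fun Ω s t => SD Ω s t) k R φ ε := by
  intro n hn
  obtain ⟨k, h⟩ := locF_all hn (fun Ω s t => SD Ω s t)
    fun Ω hΩ hb s₁ s₂ h1 h2 h3 h4 hS => Vale.Agent.P088.H695.st2 Ω hΩ hb s₁ s₂ h1 h2
      (fun x => symm_of_posDef (h3 x)) (fun x => symm_of_posDef (h4 x)) hS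
  exact ⟨k, fun R hR φ hφ => scalef n k hn h R hR φ hφ⟩

theorem en_congr {Ω : Set (V n)} (hΩ : MeasurableSet Ω) {s s' : MF n} (h : ∀ x ∈ Ω, s x = s' x)
    (f : V n → ℝ) : H639.En Ω s f = H639.En Ω s' f := by
  have h1 : ∀ u : V n → ℝ, H639.rb Ω s u u = H639.rb Ω s' u u := by
    intro u
    unfold H639.rb
    refine setIntegral_congr_fun hΩ fun y hy => ?_
    simp only [h y hy]
  unfold H639.En
  simp only [h1]

/-- **Theorem F, equal Dirichlet energies.** -/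
theorem theoremFE : ∀ n : ℕ, 3 ≤ n → ∃ k : ℕ, ∀ R : ℝ, 0 < R → ∀ φ : V n → ℝ, SmP φ →
    ∃ ε > 0, LocFR n (fun Ω s t => H639.SE Ω s t) k R φ ε := by
  intro n hn
  obtain ⟨k, h⟩ := locF_all hn (fun Ω s t => H639.SE Ω s t)
    fun Ω hΩ hb s₁ s₂ h1 h2 h3 h4 hS => H639.st2_of_SE weak hΩ hb h1
      (fun x => symm_of_posDef (h3 x)) (fun x => (h3 x).posSemidef) h2
      (fun x => symm_of_posDef (h4 x)) (fun x => (h4 x).posSemidef) hS
  refine ⟨k, fun R hR φ hφ => scaleD _ ?_ ?_ k hn h R hR φ hφ⟩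
  · intro Ω hΩ s s' t t' h1 h2 hS f hf
    rw [← en_congr hΩ.measurableSet h1, ← en_congr hΩ.measurableSet h2]
    exact hS f hf
  · intro t ht Ω hΩ s₁ s₂ hS f hf
    have h1 := H639.En_ps ht Ω hΩ.measurableSet s₁ f
    have h2 := H639.En_ps ht Ω hΩ.measurableSet s₂ f
    have h3 : H639.En Ω s₁ (fun x => f (ph t x)) = H639.En Ω s₂ (fun x => f (ph t x)) :=
      hS _ (hf.comp (contDiff_ph t))
    rw [h1, h2, h3]

end Vale.Agent.P088.H924
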