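import Vale.Agent.P088.H924.NQ2
import Vale.Agent.P088.H198.Defs5

/-!
# P088, stage J: smoothness and smallness of the reduced pair (row J_SM)
-/

open MeasureTheory Set
open scoped ContDiff Matrix

noncomputable section

namespace Vale.Agent.P088.H924

open Vale.Agent.P088.LR Vale.Agent.P088.LR.CF Vale.Agent.P088.LR.J

variable {n : ℕ}

theorem pd_re {E : V n → ℂ} (hE : ContDiff ℝ ∞ E) (i : Fin n) (x : V n) :
    pd i (fun y => (E y).re) x = (pd i E x).re := by
  have h1 : HasFDerivAt (fun y => (E y).re) (Complex.reCLM.comp (fderiv ℝ E x)) x :=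
    Complex.reCLM.hasFDerivAt.comp x (hE.differentiable (by simp) x).hasFDerivAt
  unfold pd
  rw [h1.fderiv]
  rfl

theorem pd_im {E : V n → ℂ} (hE : ContDiff ℝ ∞ E) (i : Fin n) (x : V n) :
    pd i (fun y => (E y).im) x = (pd i E x).im := by
  have h1 : HasFDerivAt (fun y => (E y).im) (Complex.imCLM.comp (fderiv ℝ E x)) x :=
    Complex.imCLM.hasFDerivAt.comp x (hE.differentiable (by simp) x).hasFDerivAt
  unfold pd
  rw [h1.fderiv]
  rfl

theorem norm_sq_eq (z : ℂ) : ‖z‖ ^ 2 = z.re ^ 2 + z.im ^ 2 := by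
  rw [Complex.sq_norm, Complex.normSq_apply]
  ring

theorem rj_eq (s : MF n) (α : VF n) {E : V n → ℂ} (hE : ContDiff ℝ ∞ E) (i : Fin n) (x : V n) :
    rj s α E i x = ∑ j, s x i j * ((E x).re * pd j (fun y => (E y).im) x -
      (E x).im * pd j (fun y => (E y).re) x + α j x * ((E x).re ^ 2 + (E x).im ^ 2)) := by
  unfold rj cdm
  refine Finset.sum_congr rfl fun j _ => ?_
  rw [pd_re hE, pd_im hE]
  congr 1
  simp only [one_mul, Complex.mul_im, Complex.mul_re, Complex.add_im, Complex.add_re,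
    Complex.conj_re, Complex.conj_im, Complex.I_re, Complex.I_im, Complex.ofReal_re,
    Complex.ofReal_im]
  ring

theorem cl_re {k : ℕ} {a : ℝ} {E : V n → ℂ} (hE : ContDiff ℝ ∞ E) (h : Cl k a E) :
    Cl k a (fun x => (E x).re) := by
  intro l hl x
  have h1 : (fun x => (E x).re) = Complex.reCLM ∘ E := rfl
  rw [h1]
  refine (ContinuousLinearMap.norm_iteratedFDeriv_comp_left Complex.reCLM hE.contDiffAt
    (by exact_mod_cast le_top)).trans ?_
  rw [Complex.reCLM_norm, one_mul]
  exact h l hl x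

theorem cl_im {k : ℕ} {a : ℝ} {E : V n → ℂ} (hE : ContDiff ℝ ∞ E) (h : Cl k a E) :
    Cl k a (fun x => (E x).im) := by
  intro l hl x
  have h1 : (fun x => (E x).im) = Complex.imCLM ∘ E := rfl
  rw [h1]
  refine (ContinuousLinearMap.norm_iteratedFDeriv_comp_left Complex.imCLM hE.contDiffAt
    (by exact_mod_cast le_top)).trans ?_
  rw [Complex.imCLM_norm, one_mul]
  exact h l hl x

theorem cl_down {k m : ℕ} {a : ℝ} {F : Type*} [NormedAddCommGroup F] [NormedSpace ℝ F]
    {f : V n → F} (h : Cl m a f) (hkm : k ≤ m) : Cl k a f := fun l hl x => h l (hl.trans hkm) x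

/-- The variables. -/
abbrev Ja (n : ℕ) := (Fin n × Fin n) ⊕ (Fin n ⊕ (Option (Fin n) × Bool))

/-- The values of the variables. -/
def fa (s : MF n) (α : VF n) (E : V n → ℂ) (x : V n) : Ja n → ℝ :=
  Sum.elim (fun a => s x a.1 a.2) (Sum.elim (fun i => α i x) (fun b => match b with
    | (none, true) => (E x).re
    | (none, false) => (E x).im
    | (some i, true) => pd i (fun y => (E y).re) x
    | (some i, false) => pd i (fun y => (E y).im) x))

/-- The base point. -/
def pa (n : ℕ) : Ja n → ℝ :=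
  Sum.elim (fun a => (1 : Matrix (Fin n) (Fin n) ℝ) a.1 a.2) (Sum.elim (fun _ => 0)
    (fun b => match b with
    | (none, true) => 1
    | (none, false) => 0
    | (some _, true) => 0
    | (some _, false) => 0))

/-- `|E|² s_ij - δ_ij`. -/
def psa (i j : Fin n) (p : Ja n → ℝ) : ℝ :=
  (p (Sum.inr (Sum.inr (none, true))) ^ 2 + p (Sum.inr (Sum.inr (none, false))) ^ 2) *
    p (Sum.inl (i, j)) - (1 : Matrix (Fin n) (Fin n) ℝ) i j

/-- `J_i`. -/
def psb (i : Fin n) (p : Ja n → ℝ) : ℝ :=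
  ∑ j, p (Sum.inl (i, j)) * (p (Sum.inr (Sum.inr (none, true))) *
    p (Sum.inr (Sum.inr (some j, false))) - p (Sum.inr (Sum.inr (none, false))) *
    p (Sum.inr (Sum.inr (some j, true))) + p (Sum.inr (Sum.inl j)) *
    (p (Sum.inr (Sum.inr (none, true))) ^ 2 + p (Sum.inr (Sum.inr (none, false))) ^ 2))

theorem psa_sm (i j : Fin n) : ContDiff ℝ ∞ (psa i j) := by
  have h : ∀ a : Ja n, ContDiff ℝ ∞ fun p : Ja n → ℝ => p a := fun a => contDiff_apply ℝ ℝ a
  unfold psa
  exact ((((h _).pow 2).add ((h _).pow 2)).mul (h _)).sub contDiff_const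

theorem psb_sm (i : Fin n) : ContDiff ℝ ∞ (psb i) := by
  have h : ∀ a : Ja n, ContDiff ℝ ∞ fun p : Ja n → ℝ => p a := fun a => contDiff_apply ℝ ℝ a
  unfold psb
  refine ContDiff.sum fun j _ => (h _).mul ?_
  exact (((h _).mul (h _)).sub ((h _).mul (h _))).add
    ((h _).mul (((h _).pow 2).add ((h _).pow 2)))

theorem psa_zero (i j : Fin n) : psa i j (pa n) = 0 := by
  simp [psa, pa]

theorem psb_zero (i : Fin n) : psb i (pa n) = 0 := by
  simp [psb, pa]

theorem psa_fa (s : MF n) (α : VF n) (E : V n → ℂ) (i j : Fin n) (x : V n) :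
    psa i j (fa s α E x) = rs s E x i j - (1 : Matrix (Fin n) (Fin n) ℝ) i j := by
  simp only [psa, fa, rs, Sum.elim_inl, Sum.elim_inr, Matrix.smul_apply, smul_eq_mul, norm_sq_eq]

theorem psb_fa (s : MF n) (α : VF n) {E : V n → ℂ} (hE : ContDiff ℝ ∞ E) (i : Fin n) (x : V n) :
    psb i (fa s α E x) = rj s α E i x := by
  rw [rj_eq s α hE]
  simp only [psb, fa, Sum.elim_inl, Sum.elim_inr]

theorem fa_sm {s : MF n} {α : VF n} {E : V n → ℂ} (hs : SmM s) (hα : SmF α)
    (hE : ContDiff ℝ ∞ E) : ContDiff ℝ ∞ (fa s α E) := by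
  have h1 : ContDiff ℝ ∞ fun x => (E x).re := Complex.reCLM.contDiff.comp hE
  have h2 : ContDiff ℝ ∞ fun x => (E x).im := Complex.imCLM.contDiff.comp hE
  refine contDiff_pi.2 fun a => ?_
  rcases a with a | a | ⟨a | a, b | b⟩
  · exact hs a.1 a.2
  · exact hα a
  · exact h2
  · exact h1
  · exact contDiff_pdr h2 a
  · exact contDiff_pdr h1 a

theorem fa_cl {k : ℕ} {δ : ℝ} {s : MF n} {α : VF n} {E : V n → ℂ}
    (hE : ContDiff ℝ ∞ E)
    (h1 : ∀ i j, Cl k δ (fun x => s x i j - (1 : Matrix (Fin n) (Fin n) ℝ) i j))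
    (h2 : ∀ i, Cl k δ (α i)) (h3 : Cl (k + 1) δ (fun x => E x - 1)) (a : Ja n) :
    Cl k δ (fun x => fa s α E x a - pa n a) := by
  have hE1 : ContDiff ℝ ∞ fun x => E x - 1 := hE.sub contDiff_const
  have r1 := cl_re hE1 h3
  have r2 := cl_im hE1 h3
  have e1 : (fun x => (E x - 1).re) = fun x => (E x).re - 1 := by
    funext x; simp
  have e2 : (fun x => (E x - 1).im) = fun x => (E x).im := by
    funext x; simp
  rw [e1] at r1
  rw [e2] at r2
  have s1 : ContDiff ℝ ∞ fun x => (E x).re := Complex.reCLM.contDiff.comp hE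
  have s2 : ContDiff ℝ ∞ fun x => (E x).im := Complex.imCLM.contDiff.comp hE
  rcases a with a | a | ⟨a | a, b | b⟩
  · exact h1 a.1 a.2
  · simpa [fa, pa] using h2 a
  · simpa [fa, pa] using cl_down r2 (Nat.le_succ k)
  · simpa [fa, pa] using cl_down r1 (Nat.le_succ k)
  · simpa [fa, pa] using cl_pdr s2 r2 a
  · have h4 : pd a (fun x => (E x).re - 1) = pd a (fun x => (E x).re) := by
      funext x
      unfold pd
      rw [fderiv_sub_const]
    have h5 := cl_pdr (s1.sub contDiff_const) r1 a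
    rw [h4] at h5
    simpa [fa, pa] using h5

/-- **Row J_SM.** -/
theorem smj : RowSMJ := by
  intro n k ε hε
  have ha := fun a : Fin n × Fin n => Vale.Agent.P088.LR.H72.small_comp (n := n) univ isOpen_univ
    (pa n) (mem_univ _) (psa a.1 a.2) (psa_sm a.1 a.2).contDiffOn (psa_zero a.1 a.2) k ε hε
  have hb := fun a : Fin n => Vale.Agent.P088.LR.H72.small_comp (n := n) univ isOpen_univ
    (pa n) (mem_univ _) (psb a) (psb_sm a).contDiffOn (psb_zero a) k ε hε
  choose d1 hd1 h1 using ha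
  choose d2 hd2 h2 using hb
  obtain ⟨δ1, hδ1, hl1⟩ := Vale.Agent.P088.LR.H72.exists_pos_le d1 hd1
  obtain ⟨δ2, hδ2, hl2⟩ := Vale.Agent.P088.LR.H72.exists_pos_le d2 hd2
  refine ⟨min (min δ1 δ2) (1 / 2), by positivity, fun s α E hs hα hE c1 c2 c3 => ?_⟩
  have hfs := fa_sm hs hα hE
  have hfc := fun a => fa_cl hE c1 c2 c3 a
  refine ⟨?_, ?_, ?_, ?_, ?_⟩
  · intro i j
    have h3 : (fun x => rs s E x i j) = fun x => psa i j (fa s α E x) +
        (1 : Matrix (Fin n) (Fin n) ℝ) i j := by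
      funext x
      rw [psa_fa]
      ring
    rw [h3]
    exact ((psa_sm i j).comp hfs).add contDiff_const
  · intro i
    have h3 : rj s α E i = fun x => psb i (fa s α E x) := by
      funext x
      rw [psb_fa s α hE]
    rw [h3]
    exact (psb_sm i).comp hfs
  · intro x hx
    have h3 := c3 0 (Nat.zero_le _) x
    rw [norm_iteratedFDeriv_zero, hx, zero_sub, norm_neg, norm_one] at h3
    have h4 := h3.trans (min_le_right _ _)
    norm_num at h4
  · intro i j
    have h3 := (h1 (i, j) (fa s α E) hfs fun a => Vale.Agent.P088.LR.H72.cl_mono (hfc a)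
      (((min_le_left _ _).trans (min_le_left _ _)).trans (hl1 (i, j)))).2
    simpa only [psa_fa] using h3
  · intro i
    have h3 := (h2 i (fa s α E) hfs fun a => Vale.Agent.P088.LR.H72.cl_mono (hfc a)
      (((min_le_left _ _).trans (min_le_right _ _)).trans (hl2 i))).2
    have h4 : rj s α E i = fun x => psb i (fa s α E x) := by
      funext x
      rw [psb_fa s α hE]
    rw [h4]
    exact h3

end Vale.Agent.P088.H924
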