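import Vale.Agent.P088.H924.NQ
import Vale.Agent.P088.H198.Defs4

/-!
# P088, phase 2: smallness of the reduced tensor and of the potential, base `φ² σ` (row F_NQ2)
-/

open MeasureTheory Set Filter Topology
open scoped ContDiff Matrix

noncomputable section

namespace Vale.Agent.P088.H924

open Vale.Agent.P088.LR Vale.Agent.P088.LR.CF

variable {n : ℕ}

/-- Powers of a function near `1`. -/
theorem cl_rpow (n k : ℕ) (a ε : ℝ) (hε : 0 < ε) : ∃ δ > 0, ∀ σ : V n → ℝ, ContDiff ℝ ∞ σ →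
    Cl k δ (fun x => σ x - 1) → Cl k ε (fun x => σ x ^ a - 1) := by
  have hΨ : ContDiffOn ℝ ∞ (fun p : Unit → ℝ => p () ^ a - 1) {p | 0 < p ()} :=
    ContDiffOn.sub (ContDiffOn.rpow_const_of_ne (contDiff_apply ℝ ℝ ()).contDiffOn
      (fun p hp => ne_of_gt hp)) contDiffOn_const
  obtain ⟨δ, hδ, h⟩ := Vale.Agent.P088.LR.H72.small_comp (n := n) (ι := Unit)
    {p | 0 < p ()} (isOpen_lt continuous_const (continuous_apply _)) (fun _ => 1)
    (by simp) (fun p => p () ^ a - 1) hΨ (by simp) k ε hε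
  exact ⟨δ, hδ, fun σ hσ hc => (h (fun x _ => σ x) (contDiff_pi.2 fun _ => hσ)
    (fun _ => hc)).2⟩

theorem cl_neg {k : ℕ} {a : ℝ} {f : V n → ℝ} (h1 : Cl k a f) : Cl k a (fun x => -f x) := by
  intro l hl x
  have h2 : (fun x => -f x) = -f := rfl
  rw [h2, iteratedFDeriv_neg_apply, norm_neg]
  exact h1 l hl x

theorem cl_sub {k : ℕ} {a b : ℝ} {f g : V n → ℝ} (hf : ContDiff ℝ ∞ f) (hg : ContDiff ℝ ∞ g)
    (h1 : Cl k a f) (h2 : Cl k b g) : Cl k (a + b) (fun x => f x - g x) := by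
  have := cl_add hf hg.neg h1 (cl_neg h2)
  simpa only [← sub_eq_add_neg] using this

theorem cl_id {k : ℕ} {a : ℝ} {f : V n → ℝ} (h : Cl k a f) (i j : Fin n) :
    Cl k a (fun x => f x * (1 : Matrix (Fin n) (Fin n) ℝ) i j) := by
  by_cases hij : i = j
  · subst hij
    simpa only [Matrix.one_apply_eq, mul_one] using h
  · simp only [Matrix.one_apply_ne hij, mul_zero]
    intro l _ x
    rw [iteratedFDeriv_fun_zero]
    simpa using cl_nonneg h

theorem cc_eq {φ σ : V n → ℝ} (hφ : SmP φ) (hσ : SmP σ) (x : V n) :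
    cc φ σ x = cg φ x * σ x ^ ((2 : ℝ) / ((n : ℝ) - 2)) := by
  unfold cc cg
  rw [Real.mul_rpow (by have := hφ.2 x; positivity) (hσ.2 x).le, ← Real.rpow_natCast,
    ← Real.rpow_mul (hφ.2 x).le]
  congr 2
  push_cast
  ring

/-- The density of `σ^{2/(n-2)} e`. -/
theorem sg_pow (hn : 3 ≤ n) {G : MF n} {t s : ℝ} (hs : 0 < s) (ht : t = s ^ ((2 : ℝ) / ((n : ℝ) - 2)))
    (x : V n) (hG : G x = t • (1 : Matrix (Fin n) (Fin n) ℝ)) :
    sg G x = s • (1 : Matrix (Fin n) (Fin n) ℝ) := by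
  have ht0 : 0 < t := by rw [ht]; exact Real.rpow_pos_of_pos hs _
  have h1 : t ^ (n - 2) = s ^ 2 := by
    rw [ht, ← Real.rpow_natCast, ← Real.rpow_mul hs.le]
    have h2 : ((n - 2 : ℕ) : ℝ) = (n : ℝ) - 2 := by
      rw [Nat.cast_sub (by omega)]; norm_num
    have h3 : (n : ℝ) - 2 ≠ 0 := by
      have : (3 : ℝ) ≤ n := by exact_mod_cast hn
      intro h
      linarith
    rw [h2, div_mul_cancel₀ _ h3]
    norm_cast
  have h4 : t ^ n = (s * t) ^ 2 := by
    have h5 : n = (n - 2) + 2 := by omega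
    calc t ^ n = t ^ ((n - 2) + 2) := by rw [← h5]
      _ = (s * t) ^ 2 := by rw [pow_add, h1]; ring
  have hdet : (G x).det = (s * t) ^ 2 := by
    rw [hG, Matrix.det_smul, Matrix.det_one, mul_one, Fintype.card_fin, h4]
  have hinv : (G x)⁻¹ = t⁻¹ • (1 : Matrix (Fin n) (Fin n) ℝ) := by
    refine Matrix.inv_eq_right_inv ?_
    rw [hG, Matrix.smul_mul, Matrix.mul_smul, smul_smul, mul_inv_cancel₀ ht0.ne', one_smul,
      one_mul]
  show √(G x).det • (G x)⁻¹ = _
  rw [hdet, Real.sqrt_sq (by positivity), hinv, smul_smul]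
  congr 1
  field_simp

/-- **Row F_NQ2.** -/
theorem nq2 : RowNQ2 := by
  intro n k hn φ hφ ε hε
  have hc := cg_sm hφ
  have hcp := cg_pos hφ
  have hci : ContDiff ℝ ∞ (fun x => (cg φ x)⁻¹) := hc.inv fun x => (hcp x).ne'
  have hφi : ContDiff ℝ ∞ (fun x => (φ x)⁻¹) := hφ.1.inv fun x => (hφ.2 x).ne'
  obtain ⟨C1, hC1, hm1⟩ := cl_mul (fun x => (cg φ x)⁻¹) hci (k + 1)
  obtain ⟨C2, hC2, hm2⟩ := cl_mul (fun x => (φ x)⁻¹) hφi k
  have hm3' := fun j => cl_mul (pd j φ) (contDiff_pdr hφ.1 j) (k + 1)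
  choose C3 hC3 hm3 using hm3'
  set D3 : ℝ := ∑ j, C3 j with hD3
  have hD30 : 0 ≤ D3 := Finset.sum_nonneg fun j _ => (hC3 j).le
  have hCD3 : ∀ j, C3 j ≤ D3 := fun j =>
    Finset.single_le_sum (f := C3) (fun j _ => (hC3 j).le) (Finset.mem_univ j)
  set T : ℝ := C2 * (n * (n * D3)) + 1 with hT
  have hT1 : 1 ≤ T := by
    have : 0 ≤ C2 * (n * (n * D3)) := by positivity
    linarith
  have hη : 0 < ε / (2 * T) := by positivity
  set η : ℝ := ε / (2 * T) with hη'
  have hTη : T * (η + η) = ε := by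
    rw [hη']
    field_simp
    ring
  obtain ⟨δ₁, hδ₁, hN⟩ := Vale.Agent.P088.LR.H72.norm0 n (k + 1) η hη
  obtain ⟨δ₂, hδ₂, hR⟩ := cl_rpow n (k + 1) ((2 : ℝ) / ((n : ℝ) - 2)) (δ₁ / 2) (by positivity)
  refine ⟨min (δ₁ / 2 / C1) (min δ₂ η), by positivity,
    fun Ω hΩ _ σ hσ hσo hσc g hg hpd hoff hcl => ?_⟩
  set τ : V n → ℝ := fun x => σ x ^ ((2 : ℝ) / ((n : ℝ) - 2)) with hτ
  have hτs : ContDiff ℝ ∞ τ := hσ.1.rpow_const_of_ne fun x => (hσ.2 x).ne'
  set G : MF n := fun x => (cg φ x)⁻¹ • g x with hG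
  have hGs : SmM G := fun i j => hci.mul (hg i j)
  have hGp : ∀ x, (G x).PosDef := fun x => (hpd x).smul (inv_pos.2 (hcp x))
  have hgd : ∀ x ∉ core n, ∀ i j, g x i j - sc (cc φ σ) x i j = 0 := fun x hx i j => by
    rw [hoff x fun h => hx (hΩ h), sub_self]
  have hccs : ContDiff ℝ ∞ (cc φ σ) := by
    have : cc φ σ = fun x => cg φ x * τ x := by
      funext x
      exact cc_eq hφ hσ x
    rw [this]
    exact hc.mul hτs
  have hgph : ∀ i j, ContDiff ℝ ∞ (fun x => sc (cc φ σ) x i j) := fun i j => by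
    simp only [sc, Matrix.smul_apply, smul_eq_mul]
    exact hccs.mul contDiff_const
  have hG1 : ∀ i j, (fun x => G x i j - (1 : Matrix (Fin n) (Fin n) ℝ) i j) =
      fun x => (cg φ x)⁻¹ * (g x i j - sc (cc φ σ) x i j) +
        (τ x - 1) * (1 : Matrix (Fin n) (Fin n) ℝ) i j := by
    intro i j
    funext x
    simp only [hG, sc, Matrix.smul_apply, smul_eq_mul]
    rw [cc_eq hφ hσ x, mul_sub, ← mul_assoc ((cg φ x)⁻¹), ← mul_assoc ((cg φ x)⁻¹),
      inv_mul_cancel₀ (hcp x).ne', one_mul]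
    simp only [hτ]
    ring
  have hGc : ∀ i j, Cl (k + 1) δ₁ (fun x => G x i j - (1 : Matrix (Fin n) (Fin n) ℝ) i j) := by
    intro i j
    rw [hG1]
    have h0 : Cl (k + 1) (δ₁ / 2 / C1) (fun x => g x i j - sc (cc φ σ) x i j) :=
      Vale.Agent.P088.LR.H72.cl_mono (hcl i j) (min_le_left _ _)
    have h1 := hm1 _ ((hg i j).sub (hgph i j)) (fun x hx => hgd x hx i j) _ h0
    rw [mul_div_cancel₀ _ hC1.ne'] at h1
    have h2 := cl_id (hR σ hσ.1 (Vale.Agent.P088.LR.H72.cl_mono hσc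
      ((min_le_right _ _).trans (min_le_left _ _)))) i j
    have h3 := cl_add (hci.mul ((hg i j).sub (hgph i j)))
      ((hτs.sub contDiff_const).mul contDiff_const) h1 h2
    rwa [add_halves] at h3
  have hs1 := hN G hGs hGc
  have hσ1 : Cl (k + 1) η (fun x => σ x - 1) := Vale.Agent.P088.LR.H72.cl_mono hσc
    ((min_le_right _ _).trans (min_le_right _ _))
  have hdetG : ContDiff ℝ ∞ (fun x => (G x).det) := Vale.Agent.P088.LR.H72.cd_det hGs
  have hss : SmM (sg G) := by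
    intro i j
    have h1 : (fun x => sg G x i j) = fun x => √(G x).det * (((G x).det)⁻¹ * (G x).adjugate i j) := by
      funext x
      simp only [sg, Matrix.smul_apply, smul_eq_mul]
      rw [Matrix.inv_def, Ring.inverse_eq_inv', Matrix.smul_apply, smul_eq_mul]
    rw [h1]
    exact (hdetG.sqrt fun x => (hGp x).det_pos.ne').mul
      ((hdetG.inv fun x => (hGp x).det_pos.ne').mul (Vale.Agent.P088.LR.H72.cd_adj hGs i j))
  have hso : ∀ x ∉ Ω, sg G x = sc σ x := by
    intro x hx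
    have h1 : G x = τ x • (1 : Matrix (Fin n) (Fin n) ℝ) := by
      simp only [hG]
      rw [hoff x hx]
      simp only [sc]
      rw [cc_eq hφ hσ x, smul_smul, ← mul_assoc, inv_mul_cancel₀ (hcp x).ne', one_mul]
    exact sg_pow hn (hσ.2 x) rfl x h1
  have hsy : ∀ x, (sg G x).IsSymm := by
    intro x
    have h1 : (G x).IsSymm := by
      have := (hGp x).isHermitian
      rwa [Matrix.IsHermitian, Matrix.conjTranspose_eq_transpose_of_trivial] at this
    have h2 : ((G x)⁻¹)ᵀ = (G x)⁻¹ := by rw [Matrix.transpose_nonsing_inv, h1]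
    show (√(G x).det • (G x)⁻¹)ᵀ = _
    rw [Matrix.transpose_smul, h2]
    rfl
  -- the difference `s - σ`
  have hscs : ∀ i j, ContDiff ℝ ∞ (fun y => sc σ y i j) := fun i j => by
    simp only [sc, Matrix.smul_apply, smul_eq_mul]
    exact hσ.1.mul contDiff_const
  have hsub : ∀ i j, ContDiff ℝ ∞ (fun y => sg G y i j - sc σ y i j) :=
    fun i j => (hss i j).sub (hscs i j)
  have hdc : ∀ i j, Cl (k + 1) (η + η) (fun y => sg G y i j - sc σ y i j) := by
    intro i j
    have h1 := cl_sub ((hss i j).sub contDiff_const)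
      ((hσ.1.sub contDiff_const).mul contDiff_const) (hs1 i j) (cl_id hσ1 i j)
    have h2 : (fun y => sg G y i j - sc σ y i j) = fun y =>
        (sg G y i j - (1 : Matrix (Fin n) (Fin n) ℝ) i j) -
          (σ y - 1) * (1 : Matrix (Fin n) (Fin n) ℝ) i j := by
      funext y
      simp only [sc, Matrix.smul_apply, smul_eq_mul]
      ring
    rw [h2]
    exact h1
  set F : Fin n → V n → ℝ := fun i y => ∑ j, pd j φ y * (sg G y i j - sc σ y i j) with hF
  have hFs : ∀ i, ContDiff ℝ ∞ (F i) := fun i =>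
    ContDiff.sum fun j _ => (contDiff_pdr hφ.1 j).mul (hsub i j)
  have hoc : ∀ i j, ∀ x ∉ core n, sg G x i j - sc σ x i j = 0 :=
    fun i j x hx => by rw [hso x fun h => hx (hΩ h), sub_self]
  have hFo : ∀ i, ∀ x ∉ core n, F i x = 0 := fun i x hx =>
    Finset.sum_eq_zero fun j _ => by rw [hoc i j x hx, mul_zero]
  have hηη : 0 ≤ η + η := by positivity
  have hFc : ∀ i, Cl (k + 1) (n * (D3 * (η + η))) (F i) := by
    intro i
    refine cl_sum _ (fun j => (contDiff_pdr hφ.1 j).mul (hsub i j)) fun j => ?_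
    refine Vale.Agent.P088.LR.H72.cl_mono (hm3 j _ (hsub i j) (hoc i j) _ (hdc i j)) ?_
    exact mul_le_mul_of_nonneg_right (hCD3 j) hηη
  set H : V n → ℝ := fun x => ∑ i, pd i (F i) x with hH
  have hHs : ContDiff ℝ ∞ H := ContDiff.sum fun i _ => contDiff_pdr (hFs i) i
  have hHo : ∀ x ∉ core n, H x = 0 := fun x hx =>
    Finset.sum_eq_zero fun i _ => pd_off (hFo i) i x hx
  have hHc : Cl k (n * (n * (D3 * (η + η)))) H :=
    cl_sum _ (fun i => contDiff_pdr (hFs i) i) fun i => cl_pdr (hFs i) (hFc i) i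
  set q : V n → ℝ := fun x => (φ x)⁻¹ * H x with hq
  have hqs : ContDiff ℝ ∞ q := hφi.mul hHs
  have hqc : Cl k ε q := by
    refine Vale.Agent.P088.LR.H72.cl_mono (hm2 _ hHs hHo _ hHc) ?_
    have h1 : C2 * (n * (n * (D3 * (η + η)))) = (T - 1) * (η + η) := by
      rw [hT]; ring
    rw [h1]
    nlinarith
  refine ⟨sg G, q, hss, hsy, hso, fun x => sg_smul hn hφ g hpd x, fun x => ?_, fun i j => ?_, ?_⟩
  · have h1 : dv (fun x => sg G x - sc σ x) (cx φ) x = ((H x : ℝ) : ℂ) := by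
      unfold dv
      have h2 : ∀ i, (fun y => ∑ j, (((sg G y - sc σ y : Matrix (Fin n) (Fin n) ℝ) i j : ℝ) : ℂ) *
          pd j (cx φ) y) = fun y => ((F i y : ℝ) : ℂ) := by
        intro i
        funext y
        simp only [hF]
        push_cast
        refine Finset.sum_congr rfl fun j _ => ?_
        have h3 : pd j (cx φ) y = ((pd j φ y : ℝ) : ℂ) := pd_cx hφ.1 j y
        rw [h3, Matrix.sub_apply]
        push_cast
        ring
      simp only [h2, hH]
      push_cast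
      exact Finset.sum_congr rfl fun i _ => pd_cx (hFs i) i x
    rw [h1, hq]
    have h2 : (φ x : ℂ) ≠ 0 := by exact_mod_cast (hφ.2 x).ne'
    push_cast
    field_simp
  · intro l hl x
    refine (hs1 i j l (by omega) x).trans ?_
    nlinarith
  · intro l hl x
    have h1 : cx q = Complex.ofRealCLM ∘ q := rfl
    rw [h1]
    refine (ContinuousLinearMap.norm_iteratedFDeriv_comp_left Complex.ofRealCLM hqs.contDiffAt
      (by exact_mod_cast le_top)).trans ?_
    rw [Complex.ofRealCLM_norm, one_mul]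
    exact hqc l hl x

end Vale.Agent.P088.H924
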