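import Vale.Agent.P088.H924.SGC
import Vale.Agent.P088.H442.CFScale

/-!
# P088, phase 2: dilation and cut-off of the conformal factor (row F_SCALEF)
-/

open MeasureTheory Set
open scoped ContDiff Matrix

noncomputable section

namespace Vale.Agent.P088.H924

open Vale.Agent.P088.LR Vale.Agent.P088.LR.CF Vale.Agent.P088.LR.H925

variable {n : ℕ}

theorem bl_congr {Ω : Set (V n)} (hΩ : MeasurableSet Ω) {s s' : MF n} (h : ∀ x ∈ Ω, s x = s' x)
    (u v : V n → ℂ) : bl Ω s u v = bl Ω s' u v := by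
  unfold bl
  refine setIntegral_congr_fun hΩ fun y hy => ?_
  simp only [h y hy]

theorem hm_congr {Ω : Set (V n)} (hΩ : MeasurableSet Ω) {s s' : MF n} (h : ∀ x ∈ Ω, s x = s' x)
    {f u : V n → ℂ} (hu : Hm Ω s f u) : Hm Ω s' f u :=
  ⟨hu.1, hu.2.1, fun φ hφ h0 => by rw [← bl_congr hΩ h]; exact hu.2.2 φ hφ h0⟩

theorem sd_congr {Ω : Set (V n)} (hΩ : MeasurableSet Ω) {s s' t t' : MF n}
    (h : ∀ x ∈ Ω, s x = s' x) (h' : ∀ x ∈ Ω, t x = t' x) (hS : SD Ω s t) : SD Ω s' t' := by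
  intro f k hf hk
  obtain ⟨u, v, u', v', a1, a2, a3, a4, a5⟩ := hS f k hf hk
  refine ⟨u, v, u', v', hm_congr hΩ h a1, hm_congr hΩ h a2, hm_congr hΩ h' a3,
    hm_congr hΩ h' a4, ?_⟩
  rw [← bl_congr hΩ h, ← bl_congr hΩ h', a5]

theorem sd_ps {t : ℝ} (ht0 : 0 < t) {Ω : Set (V n)} (hΩm : MeasurableSet Ω) {s₁ s₂ : MF n}
    (hS : SD Ω s₁ s₂) : SD (ps t ⁻¹' Ω) (rs t s₁) (rs t s₂) := by
  intro f h hf hh
  obtain ⟨u, v, u', v', a1, a2, a3, a4, a5⟩ := hS _ _ (hf.comp (contDiff_ph t))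
    (hh.comp (contDiff_ph t))
  refine ⟨_, _, _, _, hm_ps ht0 Ω hΩm s₁ f u a1, hm_ps ht0 Ω hΩm s₁ h v a2,
    hm_ps ht0 Ω hΩm s₂ f u' a3, hm_ps ht0 Ω hΩm s₂ h v' a4, ?_⟩
  have b1 := bl_ps t Ω hΩm s₁ u v (a1.1.differentiable (by simp))
    (a2.1.differentiable (by simp))
  have b2 := bl_ps t Ω hΩm s₂ u' v' (a3.1.differentiable (by simp))
    (a4.1.differentiable (by simp))
  rw [a5, ← b2] at b1
  exact b1

/-- **Row F_SCALEF.** -/
theorem scalef : RowSCALEF := by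
  intro n k hn hL R hR φ hφ
  obtain ⟨B, hB, hχ⟩ := chi_cl442 n k
  set t : ℝ := 8 * R with ht
  have ht0 : 0 < t := by positivity
  have hM : 0 < max 1 t ^ k := by positivity
  have hφ' : SmP (fun y : V n => φ (ps t y)) := ⟨hφ.1.comp (contDiff_ps t), fun y => hφ.2 _⟩
  obtain ⟨ε, hε, hloc⟩ := hL (fun y => φ (ps t y)) hφ'
  refine ⟨min (ε / (2 ^ k * (B * max 1 t ^ k))) (ε / max 1 t ^ k), by positivity, ?_⟩
  intro Ω hΩ hreg hΩR σ hσ hσc hφ0 g hg hgp hoff hgc hSD
  set Ω' : Set (V n) := ps t ⁻¹' Ω with hΩ'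
  have hO' : IsOpen Ω' := hΩ.preimage (contDiff_ps t).continuous
  have hreg' : interior (closure Ω') = Ω' := by
    have e1 := (hm (n := n) t ht0.ne').preimage_closure Ω
    have e2 := (hm (n := n) t ht0.ne').preimage_interior (closure Ω)
    have e3 : (hm (n := n) t ht0.ne') ⁻¹' Ω = Ω' := rfl
    rw [e1, e3, hreg, e3] at e2
    exact e2.symm
  have hsm : ∀ y ∈ Ω', ∑ j, (y j - 1 / 2) ^ 2 ≤ 1 / 64 := by
    intro y hy
    have h1 : ∑ j, (ps t y j) ^ 2 ≤ R ^ 2 := hΩR hy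
    have h2 : ∑ j, (ps t y j) ^ 2 = 64 * R ^ 2 * ∑ j, (y j - 1 / 2) ^ 2 := by
      rw [Finset.mul_sum]
      refine Finset.sum_congr rfl fun j _ => ?_
      simp only [ps, Pi.smul_apply, Pi.sub_apply, smul_eq_mul, ht]
      ring
    rw [h2] at h1
    have h3 : 0 < R ^ 2 := by positivity
    have h4 : R ^ 2 * (64 * ∑ j, (y j - 1 / 2) ^ 2) ≤ R ^ 2 * 1 := by
      rw [mul_one]
      calc R ^ 2 * (64 * ∑ j, (y j - 1 / 2) ^ 2) = 64 * R ^ 2 * ∑ j, (y j - 1 / 2) ^ 2 := by ring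
        _ ≤ R ^ 2 := h1
    have h5 := le_of_mul_le_mul_left h4 h3
    linarith
  have hb' : Ω' ⊆ bal n := fun y hy => by
    have := hsm y hy
    show ∑ j, (y j - 1 / 2) ^ 2 ≤ 1 / 16
    linarith
  have hχ1 : ∀ y ∈ Ω', chi442 y = 1 := fun y hy => chi_one442 (hsm y hy)
  -- the cut-off data
  set φ' : V n → ℝ := fun y => φ (ps t y) with hφ'e
  set σ' : V n → ℝ := fun y => 1 + chi442 y * (σ (ps t y) - 1) with hσ'
  have hσps : ContDiff ℝ ∞ (fun y => σ (ps t y) - 1) :=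
    (hσ.1.comp (contDiff_ps t)).sub contDiff_const
  have hσ's : ContDiff ℝ ∞ σ' := contDiff_const.add (chi_smooth442.mul hσps)
  have hσ'0 : ∀ y, 0 < σ' y := by
    intro y
    have h1 := chi_nonneg442 y
    have h2 := chi_le_one442 y
    have h3 := hσ.2 (ps t y)
    show 0 < 1 + chi442 y * (σ (ps t y) - 1)
    have h4 : 1 + chi442 y * (σ (ps t y) - 1) = (1 - chi442 y) + chi442 y * σ (ps t y) := by ring
    rw [h4]
    rcases h2.lt_or_eq with h5 | h5
    · have := mul_nonneg h1 h3.le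
      linarith
    · rw [h5]; linarith
  have hσ'P : SmP σ' := ⟨hσ's, hσ'0⟩
  have hσ'1 : ∀ y ∉ bal n, σ' y = 1 := by
    intro y hy
    show 1 + chi442 y * (σ (ps t y) - 1) = 1
    rw [chi_zero442 hy]; ring
  have hσ'on : ∀ y ∈ Ω', σ' y = σ (ps t y) := by
    intro y hy
    show 1 + chi442 y * (σ (ps t y) - 1) = _
    rw [hχ1 y hy]
    ring
  have hσ'c : Cl k ε (fun y => σ' y - 1) := by
    have h0 : Cl k (ε / (2 ^ k * (B * max 1 t ^ k))) (fun x => σ x - 1) :=
      Vale.Agent.P088.LR.H72.cl_mono hσc (min_le_left _ _)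
    have h1 := cl_mul442 chi_smooth442 hσps hχ (cl_ps (hσ.1.sub contDiff_const) ht0 h0)
    have hfin : 2 ^ k * (B * (max 1 t ^ k * (ε / (2 ^ k * (B * max 1 t ^ k))))) = ε := by
      field_simp
    rw [hfin] at h1
    have h2 : (fun y => σ' y - 1) = fun y => chi442 y * (σ (ps t y) - 1) := by
      funext y
      show 1 + chi442 y * (σ (ps t y) - 1) - 1 = _
      ring
    rw [h2]; exact h1
  -- the conformal factors
  obtain ⟨hcs, -⟩ := sgc hn φ σ hφ hσ
  obtain ⟨hcs', -⟩ := sgc hn φ' σ' hφ' hσ'P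
  have hccon : ∀ y ∈ Ω', cc φ' σ' y = cc φ σ (ps t y) := by
    intro y hy
    unfold cc
    rw [hσ'on y hy]
  set g' : MF n := fun y => g (ps t y) +
    (cc φ' σ' y - cc φ σ (ps t y)) • (1 : Matrix (Fin n) (Fin n) ℝ) with hg'
  have hg's : SmM g' := by
    intro i j
    simp only [hg', Matrix.add_apply, Matrix.smul_apply, smul_eq_mul]
    exact ((hg i j).comp (contDiff_ps t)).add
      ((hcs'.1.sub (hcs.1.comp (contDiff_ps t))).mul contDiff_const)
  have hg'on : ∀ y ∈ Ω', g' y = g (ps t y) := by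
    intro y hy
    simp only [hg']
    rw [hccon y hy, sub_self, zero_smul, add_zero]
  have hg'off : ∀ y ∉ Ω', g' y = sc (cc φ' σ') y := by
    intro y hy
    have h1 : g (ps t y) = sc (cc φ σ) (ps t y) := hoff _ hy
    simp only [hg']
    rw [h1]
    unfold sc
    rw [← add_smul]
    congr 1
    ring
  have hg'p : ∀ y, (g' y).PosDef := by
    intro y
    by_cases hy : y ∈ Ω'
    · rw [hg'on y hy]
      exact hgp _
    · rw [hg'off y hy]
      exact Matrix.PosDef.one.smul (hcs'.2 y)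
  have hg'c : ∀ i j, Cl k ε (fun y => g' y i j - sc (cc φ' σ') y i j) := by
    intro i j
    have hscs : ContDiff ℝ ∞ (fun x => sc (cc φ σ) x i j) := by
      simp only [sc, Matrix.smul_apply, smul_eq_mul]
      exact hcs.1.mul contDiff_const
    have h0 : Cl k (ε / max 1 t ^ k) (fun x => g x i j - sc (cc φ σ) x i j) :=
      Vale.Agent.P088.LR.H72.cl_mono (hgc i j) (min_le_right _ _)
    have h1 := cl_ps ((hg i j).sub hscs) ht0 h0
    rw [mul_div_cancel₀ _ hM.ne'] at h1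
    have h2 : (fun y => g' y i j - sc (cc φ' σ') y i j) =
        fun y => g (ps t y) i j - sc (cc φ σ) (ps t y) i j := by
      funext y
      simp only [hg', sc, Matrix.add_apply, Matrix.smul_apply, smul_eq_mul]
      ring
    rw [h2]
    exact h1
  have hφ'0 : ∀ y ∈ Ω', dv (sc σ') (cx φ') y = 0 := by
    intro y hy
    have hcφ' : ContDiff ℝ ∞ (cx φ') := Complex.ofRealCLM.contDiff.comp hφ'.1
    have h1 := dv_ph442 ht0.ne' (smM_sc442 hσ.1) hcφ' (ps t y)
    have h2 : (fun x => cx φ' (ph t x)) = cx φ := by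
      funext x
      simp only [cx, hφ'e, ps_ph ht0.ne']
    rw [h2, hφ0 _ hy, ph_ps ht0.ne'] at h1
    have h3 : ((t⁻¹ : ℝ) : ℂ) ^ 2 ≠ 0 := by
      refine pow_ne_zero 2 ?_
      exact_mod_cast (inv_pos.2 ht0).ne'
    have h4 := (mul_eq_zero.1 h1.symm).resolve_left h3
    have h5 : rs t (sc σ) =ᶠ[nhds y] sc σ' := by
      filter_upwards [hO'.mem_nhds hy] with z hz
      show σ (ps t z) • (1 : Matrix (Fin n) (Fin n) ℝ) = σ' z • 1
      rw [hσ'on z hz]
    rw [← dv_germ442 h5]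
    exact h4
  have hSD' : SD Ω' (sg (sc (cc φ' σ'))) (sg g') := by
    refine sd_congr hO'.measurableSet ?_ ?_ (sd_ps ht0 hΩ.measurableSet hSD)
    · intro y hy
      simp only [rs, sg, sc]
      rw [hccon y hy]
    · intro y hy
      simp only [rs, sg]
      rw [hg'on y hy]
  obtain ⟨w, K, hD, hgw⟩ := hloc Ω' hO' hreg' hb' σ' hσ'P hσ'1 hσ'c hφ'0 g' hg's hg'p hg'off
    hg'c hSD'
  have ew : ∀ x, x + t • w (ph t x) = ps t (ph t x + w (ph t x)) := by
    intro x
    conv_lhs => rw [← ps_ph ht0.ne' x]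
    rw [ph_ps ht0.ne']
    simp only [ps, smul_sub, smul_add]
    abel
  have ejm : ∀ x, jm (fun x => t • w (ph t x)) x = jm w (ph t x) := by
    intro x
    funext i j
    simp only [jm]
    have hd : Differentiable ℝ (fun y => t • w y) :=
      (hD.sw.differentiable (by simp)).const_smul t
    have e := pd_ph j hd t x
    have e' : pd j (fun y => t • w y) (ph t x) = t • pd j w (ph t x) := by
      unfold pd
      rw [fderiv_fun_const_smul (hD.sw.differentiable (by simp) _)]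
      rfl
    rw [e, e', smul_smul, inv_mul_cancel₀ ht0.ne', one_smul]
  refine ⟨fun x => t • w (ph t x), fun x => ps t (K (ph t x)), ⟨?_, ?_, ?_, ?_, ?_, ?_⟩, ?_⟩
  · exact (hD.sw.comp (contDiff_ph t)).const_smul t
  · exact (contDiff_ps t).comp (hD.sK.comp (contDiff_ph t))
  · intro x
    show ps t (K (ph t (x + t • w (ph t x)))) = x
    rw [ew, ph_ps ht0.ne', hD.l, ps_ph ht0.ne']
  · intro y
    show ps t (K (ph t y)) + t • w (ph t (ps t (K (ph t y)))) = y
    rw [ew, ph_ps ht0.ne', hD.r, ps_ph ht0.ne']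
  · intro x hx
    show t • w (ph t x) = 0
    rw [hD.z, smul_zero]
    intro h
    apply hx
    have : ps t (ph t x) ∈ Ω := h
    rwa [ps_ph ht0.ne'] at this
  · intro x
    rw [ejm]
    exact hD.dp _
  · intro x
    rw [ejm, ew]
    by_cases hy : ph t x ∈ Ω'
    · have h1 := hgw (ph t x)
      rw [hg'on _ hy, ps_ph ht0.ne', hccon _ (Vale.Agent.P088.LR.H158.H_mem hD hy)] at h1
      exact h1
    · have hxo : x ∉ Ω := by
        intro hx
        apply hy
        show ps t (ph t x) ∈ Ω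
        rwa [ps_ph ht0.ne']
      rw [hD.z _ hy, add_zero, ps_ph ht0.ne', Vale.Agent.P088.LR.H158.jm_off hD hreg' hy,
        Matrix.transpose_one, Matrix.one_mul]
      exact hoff x hxo

end Vale.Agent.P088.H924
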