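import Vale.Agent.P088.H924.NQ2

/-!
# P088, phase 2: the density of the base metric (row F_SGC)
-/

open scoped ContDiff

noncomputable section

namespace Vale.Agent.P088.H924

open Vale.Agent.P088.LR Vale.Agent.P088.LR.CF

/-- **Row F_SGC.** -/
theorem sgc : RowSGC := by
  intro n hn φ σ hφ hσ
  have hp : ∀ x, 0 < φ x ^ 2 * σ x := fun x => mul_pos (pow_pos (hφ.2 x) 2) (hσ.2 x)
  refine ⟨⟨?_, fun x => Real.rpow_pos_of_pos (hp x) _⟩, fun x => ?_⟩
  · exact ((hφ.1.pow 2).mul hσ.1).rpow_const_of_ne fun x => (hp x).ne'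
  · exact sg_pow hn (hp x) rfl x rfl

end Vale.Agent.P088.H924
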