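import Vale.Agent.P088.H599.J.Defs
import Vale.Agent.P088.H924.Frame

/-!
# P088: row U_GAU (the equation in the harmonic frame), by columns
-/

open MeasureTheory Set
open scoped ContDiff Matrix

noncomputable section

namespace Vale.Agent.P088.H924

open Vale.Agent.P088.LR Vale.Agent.P088.LR.H158

variable {n N : ℕ}

/-- The column `b` of a matrix function. -/
def colF (b : Fin N) (U : MC n N) : V n → Fin N → ℂ := fun y a => U y a b

theorem contDiff_colF {U : MC n N} (hU : SmC U) (b : Fin N) : ContDiff ℝ ∞ (colF b U) :=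
  contDiff_pi.2 fun a => hU a b

theorem pd_colF {U : MC n N} (hU : SmC U) (b : Fin N) (i : Fin n) (x : V n) :
    pd i (colF b U) x = colF b (pdm i U) x := by
  funext a
  rw [pd_pi (dfa (contDiff_colF hU b) x)]
  rfl

theorem colF_mul (P Q : MC n N) (b : Fin N) (x : V n) :
    colF b (fun y => P y * Q y) x = P x *ᵥ colF b Q x := by
  funext a
  simp only [colF, Matrix.mul_apply, Matrix.mulVec, dotProduct]

theorem cd_colF {A : Cn n N} {U : MC n N} (hU : SmC U) (b : Fin N) (i : Fin n) (x : V n) :
    cd A i (colF b U) x = colF b (cdF A i U) x := by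
  unfold cd
  rw [pd_colF hU b i x, ← colF_mul (A i) U b x]
  rfl

theorem flux_colF {s : MF n} {A : Cn n N} {U : MC n N} (hU : SmC U) (b : Fin N) (i : Fin n) :
    (fun y => ∑ j, (s y i j : ℂ) • cd A j (colF b U) y) = colF b (HF s A U i) := by
  funext y a
  simp only [cd_colF hU, colF, HF, Finset.sum_apply, Matrix.sum_apply, Pi.smul_apply,
    Matrix.smul_apply]

theorem LA_colF {s : MF n} (hs : SmM s) {A : Cn n N} (hA : SmU A) {U : MC n N} (hU : SmC U)
    (b : Fin N) (x : V n) : LA s A (colF b U) x = colF b (LF s A U) x := by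
  unfold LA LF
  simp only [flux_colF hU, fun i => cd_colF (A := A) (smC_HF hs hA hU i) b i x]
  funext a
  simp only [colF, Finset.sum_apply, Matrix.sum_apply]

theorem MFr_colF {s : MF n} (hs : SmM s) (hsym : ∀ x, (s x).IsSymm) {A : Cn n N}
    {F Y : MC n N} (hF : SmC F) (hY : SmC Y) (b : Fin N) (x : V n) :
    MFr s A F (colF b Y) x = colF b (U.MoC (U.TF s F) (U.qF s A F) Y) x := by
  have hP : SmC (PF F) := SmC_mul (SmC_star hF) hF
  have h1 : ∀ i, (fun y => ∑ j, TF s F j i y *ᵥ pd j (colF b Y) y) =
      colF b (fun y => ∑ j, TF s F i j y * pdm j Y y) := by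
    intro i
    funext y a
    simp only [pd_colF hY, Finset.sum_apply, colF, Matrix.sum_apply]
    refine Finset.sum_congr rfl fun j _ => ?_
    have : TF s F j i y = TF s F i j y := by
      unfold TF
      rw [(hsym y).apply i j]
    rw [this]
    simp only [Matrix.mul_apply, Matrix.mulVec, dotProduct, colF]
  have h2 : ∀ i, SmC (fun y => ∑ j, TF s F i j y * pdm j Y y) := fun i =>
    smC_sum _ fun j => SmC_mul (smC_smul (Complex.ofRealCLM.contDiff.comp (hs i j)) hP)
      (smC_pdm hY j)
  unfold MFr
  simp only [h1, fun i => pd_colF (h2 i) b i x]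
  funext a
  simp only [pd_colF hY, U.MoC, colF, Finset.sum_apply, Matrix.sum_apply, Matrix.add_apply,
    Pi.add_apply]
  congr 1

/-- (U_GAU) -/
theorem gau : U.RowGAU := by
  intro n N Ω hΩ s hs hsym A hA F Y hF hY hLF hLY x hx
  have hFY : SmC (fun y => F y * Y y) := SmC_mul hF hY
  ext a b
  have h1 := frame_M hs hsym hA hF (contDiff_colF hY b) (hLF x hx)
  have h2 : (fun y => F y *ᵥ colF b Y y) = colF b (fun y => F y * Y y) := by
    funext y
    exact (colF_mul F Y b y).symm
  rw [h2, LA_colF hs hA hFY b x, MFr_colF hs hsym hF hY b x] at h1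
  have h3 : colF b (LF s A fun y => F y * Y y) x = 0 := by
    funext a'
    have h4 : LF s A (fun y => F y * Y y) x = 0 := hLY x hx
    simp only [colF, h4, Matrix.zero_apply, Pi.zero_apply]
  rw [h3, Matrix.mulVec_zero] at h1
  exact (congrFun h1 a).symm

end Vale.Agent.P088.H924
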